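import Vale.Agent.P235.Av

/-! Anti-concentration. Plan for `anti`: if `a ≤ 0` the indicator is `1`... in general, for fixed `h`
at most one `j` has `|h x - h y + vl M j * (g x - g y)| < a / (2 M)` (two different `j` give values at
distance at least `a / M`), so the average of the indicator is at least `1 - 1 / (2 M + 1)`. Then use
the three properties in `Sig`. -/

namespace Vale.Agent.P235

open Finset

/-- Equally spaced values in `[-1, 1]`. -/
noncomputable def vl (M : ℕ) (j : Fin (2 * M + 1)) : ℝ := (((j : ℕ) : ℝ) - M) / M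

theorem vl_abs (M : ℕ) (j : Fin (2 * M + 1)) : |vl M j| ≤ 1 := by
  unfold vl
  rcases Nat.eq_zero_or_pos M with h | h
  · subst h; simp
  · have hM : (0 : ℝ) < M := by exact_mod_cast h
    have hj : ((j : ℕ) : ℝ) ≤ 2 * M := by
      have := j.2
      have h2 : (j : ℕ) ≤ 2 * M := by omega
      exact_mod_cast h2
    have hj0 : (0 : ℝ) ≤ ((j : ℕ) : ℝ) := Nat.cast_nonneg _
    rw [abs_div, abs_of_pos hM, div_le_one hM, abs_le]
    constructor <;> linarith

theorem vl_sum (M : ℕ) : ∑ j, vl M j = 0 := by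
  unfold vl
  rw [← Finset.sum_div, Finset.sum_sub_distrib]
  have h1 : ∑ j : Fin (2 * M + 1), ((j : ℕ) : ℝ) = (2 * M + 1) * M := by
    rw [Fin.sum_univ_eq_sum_range (fun i => (i : ℝ)) (2 * M + 1)]
    have h2 := Finset.sum_range_id_mul_two (2 * M + 1)
    have h3 : ((∑ i ∈ Finset.range (2 * M + 1), i : ℕ) : ℝ) * 2 = (2 * M + 1) * (2 * M) := by
      have : (2 * M + 1 - 1) = 2 * M := by omega
      rw [this] at h2
      exact_mod_cast h2
    push_cast at h3
    linarith
  rw [h1]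
  simp

theorem vl_zero {M : ℕ} (hM : 1 ≤ M) : vl M 0 = -1 := by
  have hM' : (M : ℝ) ≠ 0 := by
    have : M ≠ 0 := by omega
    exact_mod_cast this
  unfold vl
  simp [hM']

theorem vl_last {M : ℕ} (hM : 1 ≤ M) : vl M (Fin.last _) = 1 := by
  have hM' : (M : ℝ) ≠ 0 := by
    have : M ≠ 0 := by omega
    exact_mod_cast this
  unfold vl
  rw [Fin.val_last]
  push_cast
  field_simp
  ring

/-- At most one of the equally spaced shifts is small. -/
theorem av_ind_ge {M : ℕ} (hM : 1 ≤ M) (u d a : ℝ) (ha : a ≤ |d|) :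
    1 - 1 / (2 * M + 1) ≤ av fun j : Fin (2 * M + 1) => ind (a / (2 * M) ≤ |u + vl M j * d|) := by
  classical
  have hM0 : (0 : ℝ) < M := by exact_mod_cast hM
  have key : ∀ i j : Fin (2 * M + 1), ¬ (a / (2 * M) ≤ |u + vl M i * d|) →
      ¬ (a / (2 * M) ≤ |u + vl M j * d|) → i = j := by
    intro i j hi hj
    by_contra hne
    push Not at hi hj
    have h1 : (1 : ℝ) ≤ |((i : ℕ) : ℝ) - ((j : ℕ) : ℝ)| := by
      have hne' : (i : ℕ) ≠ (j : ℕ) := fun h => hne (Fin.ext h)
      rcases Nat.lt_or_gt_of_ne hne' with h | h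
      · have : ((i : ℕ) : ℝ) + 1 ≤ ((j : ℕ) : ℝ) := by exact_mod_cast h
        rw [abs_sub_comm, abs_of_nonneg (by linarith)]; linarith
      · have : ((j : ℕ) : ℝ) + 1 ≤ ((i : ℕ) : ℝ) := by exact_mod_cast h
        rw [abs_of_nonneg (by linarith)]; linarith
    have h2 : (u + vl M i * d) - (u + vl M j * d) = (((i : ℕ) : ℝ) - ((j : ℕ) : ℝ)) * d / M := by
      unfold vl; field_simp; ring
    have h3 : |(u + vl M i * d) - (u + vl M j * d)| < a / M := by
      have := abs_sub (u + vl M i * d) (u + vl M j * d)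
      have h4 : a / (2 * M) + a / (2 * M) = a / M := by field_simp; ring
      linarith
    rw [h2, abs_div, abs_mul, abs_of_pos hM0, div_lt_div_iff_of_pos_right hM0] at h3
    nlinarith [abs_nonneg d]
  have hsum : (2 * M : ℝ) ≤ ∑ j : Fin (2 * M + 1), ind (a / (2 * M) ≤ |u + vl M j * d|) := by
    by_cases hall : ∀ j : Fin (2 * M + 1), a / (2 * M) ≤ |u + vl M j * d|
    · rw [Finset.sum_congr rfl fun j _ => ind_pos (hall j)]
      simp
    · push Not at hall
      obtain ⟨i, hi⟩ := hall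
      rw [← Finset.add_sum_erase _ _ (Finset.mem_univ i)]
      have h5 : ∑ j ∈ Finset.univ.erase i, ind (a / (2 * M) ≤ |u + vl M j * d|)
          = ∑ j ∈ Finset.univ.erase i, (1 : ℝ) := by
        refine Finset.sum_congr rfl fun j hj => ind_pos ?_
        by_contra hj'
        exact (Finset.mem_erase.1 hj).1 (key j i hj' (not_le.2 hi))
      rw [h5]
      simp [ind_nonneg]
  unfold av
  push_cast
  have hp : (0 : ℝ) < 2 * M + 1 := by linarith
  rw [le_div_iff₀ hp]
  have : (1 - 1 / (2 * (M : ℝ) + 1)) * (2 * M + 1) = 2 * M := by field_simp; ring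
  linarith

variable {V : Type} [PseudoMetricSpace V]

theorem Sig.mono {q : ℕ} {val : Fin q → ℝ} {ε ε' : ℝ} {o : V} {μ : (V → ℝ) →₀ ℝ} {g : V → ℝ}
    (h : Sig val ε o μ g) (hε : ε ≤ ε') : Sig val ε' o μ g := by
  obtain ⟨μ', h1, h2, h3⟩ := h
  exact ⟨μ', h1, by linarith, h3⟩

theorem anti {M : ℕ} (hM : 1 ≤ M) {ε : ℝ} (hε : 0 ≤ ε) {o : V} {μ : (V → ℝ) →₀ ℝ} {g : V → ℝ}
    (h : Sig (vl M) ε o μ g) {x y : V} {a : ℝ} (ha : a ≤ |g x - g y|) :
    1 - ε - 1 / (2 * M + 1) ≤ Ex μ fun h => ind (a / (2 * M) ≤ |h x - h y|) := by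
  obtain ⟨μ', h1, h2, h3⟩ := h
  refine le_trans ?_ (h3 (fun h => ind (a / (2 * M) ≤ |h x - h y|)) fun _ => ind_nonneg _)
  have hM0 : (0 : ℝ) < M := by exact_mod_cast hM
  have h4 : Ex μ' (fun _ => 1 - 1 / (2 * (M : ℝ) + 1)) ≤
      Ex μ' fun h => av fun j => ind (a / (2 * M) ≤ |(h + vl M j • g) x - (h + vl M j • g) y|) := by
    refine Ex_mono h1.1 fun h _ => ?_
    have := av_ind_ge hM (h x - h y) (g x - g y) a ha
    refine this.trans (le_of_eq ?_)
    congr 1
    funext j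
    refine ind_congr ?_
    simp only [Pi.add_apply, Pi.smul_apply, smul_eq_mul]
    rw [show h x + vl M j * g x - (h y + vl M j * g y) = h x - h y + vl M j * (g x - g y) by ring]
  refine le_trans ?_ h4
  rw [Ex_const]
  have hp : (0 : ℝ) < 2 * M + 1 := by linarith
  have h5 : 0 ≤ 1 / (2 * (M : ℝ) + 1) := by positivity
  have h6 : 1 / (2 * (M : ℝ) + 1) ≤ 1 := by rw [div_le_one hp]; linarith
  nlinarith [mul_le_mul_of_nonneg_left h2 (sub_nonneg.2 h6), mul_nonneg hε h5]

end Vale.Agent.P235
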