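import Vale.Agent.P235.Fd

/-! The law of the full function. Plan: `Av_step`: the map `(ξ, j) ↦ (Function.update ξ i j, ξ i)` is
an involution of `(ι → Fin q) × Fin q`; `full (F + val j • G i, a.erase i) ξ` equals
`full (F, a) (update ξ i j)` (`Finset.add_sum_erase`). `retire_many`: induction on `U` with
`Ok.retire` and `Av_step`. `law_sig`: take
`μ' = law G val (mapDomain (fun x => (x.1, x.2.erase i)) (D.filter (i ∈ x.2)))`, use `Ex_law`,
`Ex_mapDomain`, `Ex_filter`, `Av_step` (exchange `av` and `Av`). For `law_isLaw` use `Ok.supp` at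
level `0`: the constant is `(M+1) γ 1 - card * δ + card * δ = 1/4`. -/

namespace Vale.Agent.P235

open Finset

variable {V ι : Type} [Fintype ι] [DecidableEq ι] {q : ℕ}

/-- The function with all active signals added. -/
noncomputable def full (G : ι → V → ℝ) (val : Fin q → ℝ) (x : Leaf V ι) (ξ : ι → Fin q) : V → ℝ :=
  x.1 + ∑ i ∈ x.2, val (ξ i) • G i

/-- Average over the coefficients of the signals. -/
noncomputable def Av (G : ι → V → ℝ) (val : Fin q → ℝ) (Φ : (V → ℝ) → ℝ) (x : Leaf V ι) : ℝ :=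
  (∑ ξ : ι → Fin q, Φ (full G val x ξ)) / (q : ℝ) ^ Fintype.card ι

/-- The law of the full function. -/
noncomputable def law (G : ι → V → ℝ) (val : Fin q → ℝ) (D : Leaf V ι →₀ ℝ) : (V → ℝ) →₀ ℝ :=
  D.sum fun x t => ∑ ξ : ι → Fin q, Finsupp.single (full G val x ξ) (t / (q : ℝ) ^ Fintype.card ι)

/-- Weights on `1`-Lipschitz functions vanishing at `o`. -/
structure IsLaw [PseudoMetricSpace V] (o : V) (μ : (V → ℝ) →₀ ℝ) : Prop where
  nonneg : ∀ h, 0 ≤ μ h
  lip : ∀ h ∈ μ.support, Lip 1 h ∧ h o = 0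

/-- With probability `1 - ε` the law `μ` contains a random multiple of `g`. -/
def Sig [PseudoMetricSpace V] (val : Fin q → ℝ) (ε : ℝ) (o : V) (μ : (V → ℝ) →₀ ℝ) (g : V → ℝ) :
    Prop :=
  ∃ μ' : (V → ℝ) →₀ ℝ, IsLaw o μ' ∧ (1 - ε ≤ Ex μ' fun _ => 1) ∧
    ∀ Φ : (V → ℝ) → ℝ, (∀ h, 0 ≤ Φ h) → (Ex μ' fun h => av fun j => Φ (h + val j • g)) ≤ Ex μ Φ

theorem Ex_law (G : ι → V → ℝ) (val : Fin q → ℝ) (D : Leaf V ι →₀ ℝ) (Φ : (V → ℝ) → ℝ) :
    Ex (law G val D) Φ = Ex D (Av G val Φ) := by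
  rw [law, Ex_finsuppSum, Ex_eq_sum]
  refine Finset.sum_congr rfl fun x _ => ?_
  rw [Ex_sum]
  simp only [Ex_single, Av]
  rw [← Finset.mul_sum]
  ring

theorem Av_const (hq : 0 < q) (G : ι → V → ℝ) (val : Fin q → ℝ) (c : ℝ) (x : Leaf V ι) :
    Av G val (fun _ => c) x = c := by
  have hq' : (q : ℝ) ≠ 0 := by exact_mod_cast hq.ne'
  simp only [Av, Finset.sum_const, Finset.card_univ, Fintype.card_fun, Fintype.card_fin,
    nsmul_eq_mul, Nat.cast_pow]
  field_simp

omit [Fintype ι] in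
theorem full_update (G : ι → V → ℝ) (val : Fin q → ℝ) (x : Leaf V ι) {i : ι} (hi : i ∈ x.2)
    (ξ : ι → Fin q) (j : Fin q) :
    full G val (x.1 + val j • G i, x.2.erase i) ξ = full G val x (Function.update ξ i j) := by
  unfold full
  rw [← Finset.add_sum_erase x.2 _ hi, Function.update_self, add_assoc]
  congr 2
  refine Finset.sum_congr rfl fun k hk => ?_
  rw [Function.update_of_ne (Finset.ne_of_mem_erase hk)]

theorem sum_update_eq (i : ι) (Ψ : (ι → Fin q) → ℝ) :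
    ∑ j : Fin q, ∑ ξ : ι → Fin q, Ψ (Function.update ξ i j) = q * ∑ ξ, Ψ ξ := by
  have hinv : Function.Involutive fun p : (ι → Fin q) × Fin q =>
      (Function.update p.1 i p.2, p.1 i) := fun p => by simp
  have h1 := Equiv.sum_comp hinv.toPerm fun p : (ι → Fin q) × Fin q => Ψ p.1
  simp only [Function.Involutive.coe_toPerm] at h1
  rw [Fintype.sum_prod_type_right, Fintype.sum_prod_type_right] at h1
  rw [h1]
  simp

theorem Av_nonneg (G : ι → V → ℝ) (val : Fin q → ℝ) {Φ : (V → ℝ) → ℝ} (hΦ : ∀ h, 0 ≤ Φ h)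
    (x : Leaf V ι) : 0 ≤ Av G val Φ x :=
  div_nonneg (Finset.sum_nonneg fun _ _ => hΦ _) (by positivity)

theorem Av_av (G : ι → V → ℝ) (val : Fin q → ℝ) (Φ : (V → ℝ) → ℝ) (g F : V → ℝ)
    (a : Finset ι) :
    Av G val (fun h => av fun j => Φ (h + val j • g)) (F, a) =
      av fun j => Av G val Φ (F + val j • g, a) := by
  have e : ∀ (ξ : ι → Fin q) (j : Fin q),
      full G val (F, a) ξ + val j • g = full G val (F + val j • g, a) ξ := fun ξ j => by
    simp only [full]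
    abel
  simp only [Av, av, e]
  rw [← Finset.sum_div, ← Finset.sum_div, Finset.sum_comm]
  ring

theorem Av_step (hq : 0 < q) (G : ι → V → ℝ) (val : Fin q → ℝ) (Φ : (V → ℝ) → ℝ) (x : Leaf V ι)
    {i : ι} (hi : i ∈ x.2) :
    Av G val Φ x = av fun j => Av G val Φ (x.1 + val j • G i, x.2.erase i) := by
  have hq' : (q : ℝ) ≠ 0 := by exact_mod_cast hq.ne'
  simp only [Av, av, full_update G val x hi]
  rw [← Finset.sum_div, sum_update_eq i fun ξ => Φ (full G val x ξ)]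
  field_simp

theorem Av_sdiff (G : ι → V → ℝ) (val : Fin q → ℝ) {T B : Finset V} (hB : B.Nonempty)
    (hBT : B ⊆ T) {Nw : Finset ι} (hN : ∀ i ∈ Nw, ∀ v ∈ T, G i v = 0) (x : Leaf V ι) :
    Av G val (fun h => B.inf' hB h) (x.1, x.2 \ Nw) = Av G val (fun h => B.inf' hB h) x := by
  unfold Av
  congr 1
  refine Finset.sum_congr rfl fun ξ _ => ?_
  refine Finset.inf'_congr hB rfl fun v hv => ?_
  simp only [full, Pi.add_apply, Finset.sum_apply, Pi.smul_apply, smul_eq_mul]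
  congr 1
  refine Finset.sum_subset Finset.sdiff_subset fun i hi hi' => ?_
  have : i ∈ Nw := by
    by_contra hc
    exact hi' (Finset.mem_sdiff.2 ⟨hi, hc⟩)
  rw [hN i this v (hBT hv), mul_zero]

variable [PseudoMetricSpace V] {P : Prm} {o : V} {E : Finset ι} {D : Leaf V ι →₀ ℝ}

theorem retire_many {l : ℕ} (h : Ok P o E l D) (hq : 0 < q) (val : Fin q → ℝ)
    (hv1 : ∀ j, |val j| ≤ 1) (hv0 : ∑ j, val j = 0) (G : ι → V → ℝ)
    (hG : ∀ i, Lip P.δ (G i) ∧ G i o = 0) (U : Finset ι) :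
    ∃ D', Ok P o (E \ U) l D' ∧ (∀ Φ, Ex D' (Av G val Φ) = Ex D (Av G val Φ)) ∧
      ∀ i, i ∉ U → (Ex D' fun x => ind (i ∈ x.2)) = Ex D fun x => ind (i ∈ x.2) := by
  have hq' : (q : ℝ) ≠ 0 := by exact_mod_cast hq.ne'
  induction U using Finset.induction_on with
  | empty => exact ⟨D, by simpa using h, fun _ => rfl, fun _ _ => rfl⟩
  | insert b U hb ih =>
    obtain ⟨D₁, h1, h2, h3⟩ := ih
    obtain ⟨D₂, k1, k2⟩ := h1.retire hq val hv1 hv0 b (G b) (hG b).1 (hG b).2
    refine ⟨D₂, by rwa [Finset.sdiff_insert], fun Φ => ?_, fun i hi => ?_⟩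
    · rw [k2, ← h2]
      refine Ex_congr fun x _ => ?_
      split_ifs with hx
      · exact (Av_step hq G val Φ x hx).symm
      · rfl
    · rw [Finset.mem_insert, not_or] at hi
      rw [k2, ← h3 i hi.2]
      refine Ex_congr fun x _ => ?_
      split_ifs with hx
      · have : ind (i ∈ x.2.erase b) = ind (i ∈ x.2) :=
          ind_congr (by simp [Finset.mem_erase, hi.1])
        simp only [av, this, Finset.sum_const, Finset.card_univ, Fintype.card_fin, nsmul_eq_mul]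
        field_simp
      · rfl

theorem law_isLaw_aux {δ : ℝ} (hδ : 0 ≤ δ) (hD : ∀ x, 0 ≤ D x)
    (hs : ∀ x ∈ D.support, Lip (1 - x.2.card * δ) x.1 ∧ x.1 o = 0) (val : Fin q → ℝ)
    (hv1 : ∀ j, |val j| ≤ 1) (G : ι → V → ℝ) (hG : ∀ i, Lip δ (G i) ∧ G i o = 0) :
    IsLaw o (law G val D) := by
  classical
  constructor
  · intro f
    rw [law, Finsupp.sum_apply, Finsupp.sum]
    refine Finset.sum_nonneg fun x _ => ?_
    rw [Finsupp.finsetSum_apply]
    refine Finset.sum_nonneg fun ξ _ => ?_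
    have := hD x
    rw [Finsupp.single_apply]
    split_ifs
    · positivity
    · exact le_rfl
  · intro f hf
    obtain ⟨x, hx, hf⟩ := Finset.mem_biUnion.1 (Finsupp.support_sum hf)
    obtain ⟨ξ, -, hξ⟩ := Finset.mem_biUnion.1 (Finsupp.support_finsetSum hf)
    have e := Finset.mem_singleton.1 (Finsupp.support_single_subset hξ)
    subst e
    obtain ⟨h1, h2⟩ := hs x hx
    constructor
    · have h3 : Lip (∑ _i ∈ x.2, δ) (∑ i ∈ x.2, val (ξ i) • G i) :=
        Lip.sum x.2 fun i _ => ((hG i).1.smul (val (ξ i))).mono (by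
          have := hv1 (ξ i)
          nlinarith)
      refine (h1.add h3).mono ?_
      simp
    · simp only [full, Pi.add_apply, Finset.sum_apply, Pi.smul_apply, smul_eq_mul, h2, zero_add]
      exact Finset.sum_eq_zero fun i _ => by rw [(hG i).2, mul_zero]

omit [Fintype ι] in
theorem Ok.supp_zero (h : Ok P o E 0 D) (hE : E.card ≤ P.m) {x : Leaf V ι}
    (hx : x ∈ D.support) : Lip (1 - x.2.card * P.δ) x.1 ∧ x.1 o = 0 := by
  obtain ⟨h1, h2, -⟩ := h.supp hE hx
  refine ⟨h1.mono ?_, h2⟩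
  rw [P.γ_succ 0]
  have : P.γ 0 = 1 := by simp [Prm.γ]
  rw [this]
  linarith

theorem law_isLaw (h : Ok P o E 0 D) (hE : E.card ≤ P.m) (val : Fin q → ℝ)
    (hv1 : ∀ j, |val j| ≤ 1) (G : ι → V → ℝ) (hG : ∀ i, Lip P.δ (G i) ∧ G i o = 0) :
    IsLaw o (law G val D) :=
  law_isLaw_aux P.δ_pos.le h.nonneg (fun _ hx => h.supp_zero hE hx) val hv1 G hG

theorem law_sig (h : Ok P o E 0 D) (hE : E.card ≤ P.m) (hq : 0 < q) (val : Fin q → ℝ)
    (hv1 : ∀ j, |val j| ≤ 1) (G : ι → V → ℝ) (hG : ∀ i, Lip P.δ (G i) ∧ G i o = 0) {ε : ℝ} {i : ι}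
    (hi : 1 - ε ≤ Ex D fun x => ind (i ∈ x.2)) : Sig val ε o (law G val D) (G i) := by
  classical
  refine ⟨law G val (Finsupp.mapDomain (fun x : Leaf V ι => (x.1, x.2.erase i))
    (D.filter fun x => i ∈ x.2)), ?_, ?_, fun Φ hΦ => ?_⟩
  · refine law_isLaw_aux P.δ_pos.le (fun y => ?_) (fun y hy => ?_) val hv1 G hG
    · rw [Finsupp.mapDomain, Finsupp.sum_apply, Finsupp.sum]
      refine Finset.sum_nonneg fun x _ => ?_
      rw [Finsupp.single_apply, Finsupp.filter_apply]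
      split_ifs
      · exact h.nonneg x
      · exact le_rfl
      · exact le_rfl
    · obtain ⟨x, hx, rfl⟩ := Finset.mem_image.1 (Finsupp.mapDomain_support hy)
      rw [Finsupp.support_filter] at hx
      obtain ⟨h1, h2⟩ := h.supp_zero hE (Finset.mem_filter.1 hx).1
      refine ⟨h1.mono ?_, h2⟩
      have hc : ((x.2.erase i).card : ℝ) ≤ x.2.card := by
        exact_mod_cast Finset.card_erase_le
      have := P.δ_pos
      show 1 - (x.2.card : ℝ) * P.δ ≤ 1 - ((x.2.erase i).card : ℝ) * P.δ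
      nlinarith
  · rw [Ex_law, Ex_mapDomain, Ex_filter]
    simpa only [Av_const hq, mul_one] using hi
  · rw [Ex_law, Ex_mapDomain, Ex_filter, Ex_law]
    refine Ex_mono h.nonneg fun x _ => ?_
    by_cases hx : i ∈ x.2
    · rw [ind_pos hx, one_mul, Av_av, ← Av_step hq G val Φ x hx]
    · rw [ind_neg hx, zero_mul]
      exact Av_nonneg G val hΦ x

end Vale.Agent.P235
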