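import Vale.Agent.P235.Defs

/-! Basic notions: expectations for finitely supported weights, Lipschitz functions, indicators,
sums over cuts. Plan: all lemmas are short (`Finsupp.sum_add_index'`, `Finsupp.sum_mapDomain_index`,
or observe `Ex D Φ = Finsupp.linearCombination ℝ Φ D`). -/

namespace Vale.Agent.P235

open Finset

/-- Expectation (no normalisation) of `Φ` for the finitely supported weight `D`. -/
noncomputable def Ex {α : Type} (D : α →₀ ℝ) (Φ : α → ℝ) : ℝ := D.sum fun a w => w * Φ a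

open Classical in
/-- Indicator of a proposition. -/
noncomputable def ind (P : Prop) : ℝ := if P then 1 else 0

/-- `f` is `L`-Lipschitz. -/
def Lip {V : Type} [PseudoMetricSpace V] (L : ℝ) (f : V → ℝ) : Prop :=
  ∀ x y, |f x - f y| ≤ L * dist x y

/-- Uniform average over `Fin q`. -/
noncomputable def av {q : ℕ} (f : Fin q → ℝ) : ℝ := (∑ j, f j) / q

/-- Weighted sum over cuts. -/
def Sm {V : Type} [Fintype V] (μ Φ : Finset V → ℝ) : ℝ := ∑ σ, μ σ * Φ σ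

/-- `Φ` only depends on the trace of the cut on `A`. -/
def Dep {V : Type} (A : Set V) (Φ : Finset V → ℝ) : Prop :=
  ∀ σ τ : Finset V, (∀ x ∈ A, x ∈ σ ↔ x ∈ τ) → Φ σ = Φ τ

/-- Indicator that `x` is in the cut. -/
noncomputable def mem {V : Type} (x : V) (σ : Finset V) : ℝ := ind (x ∈ σ)

/-- Weighted disagreement of two functions of the cut. -/
noncomputable def dis {V : Type} [Fintype V] (μ φ ψ : Finset V → ℝ) : ℝ :=
  Sm μ fun σ => |φ σ - ψ σ|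

/-- `0`-`1` valued functions of the cut. -/
def Bin {V : Type} (φ : Finset V → ℝ) : Prop := ∀ σ, φ σ = 0 ∨ φ σ = 1

theorem ind_pos {P : Prop} (h : P) : ind P = 1 := by simp [ind, h]
theorem ind_neg {P : Prop} (h : ¬ P) : ind P = 0 := by simp [ind, h]
theorem ind_nonneg (P : Prop) : 0 ≤ ind P := by unfold ind; split_ifs <;> norm_num
theorem ind_le_one (P : Prop) : ind P ≤ 1 := by unfold ind; split_ifs <;> norm_num
theorem ind_congr {P Q : Prop} (h : P ↔ Q) : ind P = ind Q := by rw [propext h]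
theorem ind_mono {P Q : Prop} (h : P → Q) : ind P ≤ ind Q := by
  by_cases hp : P
  · rw [ind_pos hp, ind_pos (h hp)]
  · rw [ind_neg hp]; exact ind_nonneg _
theorem ind_not (P : Prop) : ind (¬ P) = 1 - ind P := by
  by_cases hp : P
  · rw [ind_pos hp, ind_neg (not_not.2 hp)]; norm_num
  · rw [ind_neg hp, ind_pos hp]; norm_num
theorem ind_and (P Q : Prop) : ind (P ∧ Q) = ind P * ind Q := by
  by_cases hp : P <;> by_cases hq : Q <;> simp [ind, hp, hq]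

section Ex
variable {α β : Type}

theorem Ex_eq_lc (D : α →₀ ℝ) (Φ : α → ℝ) : Ex D Φ = Finsupp.linearCombination ℝ Φ D := by
  simp [Ex, Finsupp.linearCombination_apply]

theorem Ex_eq_sum (D : α →₀ ℝ) (Φ : α → ℝ) : Ex D Φ = ∑ a ∈ D.support, D a * Φ a := rfl

theorem Ex_eq_sum_of_subset (D : α →₀ ℝ) (Φ : α → ℝ) (s : Finset α) (h : D.support ⊆ s) :
    Ex D Φ = ∑ a ∈ s, D a * Φ a := by
  rw [Ex_eq_sum]
  refine Finset.sum_subset h fun a _ ha => ?_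
  rw [Finsupp.notMem_support_iff.1 ha, zero_mul]

@[simp] theorem Ex_zero (Φ : α → ℝ) : Ex (0 : α →₀ ℝ) Φ = 0 := by simp [Ex]

@[simp] theorem Ex_single (a : α) (w : ℝ) (Φ : α → ℝ) :
    Ex (Finsupp.single a w) Φ = w * Φ a := by simp [Ex_eq_lc]

theorem Ex_add (D D' : α →₀ ℝ) (Φ : α → ℝ) : Ex (D + D') Φ = Ex D Φ + Ex D' Φ := by
  simp [Ex_eq_lc]

theorem Ex_smul (c : ℝ) (D : α →₀ ℝ) (Φ : α → ℝ) : Ex (c • D) Φ = c * Ex D Φ := by
  simp [Ex_eq_lc]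

theorem Ex_sum {κ : Type} (s : Finset κ) (D : κ → α →₀ ℝ) (Φ : α → ℝ) :
    Ex (∑ c ∈ s, D c) Φ = ∑ c ∈ s, Ex (D c) Φ := by
  simp [Ex_eq_lc]

theorem Ex_mapDomain (f : α → β) (D : α →₀ ℝ) (Φ : β → ℝ) :
    Ex (Finsupp.mapDomain f D) Φ = Ex D fun a => Φ (f a) := by
  simp only [Ex_eq_lc]
  rw [Finsupp.linearCombination_mapDomain]
  rfl

theorem Ex_finsuppSum (D : α →₀ ℝ) (F : α → ℝ → β →₀ ℝ) (Φ : β → ℝ) :
    Ex (D.sum F) Φ = ∑ a ∈ D.support, Ex (F a (D a)) Φ := by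
  rw [Finsupp.sum, Ex_sum]

theorem Ex_filter (D : α →₀ ℝ) (P : α → Prop) [DecidablePred P] (Φ : α → ℝ) :
    Ex (D.filter P) Φ = Ex D fun a => ind (P a) * Φ a := by
  rw [Ex_eq_sum_of_subset (D.filter P) Φ D.support (by simp), Ex_eq_sum]
  refine Finset.sum_congr rfl fun a _ => ?_
  by_cases h : P a <;> simp [ind, h]

theorem Ex_congr {D : α →₀ ℝ} {Φ Ψ : α → ℝ} (h : ∀ a ∈ D.support, Φ a = Ψ a) :
    Ex D Φ = Ex D Ψ := by
  simp only [Ex_eq_sum]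
  exact Finset.sum_congr rfl fun a ha => by rw [h a ha]

theorem Ex_mono {D : α →₀ ℝ} (hD : ∀ a, 0 ≤ D a) {Φ Ψ : α → ℝ}
    (h : ∀ a ∈ D.support, Φ a ≤ Ψ a) : Ex D Φ ≤ Ex D Ψ := by
  simp only [Ex_eq_sum]
  exact Finset.sum_le_sum fun a ha => mul_le_mul_of_nonneg_left (h a ha) (hD a)

theorem Ex_nonneg {D : α →₀ ℝ} (hD : ∀ a, 0 ≤ D a) {Φ : α → ℝ}
    (h : ∀ a ∈ D.support, 0 ≤ Φ a) : 0 ≤ Ex D Φ := by
  simp only [Ex_eq_sum]
  exact Finset.sum_nonneg fun a ha => mul_nonneg (hD a) (h a ha)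

theorem Ex_fadd (D : α →₀ ℝ) (Φ Ψ : α → ℝ) :
    Ex D (fun a => Φ a + Ψ a) = Ex D Φ + Ex D Ψ := by
  simp only [Ex_eq_sum, mul_add, Finset.sum_add_distrib]

theorem Ex_fsub (D : α →₀ ℝ) (Φ Ψ : α → ℝ) :
    Ex D (fun a => Φ a - Ψ a) = Ex D Φ - Ex D Ψ := by
  simp only [Ex_eq_sum, mul_sub, Finset.sum_sub_distrib]

theorem Ex_fmul (D : α →₀ ℝ) (c : ℝ) (Φ : α → ℝ) :
    Ex D (fun a => c * Φ a) = c * Ex D Φ := by
  simp only [Ex_eq_sum, Finset.mul_sum]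
  exact Finset.sum_congr rfl fun a _ => by ring

theorem Ex_fdiv (D : α →₀ ℝ) (c : ℝ) (Φ : α → ℝ) :
    Ex D (fun a => Φ a / c) = Ex D Φ / c := by
  simp only [Ex_eq_sum, Finset.sum_div]
  exact Finset.sum_congr rfl fun a _ => by ring

theorem Ex_const (D : α →₀ ℝ) (c : ℝ) : Ex D (fun _ => c) = c * Ex D fun _ => 1 := by
  rw [← Ex_fmul]; simp

theorem Ex_fsum {κ : Type} (D : α →₀ ℝ) (s : Finset κ) (Φ : κ → α → ℝ) :
    Ex D (fun a => ∑ c ∈ s, Φ c a) = ∑ c ∈ s, Ex D (Φ c) := by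
  simp only [Ex_eq_sum, Finset.mul_sum]
  exact Finset.sum_comm

theorem Ex_av {q : ℕ} (D : α →₀ ℝ) (Φ : Fin q → α → ℝ) :
    Ex D (fun a => av fun j => Φ j a) = av fun j => Ex D (Φ j) := by
  simp only [av]
  rw [Ex_fdiv, Ex_fsum]

theorem abs_Ex_le {D : α →₀ ℝ} (hD : ∀ a, 0 ≤ D a) {Φ Ψ : α → ℝ}
    (h : ∀ a ∈ D.support, |Φ a| ≤ Ψ a) : |Ex D Φ| ≤ Ex D Ψ := by
  rw [abs_le]
  constructor
  · have : Ex D (fun a => (-1) * Ψ a) ≤ Ex D Φ :=
      Ex_mono hD fun a ha => by have := (abs_le.1 (h a ha)).1; linarith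
    rw [Ex_fmul] at this; linarith
  · exact Ex_mono hD fun a ha => (abs_le.1 (h a ha)).2

end Ex

section Lip
variable {V : Type} [PseudoMetricSpace V]

theorem Lip.mono {L L' : ℝ} {f : V → ℝ} (h : Lip L f) (hL : L ≤ L') : Lip L' f :=
  fun x y => (h x y).trans (mul_le_mul_of_nonneg_right hL dist_nonneg)

theorem Lip.add {L L' : ℝ} {f g : V → ℝ} (h : Lip L f) (h' : Lip L' g) : Lip (L + L') (f + g) :=
  fun x y => by
    have h1 := abs_le.1 (h x y)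
    have h2 := abs_le.1 (h' x y)
    simp only [Pi.add_apply]
    rw [abs_le]; constructor <;> nlinarith [h1.1, h1.2, h2.1, h2.2]

theorem Lip.smul {L : ℝ} {f : V → ℝ} (h : Lip L f) (c : ℝ) : Lip (|c| * L) (c • f) :=
  fun x y => by
    simp only [Pi.smul_apply, smul_eq_mul]
    rw [← mul_sub, abs_mul, mul_assoc]
    exact mul_le_mul_of_nonneg_left (h x y) (abs_nonneg c)

theorem Lip.zero {L : ℝ} (hL : 0 ≤ L) : Lip L (0 : V → ℝ) :=
  fun x y => by simpa using mul_nonneg hL dist_nonneg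

theorem Lip.sum {κ : Type} (s : Finset κ) {L : κ → ℝ} {f : κ → V → ℝ}
    (h : ∀ c ∈ s, Lip (L c) (f c)) : Lip (∑ c ∈ s, L c) (∑ c ∈ s, f c) := by
  classical
  induction s using Finset.induction_on with
  | empty => simpa using Lip.zero le_rfl
  | insert a s ha ih =>
    rw [Finset.sum_insert ha, Finset.sum_insert ha]
    exact (h a (by simp)).add (ih fun c hc => h c (by simp [hc]))

/-- McShane extension. -/
theorem exists_ext (T : Finset V) (f : V → ℝ) {L : ℝ} (hL : 0 ≤ L)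
    (hf : ∀ x ∈ T, ∀ y ∈ T, |f x - f y| ≤ L * dist x y) :
    ∃ g : V → ℝ, Lip L g ∧ ∀ x ∈ T, g x = f x := by
  have h1 : LipschitzOnWith ⟨L, hL⟩ f (T : Set V) :=
    LipschitzOnWith.of_dist_le_mul fun x hx y hy => by
      rw [Real.dist_eq]; exact hf x hx y hy
  obtain ⟨g, hg, hfg⟩ := h1.extend_real
  refine ⟨g, fun x y => ?_, fun x hx => (hfg hx).symm⟩
  have := hg.dist_le_mul x y
  rw [Real.dist_eq] at this
  exact this

end Lip

section Sm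
variable {V : Type} [Fintype V]

theorem Sm_mono {μ Φ Ψ : Finset V → ℝ} (hμ : ∀ σ, 0 ≤ μ σ) (h : ∀ σ, Φ σ ≤ Ψ σ) :
    Sm μ Φ ≤ Sm μ Ψ :=
  Finset.sum_le_sum fun σ _ => mul_le_mul_of_nonneg_left (h σ) (hμ σ)

theorem Sm_nonneg {μ Φ : Finset V → ℝ} (hμ : ∀ σ, 0 ≤ μ σ) (h : ∀ σ, 0 ≤ Φ σ) : 0 ≤ Sm μ Φ :=
  Finset.sum_nonneg fun σ _ => mul_nonneg (hμ σ) (h σ)

theorem Sm_add (μ Φ Ψ : Finset V → ℝ) : Sm μ (fun σ => Φ σ + Ψ σ) = Sm μ Φ + Sm μ Ψ := by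
  simp only [Sm, mul_add, Finset.sum_add_distrib]

theorem Sm_sub (μ Φ Ψ : Finset V → ℝ) : Sm μ (fun σ => Φ σ - Ψ σ) = Sm μ Φ - Sm μ Ψ := by
  simp only [Sm, mul_sub, Finset.sum_sub_distrib]

theorem Sm_mul (μ Φ : Finset V → ℝ) (c : ℝ) : Sm μ (fun σ => c * Φ σ) = c * Sm μ Φ := by
  simp only [Sm, Finset.mul_sum]
  exact Finset.sum_congr rfl fun a _ => by ring

theorem dis_nonneg {μ : Finset V → ℝ} (hμ : ∀ σ, 0 ≤ μ σ) (φ ψ : Finset V → ℝ) :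
    0 ≤ dis μ φ ψ := Sm_nonneg hμ fun _ => abs_nonneg _

theorem dis_comm (μ φ ψ : Finset V → ℝ) : dis μ φ ψ = dis μ ψ φ := by
  simp only [dis, abs_sub_comm]

@[simp] theorem dis_self (μ φ : Finset V → ℝ) : dis μ φ φ = 0 := by simp [dis, Sm]

theorem dis_triangle {μ : Finset V → ℝ} (hμ : ∀ σ, 0 ≤ μ σ) (φ ψ χ : Finset V → ℝ) :
    dis μ φ χ ≤ dis μ φ ψ + dis μ ψ χ := by
  unfold dis
  rw [← Sm_add]
  exact Sm_mono hμ fun σ => abs_sub_le _ _ _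

omit [Fintype V] in
theorem Dep.mono {A B : Set V} {Φ : Finset V → ℝ} (h : Dep A Φ) (hAB : A ⊆ B) : Dep B Φ :=
  fun σ τ hs => h σ τ fun x hx => hs x (hAB hx)

omit [Fintype V] in
theorem Dep.comp₂ {A : Set V} {Φ Ψ : Finset V → ℝ} (h : Dep A Φ) (h' : Dep A Ψ)
    (F : ℝ → ℝ → ℝ) : Dep A fun σ => F (Φ σ) (Ψ σ) :=
  fun σ τ hs => by simp only [h σ τ hs, h' σ τ hs]

omit [Fintype V] in
theorem dep_mem {A : Set V} {x : V} (hx : x ∈ A) : Dep A (mem x) :=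
  fun _ _ hs => ind_congr (hs x hx)

omit [Fintype V] in
theorem bin_mem (x : V) : Bin (mem x) := fun σ => by
  by_cases h : x ∈ σ
  · exact Or.inr (ind_pos h)
  · exact Or.inl (ind_neg h)

end Sm

end Vale.Agent.P235
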