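import Vale.Agent.P235.Basic

/-! The threshold lemma of Chlamtac, Krauthgamer and Raghavendra. Write
`cost θ i j = ∑ ω, μ ω * |ind (θ i < X i ω) - ind (θ j < X j ω)|` (it satisfies the triangle inequality).
If every `ω` with different indicators has `g ≤ |X i ω - X j ω|` then `cost ≤ (e j - e i) / g²`.
Main claim `A N`, by induction on `N`, with `c 0 = 1`, `c (N+1) = 50 * c N + 25`: for every closed
interval `J = [α, α + L]`, `L > 0`, and times `a ≤ b ≤ n` such that at each time in `[a, b]` at most `N`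
values of `X i` are in `J`, and no value of `X a` is in `J`, there is `θ` with values in `J` and
`∑ i ∈ Ico a b, cost θ i (i+1) ≤ c N * (e b - e a) / L²`. `N = 0`: the midpoint. Step: let
`I₂ = [α + L/5, α + 2L/5]`, `I₄ = [α + 3L/5, α + 4L/5]`. Inner claim by strong induction on `b - a`, for
`(I, I')` = `(I₂, I₄)` or `(I₄, I₂)`: if all values of `X a` in `J` are in `I'`, there is `θ` in `J`
with `θ a ∈ I` and the bound `c (N+1)`. Let `τ` be the first time in `(a, b]` at which `I` contains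
`N + 1` values (if none, use `A N` on `I`). Use `A N` for `I` on `[a, τ - 1]` and the inner claim for
`(I', I)` on `[τ, b]` (at time `τ` all values in `J` are in `I`); the step `τ - 1 → τ` costs at most
the cost of `[a, τ - 1]` plus `cost a τ ≤ 25 (e τ - e a) / L²`. `e` is monotone on `[0, n]`.
Finally `J = [1/4, 3/4]`. -/

namespace Vale.Agent.P235

open Finset

section CKR

variable {Ω : Type} [Fintype Ω]

/-- Weighted disagreement of two threshold indicators. -/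
noncomputable def ckrCost (μ : Ω → ℝ) (X : ℕ → Ω → ℝ) (θ : ℕ → ℝ) (i : ℕ) (θ' : ℕ → ℝ) (j : ℕ) :
    ℝ := ∑ ω, μ ω * |ind (θ i < X i ω) - ind (θ' j < X j ω)|

open Classical in
/-- The values of `X i` in `[lo, lo + L]`. -/
noncomputable def ckrVals (X : ℕ → Ω → ℝ) (i : ℕ) (lo L : ℝ) : Finset ℝ :=
  (univ.image (X i)).filter fun v => lo ≤ v ∧ v ≤ lo + L

def ckrC : ℕ → ℝ
  | 0 => 1
  | N + 1 => 50 * ckrC N + 25

theorem ckrC_pos (N : ℕ) : 0 < ckrC N := by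
  induction N with
  | zero => exact one_pos
  | succ N ih => unfold ckrC; linarith

theorem ckr_mem_vals {X : ℕ → Ω → ℝ} {i : ℕ} {lo L : ℝ} (ω : Ω) :
    X i ω ∈ ckrVals X i lo L ↔ lo ≤ X i ω ∧ X i ω ≤ lo + L := by
  simp [ckrVals]

variable {μ : Ω → ℝ} {X : ℕ → Ω → ℝ} {e : ℕ → ℝ} {n : ℕ}

theorem ckr_tri (hμ : ∀ ω, 0 ≤ μ ω) (θ θ' θ'' : ℕ → ℝ) (i j k : ℕ) :
    ckrCost μ X θ i θ'' k ≤ ckrCost μ X θ i θ' j + ckrCost μ X θ' j θ'' k := by
  unfold ckrCost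
  rw [← sum_add_distrib]
  refine sum_le_sum fun ω _ => ?_
  rw [← mul_add]
  exact mul_le_mul_of_nonneg_left (abs_sub_le _ _ _) (hμ ω)

theorem ckr_symm (θ θ' : ℕ → ℝ) (i j : ℕ) : ckrCost μ X θ i θ' j = ckrCost μ X θ' j θ i := by
  unfold ckrCost
  simp only [abs_sub_comm]

theorem ckr_chain (hμ : ∀ ω, 0 ≤ μ ω) (θ : ℕ → ℝ) {a b : ℕ} (h : a ≤ b) :
    ckrCost μ X θ a θ b ≤ ∑ i ∈ Ico a b, ckrCost μ X θ i θ (i + 1) := by
  induction b, h using Nat.le_induction with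
  | base => simp [ckrCost]
  | succ b hb ih =>
    rw [sum_Ico_succ_top hb]
    exact (ckr_tri hμ θ θ θ a b (b + 1)).trans (add_le_add ih le_rfl)

theorem ckr_gap (hμ : ∀ ω, 0 ≤ μ ω) (θ θ' : ℕ → ℝ) (i j : ℕ) {g E : ℝ} (hg : 0 < g)
    (hE : ∑ ω, μ ω * (X i ω - X j ω) ^ 2 ≤ E)
    (h : ∀ ω, (θ i < X i ω ↔ θ' j < X j ω) ∨ g ≤ |X i ω - X j ω|) :
    ckrCost μ X θ i θ' j ≤ E / g ^ 2 := by
  rw [le_div_iff₀ (by positivity)]
  refine le_trans ?_ hE
  unfold ckrCost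
  rw [sum_mul]
  refine sum_le_sum fun ω _ => ?_
  rw [mul_assoc]
  refine mul_le_mul_of_nonneg_left ?_ (hμ ω)
  rcases h ω with h | h
  · rw [ind_congr h, sub_self, abs_zero, zero_mul]
    positivity
  · have h1 : |ind (θ i < X i ω) - ind (θ' j < X j ω)| ≤ 1 := by
      rw [abs_le]
      constructor <;> linarith [ind_nonneg (θ i < X i ω), ind_le_one (θ i < X i ω),
        ind_nonneg (θ' j < X j ω), ind_le_one (θ' j < X j ω)]
    rw [← sq_abs (X i ω - X j ω)]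
    exact (mul_le_of_le_one_left (by positivity) h1).trans (by gcongr)

/-- The main claim for at most `N` values. -/
def CkrA (μ : Ω → ℝ) (X : ℕ → Ω → ℝ) (e : ℕ → ℝ) (n N : ℕ) : Prop :=
  ∀ (α L : ℝ) (a b : ℕ), 0 < L → a ≤ b → b ≤ n →
    (∀ i, a ≤ i → i ≤ b → (ckrVals X i α L).card ≤ N) →
    (∀ ω, ¬ (α ≤ X a ω ∧ X a ω ≤ α + L)) →
    ∃ θ : ℕ → ℝ, (∀ i, α ≤ θ i ∧ θ i ≤ α + L) ∧
      ∑ i ∈ Ico a b, ckrCost μ X θ i θ (i + 1) ≤ ckrC N * (e b - e a) / L ^ 2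

theorem ckr_zero (hμ : ∀ ω, 0 ≤ μ ω)
    (he : ∀ i j, i ≤ j → j ≤ n → ∑ ω, μ ω * (X i ω - X j ω) ^ 2 ≤ e j - e i) :
    CkrA μ X e n 0 := by
  intro α L a b hL hab hb hN _
  have hout : ∀ i, a ≤ i → i ≤ b → ∀ ω, X i ω < α ∨ α + L < X i ω := by
    intro i h1 h2 ω
    by_contra h
    push Not at h
    have := card_pos.2 ⟨_, (ckr_mem_vals ω).2 h⟩
    have := hN i h1 h2
    omega
  refine ⟨fun _ => α + L / 2, fun _ => ⟨by linarith, by linarith⟩, ?_⟩
  calc _ ≤ ∑ i ∈ Ico a b, (e (i + 1) - e i) / L ^ 2 := by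
        refine sum_le_sum fun i hi => ?_
        rw [mem_Ico] at hi
        refine ckr_gap hμ _ _ _ _ hL (he i (i + 1) (by omega) (by omega)) fun ω => ?_
        rcases hout i hi.1 hi.2.le ω with h1 | h1 <;>
          rcases hout (i + 1) (by omega) (by omega) ω with h2 | h2
        · exact Or.inl ⟨fun h => by linarith, fun h => by linarith⟩
        · exact Or.inr (le_abs.2 (Or.inr (by linarith)))
        · exact Or.inr (le_abs.2 (Or.inl (by linarith)))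
        · exact Or.inl ⟨fun h => by linarith, fun h => by linarith⟩
    _ = _ := by
        rw [← sum_div, sum_Ico_sub e hab, ckrC, one_mul]

theorem ckr_inner (hμ : ∀ ω, 0 ≤ μ ω)
    (he : ∀ i j, i ≤ j → j ≤ n → ∑ ω, μ ω * (X i ω - X j ω) ^ 2 ≤ e j - e i) {N : ℕ}
    (hA : CkrA μ X e n N) (α L : ℝ) (hL : 0 < L) (b : ℕ) (hb : b ≤ n) (d : ℕ) :
    ∀ (a : ℕ) (β β' : ℝ), b - a ≤ d → a ≤ b →
      ((β = α + L / 5 ∧ β' = α + 3 * L / 5) ∨ (β = α + 3 * L / 5 ∧ β' = α + L / 5)) →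
      (∀ i, a ≤ i → i ≤ b → (ckrVals X i α L).card ≤ N + 1) →
      (∀ ω, α ≤ X a ω ∧ X a ω ≤ α + L → β' ≤ X a ω ∧ X a ω ≤ β' + L / 5) →
      ∃ θ : ℕ → ℝ, (∀ i, α ≤ θ i ∧ θ i ≤ α + L) ∧ (β ≤ θ a ∧ θ a ≤ β + L / 5) ∧
        ∑ i ∈ Ico a b, ckrCost μ X θ i θ (i + 1) ≤ ckrC (N + 1) * (e b - e a) / L ^ 2 := by
  have hmono : ∀ i j, i ≤ j → j ≤ n → 0 ≤ e j - e i := fun i j h1 h2 =>
    (sum_nonneg fun ω _ => mul_nonneg (hμ ω) (sq_nonneg _)).trans (he i j h1 h2)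
  have hc := ckrC_pos N
  induction d using Nat.strong_induction_on with
  | _ d ih =>
  intro a β β' hd hab hβ hN ha
  have hIJ : ∀ v, β ≤ v ∧ v ≤ β + L / 5 → α ≤ v ∧ v ≤ α + L := fun v hv => by
    rcases hβ with h | h <;> constructor <;> linarith [h.1, hv.1, hv.2]
  have ha' : ∀ ω, ¬ (β ≤ X a ω ∧ X a ω ≤ β + L / 5) := fun ω h => by
    have := ha ω (hIJ _ h)
    rcases hβ with h' | h' <;> linarith [h'.1, h'.2, h.1, h.2, this.1, this.2]
  have e25 : ∀ t : ℝ, ckrC N * t / (L / 5) ^ 2 = 25 * ckrC N * t / L ^ 2 := fun t => by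
    field_simp; ring
  by_cases hex : ∃ τ, a ≤ τ ∧ τ ≤ b ∧ N < (ckrVals X τ β (L / 5)).card
  · obtain ⟨h1, h2, h3⟩ := Nat.find_spec hex
    have hmin := fun i (hi : i < Nat.find hex) => Nat.find_min hex hi
    generalize Nat.find hex = τ at h1 h2 h3 hmin
    have hτ : a < τ := by
      refine lt_of_le_of_ne h1 fun h => ?_
      subst h
      obtain ⟨v, hv⟩ := card_pos.1 (lt_of_le_of_lt (Nat.zero_le _) h3)
      simp only [ckrVals, mem_filter, mem_image, mem_univ, true_and] at hv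
      obtain ⟨⟨ω, rfl⟩, hv⟩ := hv
      exact ha' ω hv
    obtain ⟨t, rfl⟩ : ∃ t, τ = t + 1 := ⟨τ - 1, by omega⟩
    obtain ⟨θ1, hθ1, hc1⟩ := hA β (L / 5) a t (by positivity) (by omega) (by omega)
      (fun i hi1 hi2 => by
        by_contra h
        exact hmin i (by omega) ⟨hi1, by omega, not_le.1 h⟩) ha'
    have hτv : ∀ ω, α ≤ X (t + 1) ω ∧ X (t + 1) ω ≤ α + L →
        β ≤ X (t + 1) ω ∧ X (t + 1) ω ≤ β + L / 5 := by
      intro ω hω
      have hsub : ckrVals X (t + 1) β (L / 5) ⊆ ckrVals X (t + 1) α L := by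
        intro v hv
        simp only [ckrVals, mem_filter] at hv ⊢
        exact ⟨hv.1, hIJ v hv.2⟩
      have heq := eq_of_subset_of_card_le hsub ((hN _ h1 h2).trans h3)
      exact (ckr_mem_vals ω).1 (heq ▸ (ckr_mem_vals ω).2 hω)
    obtain ⟨θ2, hθ2, hθ2', hc2⟩ := ih (b - (t + 1)) (by omega) (t + 1) β' β le_rfl h2
      (hβ.symm.imp And.symm And.symm) (fun i hi1 hi2 => hN i (by omega) hi2) hτv
    refine ⟨fun i => if i ≤ t then θ1 i else θ2 i, fun i => ?_, ?_, ?_⟩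
    · dsimp only
      split_ifs
      · exact hIJ _ (hθ1 i)
      · exact hθ2 i
    · dsimp only
      rw [if_pos (by omega)]
      exact hθ1 a
    rw [← sum_Ico_consecutive _ h1 h2, sum_Ico_succ_top (by omega : a ≤ t)]
    have s1 : ∑ i ∈ Ico a t, ckrCost μ X (fun i => if i ≤ t then θ1 i else θ2 i) i
        (fun i => if i ≤ t then θ1 i else θ2 i) (i + 1)
        = ∑ i ∈ Ico a t, ckrCost μ X θ1 i θ1 (i + 1) := by
      refine sum_congr rfl fun i hi => ?_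
      rw [mem_Ico] at hi
      unfold ckrCost
      simp only [if_pos hi.2.le, if_pos (show i + 1 ≤ t from hi.2)]
    have s2 : ∑ i ∈ Ico (t + 1) b, ckrCost μ X (fun i => if i ≤ t then θ1 i else θ2 i) i
        (fun i => if i ≤ t then θ1 i else θ2 i) (i + 1)
        = ∑ i ∈ Ico (t + 1) b, ckrCost μ X θ2 i θ2 (i + 1) := by
      refine sum_congr rfl fun i hi => ?_
      rw [mem_Ico] at hi
      unfold ckrCost
      simp only [if_neg (show ¬ i ≤ t by omega), if_neg (show ¬ i + 1 ≤ t by omega)]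
    have s3 : ckrCost μ X (fun i => if i ≤ t then θ1 i else θ2 i) t
        (fun i => if i ≤ t then θ1 i else θ2 i) (t + 1) = ckrCost μ X θ1 t θ2 (t + 1) := by
      unfold ckrCost
      simp only [if_pos le_rfl, if_neg (show ¬ t + 1 ≤ t by omega)]
    have s4 := ckr_tri (X := X) hμ θ1 θ1 θ2 t a (t + 1)
    rw [ckr_symm θ1 θ1 t a] at s4
    have s5 := ckr_chain (X := X) hμ θ1 (show a ≤ t by omega)
    have s6 : ckrCost μ X θ1 a θ2 (t + 1) ≤ (e (t + 1) - e a) / (L / 5) ^ 2 := by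
      refine ckr_gap hμ _ _ _ _ (by positivity) (he a (t + 1) h1 (by omega)) fun ω => ?_
      have p1 := hθ1 a
      have q1 : X a ω < α ∨ α + L < X a ω ∨ (β' ≤ X a ω ∧ X a ω ≤ β' + L / 5) := by
        by_contra h
        push Not at h
        have := ha ω ⟨h.1, h.2.1⟩
        exact absurd this.2 (not_le.2 (h.2.2 this.1))
      have q2 : X (t + 1) ω < α ∨ α + L < X (t + 1) ω ∨
          (β ≤ X (t + 1) ω ∧ X (t + 1) ω ≤ β + L / 5) := by
        by_contra h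
        push Not at h
        have := hτv ω ⟨h.1, h.2.1⟩
        exact absurd this.2 (not_le.2 (h.2.2 this.1))
      obtain ⟨p1, p2⟩ := p1
      obtain ⟨p3, p4⟩ := hθ2'
      rcases hβ with ⟨r1, r2⟩ | ⟨r1, r2⟩ <;> rcases q1 with q1 | q1 | ⟨q1, q1'⟩ <;>
        rcases q2 with q2 | q2 | ⟨q2, q2'⟩ <;>
        first
          | exact Or.inl ⟨fun h => by linarith, fun h => by linarith⟩
          | exact Or.inr (le_abs.2 (Or.inr (by linarith)))
          | exact Or.inr (le_abs.2 (Or.inl (by linarith)))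
    rw [e25] at hc1
    have s7 : (e (t + 1) - e a) / (L / 5) ^ 2 = 25 * (e (t + 1) - e a) / L ^ 2 := by
      field_simp; ring
    have m1 := hmono t (t + 1) (by omega) (by omega)
    have s8 : 2 * (25 * ckrC N * (e t - e a) / L ^ 2) + 25 * (e (t + 1) - e a) / L ^ 2
        + ckrC (N + 1) * (e b - e (t + 1)) / L ^ 2 ≤ ckrC (N + 1) * (e b - e a) / L ^ 2 := by
      rw [← mul_div_assoc, ← add_div, ← add_div]
      gcongr
      rw [ckrC]
      nlinarith [mul_nonneg hc.le m1]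
    rw [s1, s2, s3]
    linarith
  · obtain ⟨θ, hθ, hc1⟩ := hA β (L / 5) a b (by positivity) hab hb
      (fun i hi1 hi2 => by
        by_contra h
        exact hex ⟨i, hi1, hi2, not_le.1 h⟩) ha'
    refine ⟨θ, fun i => hIJ _ (hθ i), hθ a, hc1.trans ?_⟩
    rw [e25]
    have := hmono a b hab hb
    gcongr
    rw [ckrC]
    linarith

theorem ckr_all (hμ : ∀ ω, 0 ≤ μ ω)
    (he : ∀ i j, i ≤ j → j ≤ n → ∑ ω, μ ω * (X i ω - X j ω) ^ 2 ≤ e j - e i) (N : ℕ) :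
    CkrA μ X e n N := by
  induction N with
  | zero => exact ckr_zero hμ he
  | succ N ih =>
    intro α L a b hL hab hb hN ha
    obtain ⟨θ, h1, _, h2⟩ := ckr_inner hμ he ih α L hL b hb _ a _ _ le_rfl hab (Or.inl ⟨rfl, rfl⟩)
      hN fun ω h => absurd h (ha ω)
    exact ⟨θ, h1, h2⟩

end CKR

theorem ckr (N : ℕ) : ∃ C : ℝ, 0 < C ∧ ∀ (Ω : Type) [Fintype Ω] (μ : Ω → ℝ) (n : ℕ)
    (X : ℕ → Ω → ℝ) (e : ℕ → ℝ), (∀ ω, 0 ≤ μ ω) →
    (∀ i, i ≤ n → (univ.image (X i)).card ≤ N) → (∀ ω, X 0 ω = 0 ∨ X 0 ω = 1) →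
    (∀ i j, i ≤ j → j ≤ n → ∑ ω, μ ω * (X i ω - X j ω) ^ 2 ≤ e j - e i) →
    ∃ θ : ℕ → ℝ, (0 ≤ θ 0 ∧ θ 0 < 1) ∧
      ∑ i ∈ range n, ∑ ω, μ ω * |ind (θ i < X i ω) - ind (θ (i + 1) < X (i + 1) ω)| ≤
        C * (e n - e 0) := by
  refine ⟨4 * ckrC N, by linarith [ckrC_pos N], fun Ω _ μ n X e hμ hN h0 he => ?_⟩
  obtain ⟨θ, h1, h2⟩ := ckr_all hμ he N (1 / 4) (1 / 2) 0 n (by norm_num) (Nat.zero_le _) le_rfl
    (fun i _ hi => le_trans (card_filter_le _ _) (by convert hN i hi))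
    (fun ω h => by rcases h0 ω with h' | h' <;> linarith [h.1, h.2])
  refine ⟨θ, ⟨by linarith [(h1 0).1], by linarith [(h1 0).2]⟩, ?_⟩
  rw [← range_eq_Ico] at h2
  exact h2.trans (le_of_eq (by ring))

end Vale.Agent.P235
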