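import Vale.Agent.P235.Gain

/-! Compression. Plan: `compress_aux` by induction on `j` (all of `l, D, ch` generalised).
`j = 0`: `D' = D` (`Ok.mono`, labels in the support are in `E`, disjoint from `Nw`), `R = 1`.
Step: if the bad mass is at most `p`, use `collapse` with `R = 0`. Otherwise `D` is a node (for a
leaf nothing is bad, as the function is `0`): `cases h`, apply the induction hypothesis to the
children with `ch ∘ sh (z c)`, `choose`, `D' = asm w z Dc' Z`, `R = ∑ w c * R c`, use `Ex_asm`,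
`Aff.shift`, `gain`. `exists_prm`: `M = 3 N + 1`, `J` large, `p = ε / (2 J)`,
`δ = (1 / (4 (M+1))) ^ (J+m) / (m+1)`; `J ≥ ε (M+1)` and `J ≥ 256² (M+1)⁴ 2 N / ε³`.
`compress`: `j = J`, `l = 0`, `sum_sqrt_le`, `sum_Pc`, `Ok.mass`. -/

namespace Vale.Agent.P235

open Finset

variable {V ι C : Type}

theorem compress_aux [PseudoMetricSpace V] [DecidableEq ι] [Fintype C] {P : Prm} {o : V}
    {E Nw : Finset ι} (hd : Disjoint E Nw) (hm : (E ∪ Nw).card ≤ P.m)
    (hN : 3 * (Fintype.card C : ℝ) ≤ P.M) (T : Finset V) (ho : o ∈ T) (j : ℕ) :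
    ∀ (l : ℕ) (D : Leaf V ι →₀ ℝ) (ch : Leaf V ι → C), l + j = P.J → Ok P o E l D → Lab ch E →
      ∃ (D' : Leaf V ι →₀ ℝ) (R : ℝ), Ok P o (E ∪ Nw) l D' ∧ 0 ≤ R ∧ R ≤ 1 ∧
        (∀ Φ, Aff ch T E Φ → (Ex D' fun x => Φ (x.1, x.2 \ Nw)) = Ex D Φ) ∧
        (1 - (j * P.p + R) ≤ Ex D' fun x => ind (Nw ⊆ x.2)) ∧
        j * (√P.p / (128 * (P.M + 1) ^ 2)) * R ≤ Psi D ch := by
  have hE : E.card ≤ P.m := (card_le_card subset_union_left).trans hm
  have hPsi : ∀ (D : Leaf V ι →₀ ℝ) (ch : Leaf V ι → C), 0 ≤ Psi D ch := fun D ch =>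
    sum_nonneg fun c _ => Real.sqrt_nonneg _
  have hsd : ∀ x : Leaf V ι, x.2 ⊆ E → (x.1, x.2 \ Nw) = x := fun x hx => by
    rw [Finset.sdiff_eq_self_of_disjoint (hd.mono_left hx)]
  have hp := P.p_pos
  induction j with
  | zero =>
    intro l D ch _ h _
    refine ⟨D, 1, h.mono subset_union_left, zero_le_one, le_rfl, fun Φ _ => ?_, ?_, ?_⟩
    · exact Ex_congr fun x hx => by rw [hsd x (h.supp hE hx).2.2]
    · have := Ex_nonneg h.nonneg (Φ := fun x => ind (Nw ⊆ x.2)) fun x _ => ind_nonneg _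
      simpa using this
    · simpa using hPsi D ch
  | succ j ih =>
    intro l D ch hl h hch
    have hj : (0 : ℝ) ≤ j * P.p := by positivity
    by_cases hB : (Ex D fun x => ind (Bad D ch T (P.γ (l + 1) / 2) (ch x))) ≤ P.p
    · obtain ⟨D', h1, h2, h3⟩ := collapse h (by omega) hd hm ch hch hN T ho hB
      refine ⟨D', 0, h1, le_rfl, zero_le_one, h2, ?_, ?_⟩
      · push_cast
        linarith
      · rw [mul_zero]
        exact hPsi D ch
    · rw [not_le] at hB
      cases h with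
      | leaf _ a ha hl' =>
        exfalso
        rw [Ex_single, ind_neg] at hB
        · linarith
        · rintro ⟨x, -, y, -, hxy⟩
          rw [Ex_single] at hxy
          have h1 : 0 ≤ Pc (Finsupp.single ((0 : V → ℝ), a) (1 : ℝ)) ch (ch (0, a)) := by
            rw [Pc, Ex_single, one_mul]
            exact ind_nonneg _
          have h2 := P.γ_pos (l + 1)
          have h3 : 0 ≤ P.γ (l + 1) / 2 * dist x y
              * Pc (Finsupp.single ((0 : V → ℝ), a) (1 : ℝ)) ch (ch (0, a)) := by positivity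
          simp only [Pi.zero_apply, sub_self, mul_zero, abs_zero] at hxy
          linarith
      | node _ κ w z Dc Z hT hD =>
        choose Dc' R h1 h2 h3 h4 h5 h6 using fun c =>
          ih (l + 1) (Dc c) (fun x => ch (sh (z c) x)) (by omega) (hD c) (hch.shift (z c))
        have hZ0 : 0 ≤ Ex Z fun _ => 1 := Ex_nonneg hT.hZ fun _ _ => zero_le_one
        have hW1 : ∑ c, w c ≤ 1 := by linarith [hT.h1]
        have hW2 : 1 - P.p ≤ ∑ c, w c := by linarith [hT.h1, hT.hp]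
        have hR1 : ∑ c, w c * R c ≤ 1 :=
          le_trans (sum_le_sum fun c _ => mul_le_of_le_one_right (hT.hw c) (h3 c)) hW1
        refine ⟨asm w z Dc' Z, ∑ c, w c * R c,
          Ok.node l κ w z Dc' Z (hT.mono subset_union_left) h1,
          sum_nonneg fun c _ => mul_nonneg (hT.hw c) (h2 c), hR1, fun Φ hΦ => ?_, ?_, ?_⟩
        · rw [Ex_asm, Ex_asm]
          congr 1
          · exact Ex_congr fun x hx => by rw [hsd x (hT.hZs x hx).2.2]
          · refine sum_congr rfl fun c _ => ?_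
            rw [← h4 c _ (hΦ.shift (z c))]
            rfl
        · rw [Ex_asm]
          have e1 : 0 ≤ Ex Z fun x => ind (Nw ⊆ x.2) := Ex_nonneg hT.hZ fun _ _ => ind_nonneg _
          have e2 : ∑ c, w c * (1 - (j * P.p + R c))
              ≤ ∑ c, w c * Ex (Dc' c) fun x => ind (Nw ⊆ (sh (z c) x).2) :=
            sum_le_sum fun c _ => mul_le_mul_of_nonneg_left (h5 c) (hT.hw c)
          have e3 : ∑ c, w c * (1 - (j * P.p + R c))
              = ∑ c, w c - j * P.p * ∑ c, w c - ∑ c, w c * R c := by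
            rw [mul_sum, ← sum_sub_distrib, ← sum_sub_distrib]
            exact sum_congr rfl fun c _ => by ring
          have e4 := mul_le_mul_of_nonneg_left hW1 hj
          push_cast
          linarith
        · have e1 := gain hT hD hE ch T hB
          obtain ⟨g, hg⟩ : ∃ g, g = √P.p / (128 * (P.M + 1) ^ 2) := ⟨_, rfl⟩
          have hg0 : 0 ≤ g := by rw [hg]; positivity
          rw [← hg] at e1 h6 ⊢
          have e2 : ∑ c, w c * (j * g * R c)
              ≤ ∑ c, w c * Psi (Dc c) (fun x => ch (sh (z c) x)) :=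
            sum_le_sum fun c _ => mul_le_mul_of_nonneg_left (h6 c) (hT.hw c)
          have e3 : ∑ c, w c * (j * g * R c) = j * g * ∑ c, w c * R c := by
            rw [mul_sum]
            exact sum_congr rfl fun c _ => by ring
          have e4 := mul_le_mul_of_nonneg_left hR1 hg0
          push_cast
          linarith

theorem exists_prm (N m : ℕ) (ε : ℝ) (hε : 0 < ε) : ∃ P : Prm, P.m = m ∧ 3 * (N : ℝ) ≤ P.M ∧
    P.δ ≤ 1 ∧ ∀ R : ℝ, P.J * (√P.p / (128 * (P.M + 1) ^ 2)) * R ≤ √N → P.J * P.p + R ≤ ε := by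
  obtain ⟨M, hM⟩ : ∃ M : ℝ, M = 3 * N + 1 := ⟨_, rfl⟩
  have hN0 : (0 : ℝ) ≤ N := Nat.cast_nonneg _
  have hM1 : 1 ≤ M := by rw [hM]; linarith
  obtain ⟨J, hJ⟩ := exists_nat_ge (1 + ε * (M + 1) + 256 ^ 2 * (M + 1) ^ 4 * 2 * N / ε ^ 3)
  have a1 : 0 ≤ ε * (M + 1) := by positivity
  have a2 : 0 ≤ 256 ^ 2 * (M + 1) ^ 4 * 2 * N / ε ^ 3 := by positivity
  have hJ0 : (0 : ℝ) < J := by linarith
  have hγ : (0 : ℝ) < (1 / (4 * (M + 1))) ^ (J + m) := by positivity
  have hγ1 : (1 / (4 * (M + 1))) ^ (J + m) ≤ (1 : ℝ) := by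
    refine pow_le_one₀ (by positivity) ?_
    rw [div_le_one (by positivity)]
    linarith
  have hm0 : (0 : ℝ) ≤ m := Nat.cast_nonneg _
  refine ⟨⟨M, ε / (2 * J), (1 / (4 * (M + 1))) ^ (J + m) / (m + 1), J, m, hM1, by positivity, ?_,
    by positivity, ?_⟩, rfl, ?_, ?_, fun R hR => ?_⟩
  · rw [div_mul_eq_mul_div, div_le_one (by positivity)]
    linarith
  · exact le_of_eq (by field_simp)
  · show 3 * (N : ℝ) ≤ M
    linarith
  · show (1 / (4 * (M + 1))) ^ (J + m) / ((m : ℝ) + 1) ≤ 1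
    rw [div_le_one (by positivity)]
    linarith
  · change (J : ℝ) * (√(ε / (2 * J)) / (128 * (M + 1) ^ 2)) * R ≤ √N at hR
    show (J : ℝ) * (ε / (2 * J)) + R ≤ ε
    obtain ⟨g, hg⟩ : ∃ g, g = (J : ℝ) * (√(ε / (2 * J)) / (128 * (M + 1) ^ 2)) := ⟨_, rfl⟩
    have hg0 : 0 < g := by rw [hg]; positivity
    have e1 : (g * (ε / 2)) ^ 2 = J * ε ^ 3 / (256 ^ 2 * (M + 1) ^ 4 * 2) := by
      rw [hg, mul_pow, mul_pow, div_pow, Real.sq_sqrt (by positivity)]
      field_simp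
      ring
    have e2 : (N : ℝ) ≤ (g * (ε / 2)) ^ 2 := by
      rw [e1, le_div_iff₀ (by positivity)]
      have : 256 ^ 2 * (M + 1) ^ 4 * 2 * N / ε ^ 3 ≤ J := by linarith
      rw [div_le_iff₀ (by positivity)] at this
      linarith
    have e3 : √(N : ℝ) ≤ g * (ε / 2) := (Real.sqrt_le_left (by positivity)).2 e2
    rw [← hg] at hR
    have e4 : R ≤ ε / 2 := le_of_mul_le_mul_left (hR.trans e3) hg0
    have e5 : (J : ℝ) * (ε / (2 * J)) = ε / 2 := by field_simp
    linarith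

theorem compress (N m : ℕ) (ε : ℝ) (hε : 0 < ε) : ∃ P : Prm, P.m = m ∧ P.δ ≤ 1 ∧
    ∀ (V ι C : Type) [PseudoMetricSpace V] [DecidableEq ι] [Fintype C] (o : V) (E Nw : Finset ι)
      (T : Finset V) (ch : Leaf V ι → C) (D : Leaf V ι →₀ ℝ), Disjoint E Nw →
      (E ∪ Nw).card ≤ m → Fintype.card C ≤ N → o ∈ T → Lab ch E → Ok P o E 0 D →
      ∃ D', Ok P o (E ∪ Nw) 0 D' ∧
        (∀ Φ, Aff ch T E Φ → (Ex D' fun x => Φ (x.1, x.2 \ Nw)) = Ex D Φ) ∧
        1 - ε ≤ Ex D' fun x => ind (Nw ⊆ x.2) := by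
  obtain ⟨P, h1, h2, h3, h4⟩ := exists_prm N m ε hε
  refine ⟨P, h1, h3, fun V ι C _ _ _ o E Nw T ch D hd hm hN ho hch h => ?_⟩
  have hN' : (Fintype.card C : ℝ) ≤ N := by exact_mod_cast hN
  obtain ⟨D', R, a1, -, -, a4, a5, a6⟩ := compress_aux (P := P) (C := C) hd (h1 ▸ hm)
    (by linarith) T ho P.J 0 D ch (Nat.zero_add _) h hch
  refine ⟨D', a1, a4, ?_⟩
  have a7 : Psi D ch ≤ √N :=
    sum_sqrt_le (Pc D ch) (fun c => Ex_nonneg h.nonneg fun _ _ => ind_nonneg _)
      (by rw [sum_Pc, h.mass]) hN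
  have := h4 R (a6.trans a7)
  linarith

end Vale.Agent.P235
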