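import Vale.Agent.P235.Basic

/-! Rooted elimination trees. Plan: `ind` is strong induction on `dep`; `anc_cases` is
`Relation.ReflTransGen.cases_tail`; `anc_of_dep_le` by induction on `u` (`ind`, `anc_cases`);
`mem_S` by induction with `S_sub`; `RI` by induction on `u`: if `u = b` then `y ∈ S b` (as `y ≠ b`),
else `y ≠ u`, so `y ∈ S u ⊆ B (par u)`. `exists_path` by induction on `s` (extend `w` at
`dep s`). `exists_rec`: `choose` a step function, define `f` by recursion on `dep`
(for instance `F : ℕ → V → α` by recursion on the depth bound, with values in the subtype, or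
`WellFounded.fix` on `measure dep`). `lca`: strong induction on `dep x + dep y`, or take a common
ancestor `a` of maximal depth and the depth `dep a + 1` vertices of the paths. -/

namespace Vale.Agent.P235

open Finset

/-- A rooted tree on `V` with separators `S u` of size at most `k`. -/
structure RT (V : Type) [DecidableEq V] (k : ℕ) where
  o : V
  par : V → V
  dep : V → ℕ
  S : V → Finset V
  dep_o : dep o = 0
  dep_par : ∀ u, u ≠ o → dep u = dep (par u) + 1
  S_o : S o = ∅
  S_sub : ∀ u, u ≠ o → S u ⊆ insert (par u) (S (par u))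
  par_mem : ∀ u, u ≠ o → par u ∈ S u
  card_S : ∀ u, (S u).card ≤ k

namespace RT

variable {V : Type} [DecidableEq V] {k : ℕ} (R : RT V k)

/-- `b` is an ancestor of `x` (or equal to it). -/
def Anc (b x : V) : Prop := Relation.ReflTransGen (fun a c => c ≠ R.o ∧ R.par c = a) b x

/-- The bag of `u`. -/
def B (u : V) : Finset V := insert u (R.S u)

theorem ind (P : V → Prop) (h0 : P R.o) (h1 : ∀ u, u ≠ R.o → P (R.par u) → P u) (u : V) : P u := by
  induction' h : R.dep u using Nat.strong_induction_on with n ih generalizing u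
  by_cases hu : u = R.o
  · rw [hu]; exact h0
  · refine h1 u hu (ih (R.dep (R.par u)) ?_ _ rfl)
    have := R.dep_par u hu
    omega

theorem anc_refl (u : V) : R.Anc u u := Relation.ReflTransGen.refl

theorem anc_trans {a b c : V} (h : R.Anc a b) (h' : R.Anc b c) : R.Anc a c :=
  Relation.ReflTransGen.trans h h'

theorem anc_par {u : V} (hu : u ≠ R.o) : R.Anc (R.par u) u :=
  Relation.ReflTransGen.single ⟨hu, rfl⟩

theorem anc_cases {b u : V} : R.Anc b u ↔ b = u ∨ (u ≠ R.o ∧ R.Anc b (R.par u)) := by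
  constructor
  · intro h
    rcases Relation.ReflTransGen.cases_tail h with h | ⟨c, hc, hu, hp⟩
    · exact Or.inl h.symm
    · right
      refine ⟨hu, ?_⟩
      rw [hp]; exact hc
  · rintro (h | ⟨hu, h⟩)
    · rw [h]; exact R.anc_refl u
    · exact R.anc_trans h (R.anc_par hu)

theorem anc_o (u : V) : R.Anc R.o u := by
  refine R.ind (fun u => R.Anc R.o u) (R.anc_refl _) (fun u hu h => ?_) u
  exact R.anc_trans h (R.anc_par hu)

theorem eq_o_of_anc {b : V} (h : R.Anc b R.o) : b = R.o := by
  rcases R.anc_cases.1 h with h | ⟨h, -⟩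
  · exact h
  · exact absurd rfl h

theorem dep_eq_zero {u : V} : R.dep u = 0 ↔ u = R.o := by
  constructor
  · intro h
    by_contra hu
    have := R.dep_par u hu
    omega
  · intro h
    rw [h]; exact R.dep_o

theorem anc_dep_le {b u : V} (h : R.Anc b u) : R.dep b ≤ R.dep u := by
  revert h
  refine R.ind (fun u => R.Anc b u → R.dep b ≤ R.dep u) ?_ ?_ u
  · intro h
    rw [R.eq_o_of_anc h]
  · intro u hu ih h
    rcases R.anc_cases.1 h with h | ⟨-, h⟩
    · rw [h]
    · have := ih h
      have := R.dep_par u hu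
      omega

theorem anc_eq_of_dep {b u : V} (h : R.Anc b u) (hd : R.dep u ≤ R.dep b) : b = u := by
  rcases R.anc_cases.1 h with h | ⟨hu, h⟩
  · exact h
  · have := R.anc_dep_le h
    have := R.dep_par u hu
    omega

theorem anc_of_dep_le {a b u : V} (ha : R.Anc a u) (hb : R.Anc b u) (hd : R.dep a ≤ R.dep b) :
    R.Anc a b := by
  revert ha hb
  refine R.ind (fun u => R.Anc a u → R.Anc b u → R.Anc a b) ?_ ?_ u
  · intro ha hb
    rw [R.eq_o_of_anc ha]; exact R.anc_o b
  · intro u hu ih ha hb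
    rcases R.anc_cases.1 hb with hb' | ⟨-, hb'⟩
    · rw [hb']; exact ha
    · rcases R.anc_cases.1 ha with ha' | ⟨-, ha'⟩
      · have h1 := R.anc_dep_le hb'
        have h2 := R.dep_par u hu
        rw [ha'] at hd
        omega
      · exact ih ha' hb'

theorem mem_S {z u : V} (h : z ∈ R.S u) : R.Anc z u ∧ R.dep z < R.dep u := by
  revert h
  refine R.ind (fun u => z ∈ R.S u → R.Anc z u ∧ R.dep z < R.dep u) ?_ ?_ u
  · intro h
    rw [R.S_o] at h
    exact absurd h (Finset.notMem_empty _)
  · intro u hu ih h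
    have h2 := R.dep_par u hu
    rcases Finset.mem_insert.1 (R.S_sub u hu h) with h1 | h1
    · rw [h1]
      exact ⟨R.anc_par hu, by omega⟩
    · obtain ⟨h3, h4⟩ := ih h1
      exact ⟨R.anc_trans h3 (R.anc_par hu), by omega⟩

theorem anc_of_mem_B {z u : V} (h : z ∈ R.B u) : R.Anc z u := by
  rcases Finset.mem_insert.1 h with h | h
  · rw [h]; exact R.anc_refl u
  · exact (R.mem_S h).1

theorem not_anc_of_mem_S {z u : V} (h : z ∈ R.S u) : ¬ R.Anc u z := by
  intro h'
  have h1 := (R.mem_S h).2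
  have h2 := R.anc_dep_le h'
  omega

theorem self_mem_B (u : V) : u ∈ R.B u := Finset.mem_insert_self _ _

theorem S_sub_B_self (u : V) : R.S u ⊆ R.B u := Finset.subset_insert _ _

theorem S_sub_B {u : V} (hu : u ≠ R.o) : R.S u ⊆ R.B (R.par u) := R.S_sub u hu

theorem B_o : R.B R.o = {R.o} := by simp [B, R.S_o]

theorem S_of_dep_one {b : V} (h : R.dep b = 1) : R.S b = {R.o} := by
  have hb : b ≠ R.o := by
    intro hb
    rw [hb, R.dep_o] at h
    omega
  have h1 := R.dep_par b hb
  have h2 : R.par b = R.o := R.dep_eq_zero.1 (by omega)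
  apply Finset.Subset.antisymm
  · have := R.S_sub b hb
    rw [h2, R.S_o] at this
    simpa using this
  · have := R.par_mem b hb
    rw [h2] at this
    simpa using this

/-- Running intersection. -/
theorem RI {b u y : V} (h : R.Anc b u) (hy : y ∈ R.B u) (hn : ¬ R.Anc b y) : y ∈ R.S b := by
  have key : ∀ u, y ∈ R.B u → ¬ R.Anc b y → b = u → y ∈ R.S b := by
    intro u hy hn h
    rw [← h] at hy
    rcases Finset.mem_insert.1 hy with h1 | h1
    · exact absurd (by rw [h1]; exact R.anc_refl b) hn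
    · exact h1
  revert h hy
  refine R.ind (fun u => R.Anc b u → y ∈ R.B u → y ∈ R.S b) ?_ ?_ u
  · intro h hy
    exact key _ hy hn (R.eq_o_of_anc h)
  · intro u hu ih h hy
    rcases R.anc_cases.1 h with h' | ⟨-, h'⟩
    · exact key _ hy hn h'
    · rcases Finset.mem_insert.1 hy with h1 | h1
      · exact absurd (by rw [h1]; exact h) hn
      · exact ih h' (R.S_sub_B hu h1)

/-- The path from the root to `s`. -/
structure Path (s : V) (w : ℕ → V) : Prop where
  last : w (R.dep s) = s
  dep_eq : ∀ i, i ≤ R.dep s → R.dep (w i) = i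
  anc : ∀ i, i ≤ R.dep s → R.Anc (w i) s
  ne_o : ∀ i, i < R.dep s → w (i + 1) ≠ R.o
  par_eq : ∀ i, i < R.dep s → R.par (w (i + 1)) = w i

theorem exists_path (s : V) : ∃ w, R.Path s w := by
  refine R.ind (fun s => ∃ w, R.Path s w) ?_ ?_ s
  · refine ⟨fun _ => R.o, rfl, ?_, ?_, ?_, ?_⟩
    · intro i hi
      rw [R.dep_o] at hi ⊢
      omega
    · intro i _
      exact R.anc_refl _
    · intro i hi
      rw [R.dep_o] at hi
      omega
    · intro i hi
      rw [R.dep_o] at hi
      omega
  · rintro u hu ⟨w, hw⟩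
    have hd := R.dep_par u hu
    refine ⟨fun i => if i = R.dep u then u else w i, by simp, ?_, ?_, ?_, ?_⟩
    · intro i hi
      by_cases h : i = R.dep u
      · simp [h]
      · simp only [h, if_false]
        exact hw.dep_eq i (by omega)
    · intro i hi
      by_cases h : i = R.dep u
      · simp only [h, if_true]; exact R.anc_refl u
      · simp only [h, if_false]
        exact R.anc_trans (hw.anc i (by omega)) (R.anc_par hu)
    · intro i hi
      by_cases h : i + 1 = R.dep u
      · simp only [h, if_true]; exact hu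
      · simp only [h, if_false]
        exact hw.ne_o i (by omega)
    · intro i hi
      have hi' : i ≠ R.dep u := by omega
      by_cases h : i + 1 = R.dep u
      · simp only [h, hi', if_true, if_false]
        have : i = R.dep (R.par u) := by omega
        rw [this, hw.last]
      · simp only [h, hi', if_false]
        exact hw.par_eq i (by omega)

theorem Path.eq_of_anc {R : RT V k} {s : V} {w : ℕ → V} (hw : R.Path s w) {b : V}
    (hb : R.Anc b s) : w (R.dep b) = b := by
  have h1 := R.anc_dep_le hb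
  have h2 := hw.dep_eq _ h1
  exact R.anc_eq_of_dep (R.anc_of_dep_le (hw.anc _ h1) hb h2.le) h2.ge

theorem Path.anc_of_le {R : RT V k} {s : V} {w : ℕ → V} (hw : R.Path s w) {i j : ℕ}
    (hij : i ≤ j) (hj : j ≤ R.dep s) : R.Anc (w i) (w j) := by
  refine R.anc_of_dep_le (hw.anc i (hij.trans hj)) (hw.anc j hj) ?_
  rw [hw.dep_eq i (hij.trans hj), hw.dep_eq j hj]
  exact hij

/-- Recursive construction along the tree. -/
theorem exists_rec {α : Type} (Inv : V → α → Prop) (Rel : V → α → α → Prop)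
    (h0 : ∃ a, Inv R.o a)
    (h1 : ∀ u, u ≠ R.o → ∀ a, Inv (R.par u) a → ∃ a', Inv u a' ∧ Rel u a a') :
    ∃ f : V → α, (∀ u, Inv u (f u)) ∧ ∀ u, u ≠ R.o → Rel u (f (R.par u)) (f u) := by
  classical
  obtain ⟨a0, ha0⟩ := h0
  choose g hg using h1
  have hlt : ∀ u, u ≠ R.o → R.dep (R.par u) < R.dep u := fun u hu => by
    have := R.dep_par u hu
    omega
  let F : ∀ u, {a // Inv u a} := WellFounded.fix (measure R.dep).wf
    (fun u ih => if hu : u = R.o then ⟨a0, hu ▸ ha0⟩ else
      ⟨g u hu (ih (R.par u) (hlt u hu)).1 (ih (R.par u) (hlt u hu)).2,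
        (hg u hu _ (ih (R.par u) (hlt u hu)).2).1⟩)
  refine ⟨fun u => (F u).1, fun u => (F u).2, fun u hu => ?_⟩
  have hF : (F u).1 = g u hu (F (R.par u)).1 (F (R.par u)).2 := by
    have := WellFounded.fix_eq (C := fun u => {a // Inv u a}) (measure R.dep).wf
      (fun u ih => if hu : u = R.o then ⟨a0, hu ▸ ha0⟩ else
        ⟨g u hu (ih (R.par u) (hlt u hu)).1 (ih (R.par u) (hlt u hu)).2,
          (hg u hu _ (ih (R.par u) (hlt u hu)).2).1⟩) u
    rw [dif_neg hu] at this
    exact congrArg Subtype.val this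
  beta_reduce
  rw [hF]
  exact (hg u hu _ (F (R.par u)).2).2

/-- Least common ancestor. -/
theorem lca (x y : V) : ∃ a,
    (x = a ∨ ∃ c, c ≠ R.o ∧ R.par c = a ∧ R.Anc c x ∧ ¬ R.Anc c y) ∧
    (y = a ∨ ∃ c, c ≠ R.o ∧ R.par c = a ∧ R.Anc c y ∧ ¬ R.Anc c x) := by
  classical
  obtain ⟨w, hw⟩ := R.exists_path x
  obtain ⟨w', hw'⟩ := R.exists_path y
  have h0 : 0 ≤ R.dep x ∧ R.Anc (w 0) y := by
    refine ⟨Nat.zero_le _, ?_⟩
    rw [R.dep_eq_zero.1 (hw.dep_eq 0 (Nat.zero_le _))]
    exact R.anc_o y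
  set i := Nat.findGreatest (fun i => i ≤ R.dep x ∧ R.Anc (w i) y) (R.dep x) with hi
  have hP : i ≤ R.dep x ∧ R.Anc (w i) y :=
    Nat.findGreatest_spec (P := fun i => i ≤ R.dep x ∧ R.Anc (w i) y) (Nat.zero_le _) h0
  have hmax : ∀ j, i < j → j ≤ R.dep x → ¬ R.Anc (w j) y := fun j h1 h2 h3 =>
    Nat.findGreatest_is_greatest (P := fun i => i ≤ R.dep x ∧ R.Anc (w i) y) h1 h2 ⟨h2, h3⟩
  have hdi := hw.dep_eq i hP.1
  have hiy : i ≤ R.dep y := by
    have := R.anc_dep_le hP.2
    omega
  have hww : w' i = w i := by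
    have := hw'.eq_of_anc hP.2
    rwa [hdi] at this
  refine ⟨w i, ?_, ?_⟩
  · rcases hP.1.eq_or_lt with h | h
    · left
      rw [h, hw.last]
    · exact Or.inr ⟨w (i + 1), hw.ne_o i h, hw.par_eq i h, hw.anc _ h,
        hmax _ (Nat.lt_succ_self i) h⟩
  · rcases hiy.eq_or_lt with h | h
    · left
      rw [← hww, h, hw'.last]
    · refine Or.inr ⟨w' (i + 1), hw'.ne_o i h, by rw [hw'.par_eq i h, hww], hw'.anc _ h, ?_⟩
      intro hx
      have h1 := hw'.dep_eq (i + 1) h
      have h2 := R.anc_dep_le hx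
      have h3 := hw.eq_of_anc hx
      rw [h1] at h2 h3
      refine hmax (i + 1) (Nat.lt_succ_self i) h2 ?_
      rw [h3]
      exact hw'.anc _ h

end RT

end Vale.Agent.P235
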