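import Vale.Agent.P235.Cham
import Vale.Agent.P235.Comp
import Vale.Agent.P235.Tree

/-! Existence of the laws. Plan: take `P` from `compress (2 ^ m * 2 ^ (n * n * q ^ m)) m ε`, `δ = P.δ`.
Use `RT.exists_rec` on `Leaf V ι →₀ ℝ` with
`Inv u D = Ok P o (A u) 0 D ∧ ∀ i ∈ A u, 1 - ε ≤ Ex D (ind (i ∈ x.2))` and
`Rel u D D' = ∀ B hB, B ⊆ T u → Ex D' (Av G val (inf' B)) = Ex D (Av G val (inf' B))`.
Root: `Ok.leaf 0 (A o)`. Step: `retire_many` with `U = A (par u) \ A u`, then `compress` with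
`E = A (par u) \ U`, `Nw = A u \ A (par u)` (so `E ∪ Nw = A u`), chambers from `exists_chamber`,
and `Av_sdiff`. Finally `μ u = law G val (D u)`, with `law_isLaw`, `law_sig`, `Ex_law`, `Av_const`. -/

namespace Vale.Agent.P235

open Finset

theorem exists_law (m n q : ℕ) (hq : 0 < q) (ε : ℝ) (hε : 0 < ε) : ∃ δ : ℝ, 0 < δ ∧ δ ≤ 1 ∧
    ∀ (V ι : Type) [DecidableEq V] [PseudoMetricSpace V] [Fintype ι] [DecidableEq ι] (k : ℕ)
      (R : RT V k) (val : Fin q → ℝ) (G : ι → V → ℝ) (A : V → Finset ι) (T : V → Finset V),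
      (∀ j, |val j| ≤ 1) → ∑ j, val j = 0 → (∀ i, Lip δ (G i) ∧ G i R.o = 0) →
      (∀ u, (A u).card ≤ m) → (∀ u, (T u).card ≤ n) → (∀ u, R.o ∈ T u) →
      (∀ u, u ≠ R.o → ∀ i ∈ A u, i ∉ A (R.par u) → ∀ v ∈ T u, G i v = 0) →
      ∃ μ : V → (V → ℝ) →₀ ℝ, (∀ u, IsLaw R.o (μ u) ∧ (Ex (μ u) fun _ => 1) = 1) ∧
        (∀ u, ∀ i ∈ A u, Sig val ε R.o (μ u) (G i)) ∧
        ∀ u, u ≠ R.o → ∀ (B : Finset V) (hB : B.Nonempty), B ⊆ T u →
          (Ex (μ u) fun h => B.inf' hB h) = Ex (μ (R.par u)) fun h => B.inf' hB h := by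
  obtain ⟨P, hPm, hP1, hP⟩ := compress (2 ^ m * 2 ^ (n * n * q ^ m)) m ε hε
  refine ⟨P.δ, P.δ_pos, hP1, ?_⟩
  intro V ι _ _ _ _ k R val G A T hv1 hv0 hG hA hT ho hN
  obtain ⟨D, h1, h2⟩ := R.exists_rec
    (fun u (D : Leaf V ι →₀ ℝ) => Ok P R.o (A u) 0 D ∧
      ∀ i ∈ A u, 1 - ε ≤ Ex D fun x => ind (i ∈ x.2))
    (fun u D D' => ∀ (B : Finset V) (hB : B.Nonempty), B ⊆ T u →
      Ex D' (Av G val fun h => B.inf' hB h) = Ex D (Av G val fun h => B.inf' hB h))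
    ⟨_, Ok.leaf 0 (A R.o) Subset.rfl (by have := hA R.o; omega), fun i hi => by
      rw [Ex_single, ind_pos hi]
      linarith⟩
    (by
      rintro u hu D ⟨hD, hD'⟩
      obtain ⟨D1, a1, a2, a3⟩ := retire_many hD hq val hv1 hv0 G hG (A (R.par u) \ A u)
      have hE : A (R.par u) \ (A (R.par u) \ A u) ∪ A u \ A (R.par u) = A u := by
        ext i
        simp only [mem_union, mem_sdiff]
        tauto
      obtain ⟨C, _, ch, b1, b2, b3, b4⟩ := exists_chamber hq G val (T u)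
        (A (R.par u) \ (A (R.par u) \ A u)) ((card_le_card sdiff_subset).trans (hA _)) (hT u)
      obtain ⟨D2, c1, c2, c3⟩ := hP V ι C R.o _ (A u \ A (R.par u)) (T u) ch D1
        (disjoint_left.2 fun i hi hi' => (mem_sdiff.1 hi').2 (mem_sdiff.1 hi).1)
        (by rw [hE]; exact hA u) b1 (ho u) b2 a1
      rw [hE] at c1
      refine ⟨D2, ⟨c1, fun i hi => ?_⟩, fun B hB hBT => ?_⟩
      · by_cases hi' : i ∈ A (R.par u)
        · have e := c2 _ (b4 i)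
          rw [a3 i fun h => (mem_sdiff.1 h).2 hi] at e
          refine (hD' i hi').trans (e.symm.le.trans (Ex_mono c1.nonneg fun x _ => ind_mono ?_))
          exact fun h => (mem_sdiff.1 h).1
        · exact c3.trans (Ex_mono c1.nonneg fun x _ => ind_mono fun h => h (mem_sdiff.2 ⟨hi, hi'⟩))
      · rw [← a2, ← c2 _ (b3 B hB hBT)]
        exact Ex_congr fun x _ => (Av_sdiff G val hB hBT
          (fun i hi => hN u hu i (mem_sdiff.1 hi).1 (mem_sdiff.1 hi).2) x).symm)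
  refine ⟨fun u => law G val (D u), fun u => ⟨law_isLaw (h1 u).1 (hPm ▸ hA u) val hv1 G hG, ?_⟩,
    fun u i hi => law_sig (h1 u).1 (hPm ▸ hA u) hq val hv1 G hG ((h1 u).2 i hi),
    fun u hu B hB hBT => ?_⟩
  · rw [Ex_law, Ex_congr fun x _ => Av_const hq G val 1 x, (h1 u).1.mass]
  · rw [Ex_law, Ex_law, h2 u hu B hB hBT]

end Vale.Agent.P235
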