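import Vale.Agent.P235.Fd

/-! The collapse step. `ch` is a chamber map. Plan for `collapse`: `Pc c = Ex D (ind (ch x = c))`,
`κ` = the chambers that are not bad and have `0 < Pc c`, `w = Pc`, `Z = D.filter (Bad (ch x))`,
`a c` = the common label of the support points of chamber `c`, children = leaf `a c ∪ Nw` at level
`l + 1`. `mc c v = Ex D (ind (ch x = c) * x.1 v) / Pc c` is `γ/2`-Lipschitz on `T`, `y c` = its
extension (`exists_ext`; `mc c o = 0`). Take `c₀ ∈ κ` with maximal `Pc`, so `1 / (2 N) ≤ Pc c₀`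
(`p ≤ 1/2`), `z c = y c` for `c ≠ c₀` and
`z c₀ = -(Pc c₀)⁻¹ • (∑ c ≠ c₀, Pc c • y c + fun v => Ex Z (x.1 v))`, which is
`2 N (γ/2 + p (M+1) γ) ≤ 3 N γ` Lipschitz and agrees with `mc c₀` on `T` by `Ok.mean`.
Tests: apply `Aff` to `D.filter (ch x = c)` and `x₀ = (z c, a c)`.
`Aff.shift`: apply `Aff` to `Finsupp.mapDomain (sh z) D` and `sh z x₀`. -/

namespace Vale.Agent.P235

open Finset

variable {V ι C : Type}

/-- The chamber determines the label. -/
def Lab (ch : Leaf V ι → C) (E : Finset ι) : Prop :=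
  ∀ x y : Leaf V ι, x.2 ⊆ E → y.2 ⊆ E → ch x = ch y → x.2 = y.2

/-- `Φ` is affine on each chamber and only depends on the values on `T`. -/
def Aff (ch : Leaf V ι → C) (T : Finset V) (E : Finset ι) (Φ : Leaf V ι → ℝ) : Prop :=
  ∀ (D : Leaf V ι →₀ ℝ) (c : C) (x₀ : Leaf V ι), (∀ x, 0 ≤ D x) → x₀.2 ⊆ E →
    (∀ x ∈ D.support, ch x = c ∧ x.2 = x₀.2) → (0 < Ex D fun _ => 1) →
    (∀ v ∈ T, (Ex D fun x => x.1 v) = (Ex D fun _ => 1) * x₀.1 v) →
    Ex D Φ = (Ex D fun _ => 1) * Φ x₀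

/-- Probability of a chamber. -/
noncomputable def Pc (D : Leaf V ι →₀ ℝ) (ch : Leaf V ι → C) (c : C) : ℝ :=
  Ex D fun x => ind (ch x = c)

/-- The conditional mean in chamber `c` is not `s`-Lipschitz on `T`. -/
def Bad [PseudoMetricSpace V] (D : Leaf V ι →₀ ℝ) (ch : Leaf V ι → C) (T : Finset V) (s : ℝ)
    (c : C) : Prop :=
  ∃ x ∈ T, ∃ y ∈ T, s * dist x y * Pc D ch c < |Ex D fun a => ind (ch a = c) * (a.1 x - a.1 y)|

/-- The Hellinger potential. -/
noncomputable def Psi [Fintype C] (D : Leaf V ι →₀ ℝ) (ch : Leaf V ι → C) : ℝ :=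
  ∑ c, √(Pc D ch c)

theorem Lab.shift {ch : Leaf V ι → C} {E : Finset ι} (h : Lab ch E) (z : V → ℝ) :
    Lab (fun x => ch (sh z x)) E := fun x y hx hy hc => h (sh z x) (sh z y) hx hy hc

theorem Aff.shift {ch : Leaf V ι → C} {T : Finset V} {E : Finset ι} {Φ : Leaf V ι → ℝ}
    (h : Aff ch T E Φ) (z : V → ℝ) : Aff (fun x => ch (sh z x)) T E fun x => Φ (sh z x) := by
  classical
  intro D c x₀ hD hx hs hp hm
  have h1 := h (Finsupp.mapDomain (sh z) D) c (sh z x₀)
    (fun x => Finsupp.mapDomain_nonneg (f := sh z) (g := D) (fun a => hD a) x) hx ?_ ?_ ?_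
  · rwa [Ex_mapDomain, Ex_mapDomain] at h1
  · intro x hx'
    obtain ⟨y, hy, rfl⟩ := Finset.mem_image.1 (Finsupp.mapDomain_support hx')
    exact hs y hy
  · rwa [Ex_mapDomain]
  · intro v hv
    rw [Ex_mapDomain, Ex_mapDomain]
    simp only [sh, Pi.add_apply]
    rw [Ex_fadd, hm v hv, Ex_const]
    ring

theorem sum_Pc [Fintype C] (D : Leaf V ι →₀ ℝ) (ch : Leaf V ι → C) :
    ∑ c, Pc D ch c = Ex D fun _ => 1 := by
  classical
  unfold Pc
  rw [← Ex_fsum]
  refine Ex_congr fun a _ => ?_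
  simp [ind]

private theorem coll_split [Fintype C] (D : Leaf V ι →₀ ℝ) (ch : Leaf V ι → C)
    (Ψ : Leaf V ι → ℝ) : Ex D Ψ = ∑ c, Ex D fun x => ind (ch x = c) * Ψ x := by
  classical
  rw [← Ex_fsum]
  refine Ex_congr fun a _ => ?_
  rw [← Finset.sum_mul]
  simp [ind]

private theorem coll_zero {D : Leaf V ι →₀ ℝ} (hD : ∀ x, 0 ≤ D x) (ch : Leaf V ι → C) {c : C}
    (hc : ¬ 0 < Pc D ch c) (Ψ : Leaf V ι → ℝ) : (Ex D fun x => ind (ch x = c) * Ψ x) = 0 := by
  have h1 : ∀ x ∈ D.support, ch x ≠ c := by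
    intro x hx hxc
    apply hc
    have h2 : D x * ind (ch x = c) ≤ Pc D ch c :=
      Finset.single_le_sum (f := fun a => D a * ind (ch a = c))
        (fun a _ => mul_nonneg (hD a) (ind_nonneg _)) hx
    rw [ind_pos hxc, mul_one] at h2
    exact lt_of_lt_of_le (lt_of_le_of_ne (hD x) (Finsupp.mem_support_iff.1 hx).symm) h2
  rw [Ex_congr (Ψ := fun _ => 0) fun a ha => by rw [ind_neg (h1 a ha), zero_mul], Ex_const,
    zero_mul]

open Classical in
private theorem coll_dec [Fintype C] {D : Leaf V ι →₀ ℝ} (hD : ∀ x, 0 ≤ D x) (ch : Leaf V ι → C)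
    (B : C → Prop) (Ψ : Leaf V ι → ℝ) :
    Ex D Ψ = Ex (D.filter fun x => B (ch x)) Ψ
      + ∑ c, if ¬ B c ∧ 0 < Pc D ch c then Ex D fun x => ind (ch x = c) * Ψ x else 0 := by
  rw [Ex_filter, coll_split D ch Ψ, coll_split D ch fun x => ind (B (ch x)) * Ψ x,
    ← Finset.sum_add_distrib]
  refine Finset.sum_congr rfl fun c _ => ?_
  have h1 : (Ex D fun x => ind (ch x = c) * (ind (B (ch x)) * Ψ x))
      = ind (B c) * Ex D fun x => ind (ch x = c) * Ψ x := by
    rw [← Ex_fmul]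
    refine Ex_congr fun a _ => ?_
    by_cases h : ch a = c
    · rw [h]; ring
    · rw [ind_neg h]; ring
  rw [h1]
  by_cases hB : B c
  · rw [ind_pos hB, if_neg (fun h => h.1 hB)]; ring
  · rw [ind_neg hB]
    by_cases hp : 0 < Pc D ch c
    · rw [if_pos ⟨hB, hp⟩]; ring
    · rw [if_neg (fun h => hp h.2), coll_zero hD ch hp]; ring

private theorem coll_lab {D : Leaf V ι →₀ ℝ} {ch : Leaf V ι → C} {E : Finset ι} (hch : Lab ch E)
    (hs : ∀ x ∈ D.support, x.2 ⊆ E) :
    ∃ a : C → Finset ι, (∀ c, a c ⊆ E) ∧ ∀ x ∈ D.support, x.2 = a (ch x) := by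
  have h1 : ∀ c, ∃ a : Finset ι, a ⊆ E ∧ ∀ x ∈ D.support, ch x = c → x.2 = a := by
    intro c
    by_cases h : ∃ x ∈ D.support, ch x = c
    · obtain ⟨y, hy, hyc⟩ := h
      exact ⟨y.2, hs y hy, fun x hx hxc => hch x y (hs x hx) (hs y hy) (hxc.trans hyc.symm)⟩
    · exact ⟨∅, Finset.empty_subset _, fun x hx hxc => absurd ⟨x, hx, hxc⟩ h⟩
  choose a ha hb using h1
  exact ⟨a, ha, fun x hx => hb (ch x) x hx rfl⟩

private theorem coll_ext [PseudoMetricSpace V] {D : Leaf V ι →₀ ℝ} (ch : Leaf V ι → C)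
    (T : Finset V) {o : V} (ho : o ∈ T) (h0 : ∀ x ∈ D.support, x.1 o = 0) {s : ℝ} (hs : 0 ≤ s)
    (c : C) : ∃ y : V → ℝ, Lip s y ∧ y o = 0 ∧ (¬ Bad D ch T s c ∧ 0 < Pc D ch c →
      ∀ v ∈ T, (Ex D fun x => ind (ch x = c) * x.1 v) = Pc D ch c * y v) := by
  by_cases hg : ¬ Bad D ch T s c ∧ 0 < Pc D ch c
  · obtain ⟨hB, hp⟩ := hg
    obtain ⟨y, hy, hyT⟩ := exists_ext T
      (fun v => (Ex D fun x => ind (ch x = c) * x.1 v) / Pc D ch c) hs (by
        intro x hx x' hx'
        have h1 : |Ex D fun a => ind (ch a = c) * (a.1 x - a.1 x')| ≤ s * dist x x' * Pc D ch c :=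
          not_lt.1 fun h => hB ⟨x, hx, x', hx', h⟩
        simp only [mul_sub] at h1
        rw [Ex_fsub] at h1
        rw [← sub_div, abs_div, abs_of_pos hp, div_le_iff₀ hp]
        exact h1)
    refine ⟨y, hy, ?_, fun _ v hv => ?_⟩
    · rw [hyT o ho, Ex_congr (Ψ := fun _ => 0) fun a ha => by rw [h0 a ha, mul_zero], Ex_const]
      simp
    · rw [hyT v hv]; field_simp
  · exact ⟨0, Lip.zero hs, rfl, fun h => absurd h hg⟩

theorem collapse [PseudoMetricSpace V] [DecidableEq ι] [Fintype C] {P : Prm} {o : V}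
    {E Nw : Finset ι} {l : ℕ} {D : Leaf V ι →₀ ℝ} (h : Ok P o E l D) (hl : l + 1 ≤ P.J)
    (hd : Disjoint E Nw) (hm : (E ∪ Nw).card ≤ P.m) (ch : Leaf V ι → C) (hch : Lab ch E)
    (hN : 3 * (Fintype.card C : ℝ) ≤ P.M) (T : Finset V) (ho : o ∈ T)
    (hB : (Ex D fun x => ind (Bad D ch T (P.γ (l + 1) / 2) (ch x))) ≤ P.p) :
    ∃ D', Ok P o (E ∪ Nw) l D' ∧
      (∀ Φ, Aff ch T E Φ → (Ex D' fun x => Φ (x.1, x.2 \ Nw)) = Ex D Φ) ∧
      1 - P.p ≤ Ex D' fun x => ind (Nw ⊆ x.2) := by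
  classical
  have hD := h.nonneg
  have hE : E.card ≤ P.m := (Finset.card_le_card Finset.subset_union_left).trans hm
  have hsupp := fun x (hx : x ∈ D.support) => h.supp hE hx
  have hγ := P.γ_pos (l + 1)
  have hM := P.one_le
  have hp0 := P.p_pos
  have hpM := P.pM
  have hp2 : P.p ≤ 1 / 2 := by nlinarith
  obtain ⟨a, haE, ha⟩ := coll_lab hch fun x hx => (hsupp x hx).2.2
  choose y hy hy0 hyT using coll_ext (D := D) ch T ho (fun x hx => (hsupp x hx).2.1)
    (s := P.γ (l + 1) / 2) (by positivity)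
  obtain ⟨B, hBdef⟩ : ∃ B : C → Prop, B = Bad D ch T (P.γ (l + 1) / 2) := ⟨_, rfl⟩
  rw [← hBdef] at hB hyT
  obtain ⟨Z, hZdef⟩ : ∃ Z, Z = D.filter fun x => B (ch x) := ⟨_, rfl⟩
  obtain ⟨w, hwdef⟩ : ∃ w : C → ℝ, w = fun c => if ¬ B c ∧ 0 < Pc D ch c then Pc D ch c else 0 :=
    ⟨_, rfl⟩
  have hdec : ∀ Ψ, Ex D Ψ = Ex Z Ψ
      + ∑ c, if ¬ B c ∧ 0 < Pc D ch c then Ex D fun x => ind (ch x = c) * Ψ x else 0 := by
    intro Ψ
    rw [hZdef]
    convert coll_dec hD ch B Ψ
  have hw : ∀ c, 0 ≤ w c := by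
    intro c
    rw [hwdef]
    dsimp only
    split_ifs with hc
    · exact hc.2.le
    · exact le_rfl
  have hZ : ∀ x, 0 ≤ Z x := by
    intro x
    rw [hZdef, Finsupp.filter_apply]
    split_ifs
    · exact hD x
    · exact le_rfl
  have hZs : ∀ x ∈ Z.support, x ∈ D.support := by
    intro x hx
    rw [hZdef, Finsupp.support_filter] at hx
    exact (Finset.mem_filter.1 hx).1
  have hZp : (Ex Z fun _ => 1) ≤ P.p := by
    rw [hZdef, Ex_filter]
    simpa only [mul_one] using hB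
  have hZ0 : 0 ≤ Ex Z fun _ => 1 := Ex_nonneg hZ fun _ _ => zero_le_one
  have h1 : (Ex Z fun _ => 1) + ∑ c, w c = 1 := by
    have h2 := hdec fun _ => 1
    rw [h.mass] at h2
    rw [hwdef]
    simp only [mul_one] at h2
    exact h2.symm
  have hR : ∀ v ∈ T, (Ex Z fun x => x.1 v) + ∑ c, w c * y c v = 0 := by
    intro v hv
    have h2 := hdec fun x => x.1 v
    rw [h.mean] at h2
    rw [h2, hwdef]
    congr 1
    refine Finset.sum_congr rfl fun c _ => ?_
    dsimp only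
    split_ifs with hc
    · exact (hyT c hc v hv).symm
    · exact zero_mul _
  have hne : (Finset.univ : Finset C).Nonempty := by
    rcases (Finset.univ : Finset C).eq_empty_or_nonempty with he | he
    · rw [he, Finset.sum_empty] at h1; linarith
    · exact he
  obtain ⟨c₀, -, hc₀⟩ := Finset.exists_max_image Finset.univ w hne
  have hNw : 1 / 2 ≤ (Fintype.card C : ℝ) * w c₀ := by
    have h2 : ∑ c, w c ≤ ∑ _c : C, w c₀ := Finset.sum_le_sum fun c hc => hc₀ c hc
    rw [Finset.sum_const, Finset.card_univ, nsmul_eq_mul] at h2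
    linarith
  have hw0 : 0 < w c₀ := by
    rcases (hw c₀).eq_or_lt with h2 | h2
    · rw [← h2] at hNw; norm_num at hNw
    · exact h2
  obtain ⟨z₀, hz₀⟩ : ∃ z₀ : V → ℝ, ∀ v, w c₀ * z₀ v
      = -((Ex Z fun x => x.1 v) + ∑ c ∈ Finset.univ.erase c₀, w c * y c v) :=
    ⟨fun v => -((Ex Z fun x => x.1 v) + ∑ c ∈ Finset.univ.erase c₀, w c * y c v) / w c₀,
      fun v => by field_simp⟩
  have hz₀T : ∀ v ∈ T, z₀ v = y c₀ v := by
    intro v hv
    have h2 := hR v hv
    rw [← Finset.add_sum_erase _ _ (Finset.mem_univ c₀)] at h2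
    exact mul_left_cancel₀ hw0.ne' (by rw [hz₀]; linarith)
  have hz₀L : Lip (P.M * P.γ (l + 1)) z₀ := by
    intro u v
    have hd0 : 0 ≤ P.γ (l + 1) * dist u v := by positivity
    have h2 : |(Ex Z fun x => x.1 u) - Ex Z fun x => x.1 v| ≤ P.γ (l + 1) * dist u v := by
      rw [← Ex_fsub]
      refine (abs_Ex_le hZ (Ψ := fun _ => (P.M + 1) * (P.γ (l + 1) * dist u v))
        fun x hx => ?_).trans ?_
      · have h3 := (hsupp x (hZs x hx)).1 u v
        have h4 : 0 ≤ (x.2.card : ℝ) * P.δ * dist u v := by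
          exact mul_nonneg (mul_nonneg (Nat.cast_nonneg _) P.δ_pos.le) dist_nonneg
        linarith
      · rw [Ex_const]
        have h3 : (P.M + 1) * (Ex Z fun _ => 1) ≤ 1 := by nlinarith
        nlinarith
    have h3 : |∑ c ∈ Finset.univ.erase c₀, w c * y c u - ∑ c ∈ Finset.univ.erase c₀, w c * y c v|
        ≤ P.γ (l + 1) * dist u v / 2 := by
      rw [← Finset.sum_sub_distrib]
      refine (Finset.abs_sum_le_sum_abs _ _).trans ?_
      calc ∑ c ∈ Finset.univ.erase c₀, |w c * y c u - w c * y c v|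
          ≤ ∑ c ∈ Finset.univ.erase c₀, w c * (P.γ (l + 1) * dist u v / 2) := by
            refine Finset.sum_le_sum fun c _ => ?_
            rw [← mul_sub, abs_mul, abs_of_nonneg (hw c)]
            refine mul_le_mul_of_nonneg_left ?_ (hw c)
            have := hy c u v
            linarith
        _ ≤ ∑ c, w c * (P.γ (l + 1) * dist u v / 2) :=
            Finset.sum_le_sum_of_subset_of_nonneg (Finset.erase_subset _ _)
              fun c _ _ => mul_nonneg (hw c) (by positivity)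
        _ = (∑ c, w c) * (P.γ (l + 1) * dist u v / 2) := by rw [Finset.sum_mul]
        _ ≤ P.γ (l + 1) * dist u v / 2 := by nlinarith
    have h4 : w c₀ * |z₀ u - z₀ v| ≤ 3 / 2 * (P.γ (l + 1) * dist u v) := by
      rw [← abs_of_pos hw0, ← abs_mul, mul_sub, hz₀, hz₀, abs_le]
      have h5 := abs_le.1 h2
      have h6 := abs_le.1 h3
      constructor <;> linarith [h5.1, h5.2, h6.1, h6.2]
    have h5 : 3 / 2 ≤ w c₀ * P.M := by nlinarith
    refine le_of_mul_le_mul_left (h4.trans ?_) hw0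
    nlinarith
  obtain ⟨z, hzdef⟩ : ∃ z : C → V → ℝ, z = fun c => if c = c₀ then z₀ else y c := ⟨_, rfl⟩
  have hzT : ∀ c, ∀ v ∈ T, z c v = y c v := by
    intro c v hv
    rw [hzdef]
    dsimp only
    split_ifs with hc
    · rw [hc]; exact hz₀T v hv
    · rfl
  have hTop : Top P o (E ∪ Nw) l w z Z := by
    refine ⟨hw, fun c => ⟨?_, by rw [hzT c o ho, hy0]⟩, hZ, fun x hx => ?_, hZp, h1, fun v => ?_⟩
    · rw [hzdef]
      dsimp only
      split_ifs
      · exact hz₀L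
      · exact (hy c).mono (by nlinarith)
    · have h2 := hsupp x (hZs x hx)
      exact ⟨h2.1, h2.2.1, h2.2.2.trans Finset.subset_union_left⟩
    · rw [← Finset.add_sum_erase _ _ (Finset.mem_univ c₀)]
      have h2 : ∑ c ∈ Finset.univ.erase c₀, w c * z c v
          = ∑ c ∈ Finset.univ.erase c₀, w c * y c v := by
        refine Finset.sum_congr rfl fun c hc => ?_
        rw [hzdef]
        simp only [if_neg (Finset.ne_of_mem_erase hc)]
      have h3 : z c₀ = z₀ := by rw [hzdef]; simp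
      rw [h2, h3, hz₀]
      ring
  have hsub : ∀ c, a c ∪ Nw ⊆ E ∪ Nw := fun c => Finset.union_subset_union_left (haE c)
  refine ⟨asm w z (fun c => Finsupp.single (0, a c ∪ Nw) 1) Z,
    Ok.node l C w z _ Z hTop fun c => Ok.leaf (l + 1) _ (hsub c) ?_, fun Φ hΦ => ?_, ?_⟩
  · have := (Finset.card_le_card (hsub c)).trans hm
    omega
  · rw [Ex_asm, hdec Φ]
    congr 1
    · refine Ex_congr fun x hx => ?_
      rw [Finset.sdiff_eq_self_of_disjoint
        (Finset.disjoint_of_subset_left (hsupp x (hZs x hx)).2.2 hd)]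
    · refine Finset.sum_congr rfl fun c _ => ?_
      have h2 : (a c ∪ Nw) \ Nw = a c := by
        rw [Finset.union_sdiff_right,
          Finset.sdiff_eq_self_of_disjoint (Finset.disjoint_of_subset_left (haE c) hd)]
      simp only [Ex_single, sh, add_zero, one_mul, h2]
      rw [hwdef]
      dsimp only
      split_ifs with hc
      · have h3 : (Ex (D.filter fun x => ch x = c) fun _ => 1) = Pc D ch c := by
          rw [Ex_filter]; simp only [mul_one]; rfl
        have h4 := hΦ (D.filter fun x => ch x = c) c (z c, a c) ?_ (haE c) ?_ ?_ ?_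
        · rw [h3, Ex_filter] at h4
          exact h4.symm
        · intro x
          rw [Finsupp.filter_apply]
          split_ifs
          · exact hD x
          · exact le_rfl
        · intro x hx
          rw [Finsupp.support_filter, Finset.mem_filter] at hx
          exact ⟨hx.2, by rw [ha x hx.1, hx.2]⟩
        · rw [h3]; exact hc.2
        · intro v hv
          rw [h3, Ex_filter, hyT c hc v hv, ← hzT c v hv]
      · exact zero_mul _
  · rw [Ex_asm]
    have h2 : 0 ≤ Ex Z fun x => ind (Nw ⊆ x.2) := Ex_nonneg hZ fun _ _ => ind_nonneg _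
    have h3 : ∑ c, w c * (Ex (Finsupp.single ((0 : V → ℝ), a c ∪ Nw) 1)
        fun x => ind (Nw ⊆ (sh (z c) x).2)) = ∑ c, w c := by
      refine Finset.sum_congr rfl fun c _ => ?_
      rw [Ex_single, ind_pos (show Nw ⊆ (sh (z c) ((0 : V → ℝ), a c ∪ Nw)).2 from
        Finset.subset_union_right)]
      ring
    rw [h3]
    linarith

end Vale.Agent.P235
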