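import Vale.Agent.P235.Av
import Vale.Agent.P235.Coll

/-! The concrete chambers. Plan: `C = (E → Bool) × ((E → Fin q) → T → T → Bool)`,
`ch x = (fun i => decide (i ∈ x.2), fun ξ u v => decide (full x (ext ξ) u ≤ full x (ext ξ) v))` where
`ext ξ i = if h : i ∈ E then ξ ⟨i, h⟩ else ⟨0, hq⟩`; for `x.2 ⊆ E`, `full x ξ = full x (ext ξ|E)`.
`Aff` for the minimum: fix `ξ`; the support is nonempty, pick a point of it and a minimiser `v ∈ B` of
its full function; `v` is a minimiser for all points of the support (same chamber), hence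
`Ex D (inf' ..) = Ex D (full x ξ v) = mass * full x₀ ξ v`, and `v` is a minimiser for `x₀` (compare the
means at `v` and `y ∈ B`, divide by the mass). Sum over `ξ` with `Ex_fdiv`, `Ex_fsum`. -/

namespace Vale.Agent.P235

open Finset

theorem exists_chamber {V ι : Type} [Fintype ι] [DecidableEq ι] {q : ℕ} (hq : 0 < q)
    (G : ι → V → ℝ) (val : Fin q → ℝ) (T : Finset V) (E : Finset ι) {m n : ℕ} (hE : E.card ≤ m)
    (hT : T.card ≤ n) :
    ∃ (C : Type) (_ : Fintype C) (ch : Leaf V ι → C),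
      Fintype.card C ≤ 2 ^ m * 2 ^ (n * n * q ^ m) ∧ Lab ch E ∧
      (∀ (B : Finset V) (hB : B.Nonempty), B ⊆ T → Aff ch T E (Av G val fun h => B.inf' hB h)) ∧
      ∀ i, Aff ch T E fun x => ind (i ∈ x.2) := by
  classical
  let ext : (E → Fin q) → ι → Fin q := fun ξ i => if h : i ∈ E then ξ ⟨i, h⟩ else ⟨0, hq⟩
  have hext : ∀ (x : Leaf V ι) (ξ : ι → Fin q), x.2 ⊆ E →
      full G val x (ext fun i => ξ i) = full G val x ξ := fun x ξ h =>
    congrArg (x.1 + ·) (sum_congr rfl fun i hi => by simp only [ext, dif_pos (h hi)])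
  refine ⟨(E → Bool) × ((E → Fin q) → T → T → Bool), inferInstance,
    fun x => (fun i => decide (i.1 ∈ x.2), fun ξ u v =>
      decide (full G val x (ext ξ) u ≤ full G val x (ext ξ) v)), ?_, fun x y hx hy h => ?_,
    fun B hB hBT D c x₀ hD h0 hs hm hv => ?_, fun i D c x₀ _ _ hs _ _ => ?_⟩
  · simp only [Fintype.card_prod, Fintype.card_fun, Fintype.card_bool, Fintype.card_coe,
      Fintype.card_fin, ← pow_mul]
    exact Nat.mul_le_mul (Nat.pow_le_pow_right two_pos hE) (Nat.pow_le_pow_right two_pos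
      (Nat.mul_le_mul (Nat.mul_le_mul hT hT) ((Nat.pow_le_pow_right hq hE))))
  · ext i
    by_cases hi : i ∈ E
    · simpa using congrFun (congrArg Prod.fst h) ⟨i, hi⟩
    · exact iff_of_false (fun h => hi (hx h)) fun h => hi (hy h)
  · unfold Av
    rw [Ex_fdiv, Ex_fsum, ← mul_div_assoc, mul_sum]
    refine congrArg (· / _) (sum_congr rfl fun ξ _ => ?_)
    obtain ⟨a, ha⟩ : D.support.Nonempty := by
      rw [Finsupp.support_nonempty_iff]
      rintro rfl
      simp at hm
    obtain ⟨v, hvB, hva⟩ := exists_min_image B (full G val a ξ) hB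
    have h1 : ∀ x ∈ D.support, ∀ y ∈ B, full G val x ξ v ≤ full G val x ξ y := fun x hx y hy => by
      have := congrFun (congrFun (congrFun (congrArg Prod.snd ((hs a ha).1.trans (hs x hx).1.symm))
        fun i => ξ i) ⟨v, hBT hvB⟩) ⟨y, hBT hy⟩
      simp only [hext _ ξ ((hs a ha).2 ▸ h0), hext _ ξ ((hs x hx).2 ▸ h0), decide_eq_decide] at this
      exact this.1 (hva y hy)
    have h2 : ∀ y ∈ B, (Ex D fun x => full G val x ξ y) =
        (Ex D fun _ => 1) * full G val x₀ ξ y := fun y hy => by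
      rw [Ex_congr (Ψ := fun x => x.1 y + (∑ i ∈ x₀.2, val (ξ i) • G i) y) fun x hx => by
        rw [full, (hs x hx).2, Pi.add_apply], Ex_fadd, hv y (hBT hy),
        Ex_const D ((∑ i ∈ x₀.2, val (ξ i) • G i) y), full, Pi.add_apply]
      ring
    have h3 : ∀ f : V → ℝ, (∀ y ∈ B, f v ≤ f y) → B.inf' hB f = f v := fun f hf =>
      le_antisymm (inf'_le _ hvB) (le_inf' _ _ hf)
    rw [Ex_congr fun x hx => h3 _ (h1 x hx), h2 v hvB]
    refine congrArg _ (h3 _ fun y hy => le_of_mul_le_mul_left ?_ hm).symm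
    rw [← h2 v hvB, ← h2 y hy]
    exact Ex_mono hD fun x hx => h1 x hx y hy
  · rw [Ex_congr (Ψ := fun _ => ind (i ∈ x₀.2)) fun x hx => by rw [(hs x hx).2], Ex_const, mul_comm]

end Vale.Agent.P235
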