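import Vale.Agent.P235.Sched

/-! What happens when the earliest kept ancestor below `a` is dropped. Plan: all of `a, b, b', u` are
ancestors of `s` and not the root; `Anc a b`, `Anc b b'`, `Anc b' u` (`anc_of_dep_le`; `b' = u` or
`b' ∈ E (par u)`). Key fact: for `z ∈ S u`, `t ∈ θ u`: `D b' z < t → D a z < t`. Indeed `t ≤ D b z`
would give by `young` a kept `b₁` at least as deep as `b`, so as deep as `b'`, and `t ≤ D b' z` by
`D_mono`. So `D b z < t`, `older` gives a kept `b₂` at most as deep as `b`; it is not `b`, so by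
minimality of `b` it is above `a`, and `D a z ≤ D b₂ z < t`.
Let `c ∈ S u` be nearest to `s` (`dist s c = D u s ≤ D b' s ≤ D b s ≤ D a s < Λ ϱ`), `p₀` a maximiser
of `dist c ·` on `{p ∈ S u | dist c p < Λ² ϱ}`, `r = dist c p₀`.
If `Λ ^ (e-1) ≤ r` then `Int.log Λ r ∈ {e-1, e, e+1}` so `ϱ / 4 ∈ θ u`; take `z` from `D_via` for
`b', u, s`: either `ϱ/4 ≤ D b' z` or `D a z < ϱ/4`, and then `dist s z > 3 ϱ / 4`; left case.
Otherwise `40 / W * r ≤ ϱ / 2`; if `D b' c < 40 / W * r` then `D a c < ϱ/2`, `dist s c > ϱ/2`, left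
case; else right case (`D b' c ≤ D b c ≤ D b s + dist s c`). -/

namespace Vale.Agent.P235

open Finset

variable {V : Type} [DecidableEq V] [PseudoMetricSpace V] {k : ℕ}
  {R : RT V k} {θ : V → Finset ℝ} {mE : ℕ} {E : V → Finset V}

theorem change (hL : R.Loc) (hS : Sch R θ mE E) {W : ℝ} (hW : 0 < W) (hW1 : W ≤ 1) {Λ : ℕ}
    (hΛ : 80 / W ≤ Λ)
    (hθ2 : ∀ u, ∀ p ∈ R.S u, ∀ q ∈ R.S u, 40 / W * dist p q ∈ θ u)
    (hθ3 : ∀ u, ∀ p ∈ R.S u, ∀ q ∈ R.S u, ∀ j : Fin 3,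
      (Λ : ℝ) ^ (Int.log Λ (dist p q) - 1 + (j : ℕ)) / 4 ∈ θ u)
    {s u a b b' : V} (hu : u ≠ R.o) (hus : R.Anc u s) (ha : a ≠ R.o) (hau : R.Anc a (R.par u))
    (hb : b ∈ E (R.par u)) (hab : R.dep a ≤ R.dep b)
    (hbm : ∀ v ∈ E (R.par u), R.dep a ≤ R.dep v → R.dep b ≤ R.dep v) (hbn : b ∉ E u)
    (hb' : b' ∈ E u) (hab' : R.dep a ≤ R.dep b')
    (hbm' : ∀ v ∈ E u, R.dep a ≤ R.dep v → R.dep b' ≤ R.dep v)
    {e : ℤ} (he : (Λ : ℝ) ^ e ≤ R.D a s) (he' : R.D a s < Λ * (Λ : ℝ) ^ e) :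
    (Λ : ℝ) ^ e / 4 ≤ R.D b' s ∨ ∃ c ∈ R.S u, ∃ r : ℝ, 0 ≤ r ∧ dist s c ≤ Λ * (Λ : ℝ) ^ e ∧
      (∀ p ∈ R.S u, dist c p ≤ r ∨ (Λ : ℝ) ^ 2 * (Λ : ℝ) ^ e ≤ dist c p) ∧
      40 / W * r ≤ R.D b c ∧ R.D b c ≤ 2 * Λ * (Λ : ℝ) ^ e ∧ R.D b s ≤ R.D b' s + R.D b c := by
  have hdu := R.dep_par u hu
  have hau' : R.Anc a u := R.anc_trans hau (R.anc_par hu)
  obtain ⟨hbo, hbp⟩ := hS.anc hb
  obtain ⟨hbo', hbu'⟩ := hS.anc hb'
  have hbu : R.Anc b u := R.anc_trans hbp (R.anc_par hu)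
  have hdb := R.anc_dep_le hbp
  have hbb : R.Anc b b' := by
    refine R.anc_of_dep_le hbu hbu' ?_
    rcases mem_insert.1 (hS.sub u hu hb') with h | h
    · rw [h]; omega
    · exact hbm _ h hab'
  have hab0 : R.Anc a b := R.anc_of_dep_le hau hbp hab
  have key : ∀ z ∈ R.S u, ∀ t ∈ θ u, R.D b' z < t → R.D a z < t := by
    intro z hz t ht h
    have hzB := R.S_sub_B_self u hz
    rcases le_or_gt t (R.D b z) with h1 | h1
    · obtain ⟨b₁, h2, h3, h4⟩ := hS.young u hu z hz t ht b (mem_insert_of_mem hb) h1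
      have h5 := (hS.anc h2).2
      have h6 := R.D_mono hL hbo' (R.anc_of_dep_le hbu' h5 (hbm' _ h2 (hab.trans h3)))
        (R.anc_or_mem h5 hzB)
      linarith
    · obtain ⟨b₂, h2, h3, h4⟩ := hS.older u hu z hz t ht b (mem_insert_of_mem hb) h1
      obtain ⟨h5, h6⟩ := hS.anc h2
      rcases le_or_gt (R.dep a) (R.dep b₂) with h7 | h7
      · rcases mem_insert.1 (hS.sub u hu h2) with h8 | h8
        · rw [h8] at h3; omega
        · have h9 := R.anc_eq_of_dep (R.anc_of_dep_le h6 hbu h3) (hbm _ h8 h7)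
          exact absurd (h9 ▸ h2) hbn
      · exact (R.D_mono hL h5 (R.anc_of_dep_le h6 hau' h7.le) (R.anc_or_mem hau' hzB)).trans_lt h4
  have h80 : (80 : ℝ) ≤ 80 / W := by rw [le_div_iff₀ hW]; linarith
  have hΛ1 : (1 : ℝ) < Λ := by linarith
  have hΛ0 : (0 : ℝ) < Λ := by linarith
  have hΛn : 1 < Λ := by exact_mod_cast hΛ1
  have hϱ : (0 : ℝ) < (Λ : ℝ) ^ e := zpow_pos hΛ0 e
  obtain ⟨c, hc, hsc⟩ := R.D_near hu s
  have d1 : R.D u s ≤ R.D b' s := R.D_mono hL hbo' hbu' (Or.inl hus)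
  have d2 : R.D b' s ≤ R.D b s := R.D_mono hL hbo hbb (Or.inl (R.anc_trans hbu' hus))
  have d3 : R.D b s ≤ R.D a s := R.D_mono hL ha hab0 (Or.inl (R.anc_trans hbu hus))
  obtain ⟨p₀, hp₀, hmax⟩ := exists_max_image
    ((R.S u).filter fun p => dist c p < (Λ : ℝ) ^ 2 * (Λ : ℝ) ^ e) (dist c)
    ⟨c, mem_filter.2 ⟨hc, by rw [dist_self]; positivity⟩⟩
  obtain ⟨hp, hr⟩ := mem_filter.1 hp₀
  have e1 : (Λ : ℝ) ^ (e - 1) * Λ = (Λ : ℝ) ^ e := by
    rw [zpow_sub_one₀ hΛ0.ne', inv_mul_cancel_right₀ hΛ0.ne']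
  rcases le_or_gt ((Λ : ℝ) ^ (e - 1)) (dist c p₀) with h | h
  · left
    have hr0 : 0 < dist c p₀ := (zpow_pos hΛ0 _).trans_le h
    have l1 : e - 1 ≤ Int.log Λ (dist c p₀) := (Int.zpow_le_iff_le_log hΛn hr0).1 h
    have l2 : Int.log Λ (dist c p₀) < e + 2 := (Int.lt_zpow_iff_log_lt hΛn hr0).1 (by
      rw [zpow_add₀ hΛ0.ne', mul_comm]
      exact_mod_cast hr)
    have ht := hθ3 u c hc p₀ hp ⟨(e + 1 - Int.log Λ (dist c p₀)).toNat, by omega⟩
    have e2 : Int.log Λ (dist c p₀) - 1 + ((e + 1 - Int.log Λ (dist c p₀)).toNat : ℕ) = e := by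
      omega
    simp only [e2] at ht
    obtain ⟨z, hz, h1⟩ := R.D_via hL hbo' hbu' (Or.inl hus)
    have h2 : 0 ≤ dist s z := dist_nonneg
    rcases le_or_gt ((Λ : ℝ) ^ e / 4) (R.D b' z) with h3 | h3
    · linarith
    · have h4 := key z hz _ ht h3
      have h5 := R.D_le_add a s z
      have h6 := R.D_nonneg b' z
      linarith
  · have h1 : 40 / W * dist c p₀ ≤ (Λ : ℝ) ^ e / 2 := by
      have h2 : 40 / W ≤ Λ / 2 := by
        have : 40 / W = 80 / W / 2 := by ring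
        linarith
      have h3 := mul_le_mul h2 h.le dist_nonneg (by positivity)
      linarith
    rcases le_or_gt (40 / W * dist c p₀) (R.D b' c) with h3 | h3
    · have h4 := R.D_le_add b c s
      have h5 := R.D_le_add b s c
      rw [dist_comm] at h4
      refine Or.inr ⟨c, hc, dist c p₀, dist_nonneg, by linarith, fun p hp => ?_,
        h3.trans (R.D_mono hL hbo hbb (R.anc_or_mem hbu' (R.S_sub_B_self u hc))), by linarith,
        by linarith⟩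
      rcases lt_or_ge (dist c p) ((Λ : ℝ) ^ 2 * (Λ : ℝ) ^ e) with h6 | h6
      · exact Or.inl (hmax p (mem_filter.2 ⟨hp, h6⟩))
      · exact Or.inr h6
    · have h4 := key c hc _ (hθ2 u c hc p₀ hp) h3
      have h5 := R.D_le_add a s c
      left
      linarith

end Vale.Agent.P235
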