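import Vale.Agent.P235.Tree

/-! Gluing consistent local weights. Plan: `mg ν A σ = Sm ν (fun τ => ind (∀ x ∈ A, x ∈ τ ↔ x ∈ σ))`,
`κ u σ = if mg (ν u) (S u) σ = 0 then 1/2 else mg (ν u) (B u) σ / mg (ν u) (S u) σ`; it depends on
`B u`, is nonnegative, `κ u (insert u σ) + κ u (σ.erase u) = 1`. `Q σ = (∑ τ, ν o τ) * ∏ u, κ u σ`.
Put `K u ψ σ = κ u (insert u σ) * ψ (insert u σ) + κ u (σ.erase u) * ψ (σ.erase u)`.
(a) For a finset `U` and `Φ` that does not depend on `U` (`Dep Uᶜ`),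
`∑ σ, (∏ v ∈ U, κ v σ) * Φ σ = (1/2) ^ U.card * ∑ σ, Φ σ`: induction removing a vertex `z` of maximal
depth in `U` (the other `κ v` do not depend on `z`), pair `σ` with `σ` toggled at `z`.
(b) `Mark`: use (a) for the strict descendants `U` of `u` on both sides (for `v` not below `u`,
`κ v` depends only on vertices not below `u`), then toggle at `u`.
(c) `Sm (ν u) ψ = Sm (ν u) (K u ψ)` for `ψ` depending on `B u` (group by the trace on `B u`, or use
`span`-like reasoning: both sides are `∑` over traces). (d) Induction on `u`: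
`Sm Q Φ = Sm Q (K u Φ) = Sm (ν (par u)) (K u Φ) = Sm (ν u) (K u Φ) = Sm (ν u) Φ`; at the root
`K o Φ` is constant and `Sm Q 1 = ∑ ν o` by (a) with `U = univ`. -/

namespace Vale.Agent.P235

open Finset

variable {V : Type} [Fintype V] [DecidableEq V] {k : ℕ}

/-- The Markov property. -/
def Mark (R : RT V k) (Q : Finset V → ℝ) : Prop :=
  ∀ (u : V) (ψ : Finset V → ℝ), Dep (R.B u : Set V) ψ → (∀ σ, 0 ≤ ψ σ ∧ ψ σ ≤ 1) →
    ∃ ψ' : Finset V → ℝ, Dep (R.S u : Set V) ψ' ∧ (∀ σ, 0 ≤ ψ' σ ∧ ψ' σ ≤ 1) ∧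
      ∀ χ : Finset V → ℝ, Dep {x | ¬ R.Anc u x} χ →
        (Sm Q fun σ => χ σ * ψ σ) = Sm Q fun σ => χ σ * ψ' σ

private theorem sum_toggle (z : V) (F : Finset V → ℝ) :
    ∑ σ, F σ = ∑ σ, (F (insert z σ) + F (σ.erase z)) / 2 := by
  let t : Finset V → Finset V := fun σ => if z ∈ σ then σ.erase z else insert z σ
  have ht : Function.Involutive t := by
    intro σ
    by_cases h : z ∈ σ
    · simp only [t, h, if_true, Finset.notMem_erase, if_false, Finset.insert_erase h]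
    · simp only [t, h, if_false, Finset.mem_insert_self, if_true, Finset.erase_insert h]
  have h1 : ∑ σ, F (t σ) = ∑ σ, F σ := Equiv.sum_comp ht.toPerm F
  have h2 : ∀ σ, F (insert z σ) + F (σ.erase z) = F σ + F (t σ) := by
    intro σ
    by_cases h : z ∈ σ
    · simp only [t, h, if_true, Finset.insert_eq_of_mem h]
    · simp only [t, h, if_false, Finset.erase_eq_of_notMem h]
      ring
  simp only [h2]
  rw [← Finset.sum_div, Finset.sum_add_distrib, h1]
  ring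

omit [Fintype V] in
private theorem dep_ins {A : Set V} {G : Finset V → ℝ} (h : Dep A G) {z : V} (hz : z ∉ A)
    (σ : Finset V) : G (insert z σ) = G σ := by
  refine h _ _ fun x hx => ?_
  have : x ≠ z := fun e => hz (e ▸ hx)
  simp [this]

omit [Fintype V] in
private theorem dep_era {A : Set V} {G : Finset V → ℝ} (h : Dep A G) {z : V} (hz : z ∉ A)
    (σ : Finset V) : G (σ.erase z) = G σ := by
  refine h _ _ fun x hx => ?_
  have : x ≠ z := fun e => hz (e ▸ hx)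
  simp [this]

private theorem sum_toggle_mul {A : Set V} {G : Finset V → ℝ} (h : Dep A G) {z : V} (hz : z ∉ A)
    (F : Finset V → ℝ) :
    ∑ σ, F σ * G σ = ∑ σ, (F (insert z σ) + F (σ.erase z)) / 2 * G σ := by
  rw [sum_toggle z]
  refine Finset.sum_congr rfl fun σ _ => ?_
  rw [dep_ins h hz, dep_era h hz]
  ring

omit [Fintype V] [DecidableEq V] in
private theorem dep_prod {A : Set V} (s : Finset V) {κ : V → Finset V → ℝ}
    (h : ∀ v ∈ s, Dep A (κ v)) : Dep A fun σ => ∏ v ∈ s, κ v σ :=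
  fun σ τ hs => Finset.prod_congr rfl fun v hv => h v hv σ τ hs

omit [Fintype V] [DecidableEq V] in
private theorem dep_mul {A : Set V} {Φ Ψ : Finset V → ℝ} (h : Dep A Φ) (h' : Dep A Ψ) :
    Dep A fun σ => Φ σ * Ψ σ := h.comp₂ h' fun a b => a * b

private theorem sum_prod_kap (R : RT V k) (κ : V → Finset V → ℝ)
    (hd : ∀ u, Dep (R.B u : Set V) (κ u))
    (hs : ∀ u σ, κ u (insert u σ) + κ u (σ.erase u) = 1) (U : Finset V) :
    ∀ Φ : Finset V → ℝ, Dep {x | x ∉ U} Φ →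
      ∑ σ, (∏ v ∈ U, κ v σ) * Φ σ = (1 / 2) ^ U.card * ∑ σ, Φ σ := by
  induction U using Finset.induction_on_max_value R.dep with
  | empty => intro Φ _; simp
  | insert z s hz hmax ih =>
    intro Φ hΦ
    have hG : Dep {x | x ≠ z} fun σ => (∏ v ∈ s, κ v σ) * Φ σ := by
      refine dep_mul (dep_prod s fun v hv => (hd v).mono fun x hx => ?_) (hΦ.mono fun x hx => ?_)
      · intro e
        rcases Finset.mem_insert.1 (Finset.mem_coe.1 hx) with h | h
        · exact hz (e ▸ h ▸ hv)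
        · have h1 := (R.mem_S h).2
          have h2 := hmax v hv
          rw [e] at h1
          omega
      · intro e
        exact hx (e ▸ Finset.mem_insert_self z s)
    have h1 := sum_toggle_mul hG (z := z) (by simp) (κ z)
    have h2 := ih Φ (hΦ.mono fun x hx hx' => hx (Finset.mem_insert_of_mem hx'))
    simp only [Finset.prod_insert hz, Finset.card_insert_of_notMem hz, mul_assoc]
    rw [h1]
    simp only [hs]
    rw [← Finset.mul_sum, h2]
    ring

/-- One step of conditional expectation. -/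
private def Kop (κ : V → Finset V → ℝ) (u : V) (ψ : Finset V → ℝ) (σ : Finset V) : ℝ :=
  κ u (insert u σ) * ψ (insert u σ) + κ u (σ.erase u) * ψ (σ.erase u)

omit [Fintype V] in
private theorem not_mem_S (R : RT V k) (u : V) : u ∉ (R.S u : Set V) :=
  fun h => R.not_anc_of_mem_S (Finset.mem_coe.1 h) (R.anc_refl u)

omit [Fintype V] in
private theorem Kop_dep (R : RT V k) {κ : V → Finset V → ℝ} {u : V}
    (hd : Dep (R.B u : Set V) (κ u)) {ψ : Finset V → ℝ} (hψ : Dep (R.B u : Set V) ψ) :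
    Dep (R.S u : Set V) (Kop κ u ψ) := by
  intro σ τ h
  have h1 : ∀ x ∈ (R.B u : Set V), x ∈ insert u σ ↔ x ∈ insert u τ := by
    intro x hx
    rcases Finset.mem_insert.1 (Finset.mem_coe.1 hx) with e | e
    · simp [e]
    · simp only [Finset.mem_insert, h x e]
  have h2 : ∀ x ∈ (R.B u : Set V), x ∈ σ.erase u ↔ x ∈ τ.erase u := by
    intro x hx
    rcases Finset.mem_insert.1 (Finset.mem_coe.1 hx) with e | e
    · simp [e]
    · simp only [Finset.mem_erase, h x e]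
  simp only [Kop, hd _ _ h1, hd _ _ h2, hψ _ _ h1, hψ _ _ h2]

private theorem markov (R : RT V k) (κ : V → Finset V → ℝ)
    (hd : ∀ u, Dep (R.B u : Set V) (κ u))
    (hs : ∀ u σ, κ u (insert u σ) + κ u (σ.erase u) = 1) (u : V)
    {ψ χ : Finset V → ℝ} (hψ : Dep (R.B u : Set V) ψ) (hχ : Dep {x | ¬ R.Anc u x} χ) :
    ∑ σ, (∏ v, κ v σ) * (χ σ * ψ σ) = ∑ σ, (∏ v, κ v σ) * (χ σ * Kop κ u ψ σ) := by
  classical
  let D : Finset V := univ.filter fun v => R.Anc u v ∧ v ≠ u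
  let N : Finset V := univ.filter fun v => ¬ R.Anc u v
  have hsplit : ∀ σ, ∏ v, κ v σ = (∏ v ∈ D, κ v σ) * (κ u σ * ∏ v ∈ N, κ v σ) := by
    intro σ
    rw [← Finset.prod_filter_mul_prod_filter_not univ (fun v => R.Anc u v)]
    have : univ.filter (fun v => R.Anc u v) = insert u D := by
      ext v
      by_cases h : v = u
      · simp [h, R.anc_refl]
      · simp [D, h]
    rw [this, Finset.prod_insert (by simp [D])]
    ring
  have hP : Dep {x | ¬ R.Anc u x} fun σ => (∏ v ∈ N, κ v σ) * χ σ := by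
    refine dep_mul (dep_prod N fun v hv => (hd v).mono fun x hx hx' => ?_) hχ
    exact (Finset.mem_filter.1 hv).2 (R.anc_trans hx' (R.anc_of_mem_B (Finset.mem_coe.1 hx)))
  have hB : (R.B u : Set V) ⊆ {x | x ∉ D} := by
    intro x hx hx'
    obtain ⟨h1, h2⟩ := (Finset.mem_filter.1 hx').2
    rcases Finset.mem_insert.1 (Finset.mem_coe.1 hx) with e | e
    · exact h2 e
    · exact R.not_anc_of_mem_S e h1
  have hN : {x | ¬ R.Anc u x} ⊆ {x | x ∉ D} := fun x hx hx' =>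
    hx (Finset.mem_filter.1 hx').2.1
  have key : ∀ φ : Finset V → ℝ, Dep (R.B u : Set V) φ →
      ∑ σ, (∏ v, κ v σ) * (χ σ * φ σ) =
        (1 / 2) ^ D.card * ∑ σ, Kop κ u φ σ / 2 * ((∏ v ∈ N, κ v σ) * χ σ) := by
    intro φ hφ
    have h1 := sum_prod_kap R κ hd hs D
      (fun σ => (κ u σ * φ σ) * ((∏ v ∈ N, κ v σ) * χ σ))
      (dep_mul ((dep_mul (hd u) hφ).mono hB) (hP.mono hN))
    have h2 := sum_toggle_mul hP (z := u) (fun h => h (R.anc_refl u)) fun σ => κ u σ * φ σ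
    rw [h2] at h1
    refine Eq.trans (Finset.sum_congr rfl fun σ _ => ?_) h1
    rw [hsplit]
    ring
  have hK := Kop_dep R (hd u) hψ
  rw [key ψ hψ, key _ (hK.mono (Finset.coe_subset.2 (R.S_sub_B_self u)))]
  congr 1
  refine Finset.sum_congr rfl fun σ _ => ?_
  have : Kop κ u (Kop κ u ψ) σ = Kop κ u ψ σ := by
    rw [Kop, dep_ins hK (not_mem_S R u), dep_era hK (not_mem_S R u), ← add_mul, hs, one_mul]
  rw [this]

/-- Marginal weight of the trace of `σ` on `A`. -/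
private noncomputable def mg (ν : Finset V → ℝ) (A : Finset V) (σ : Finset V) : ℝ :=
  ∑ τ, ν τ * ind (∀ x ∈ A, x ∈ τ ↔ x ∈ σ)

omit [DecidableEq V] in
private theorem mg_dep (ν : Finset V → ℝ) (A : Finset V) : Dep (A : Set V) (mg ν A) := by
  intro σ σ' h
  refine Finset.sum_congr rfl fun τ _ => ?_
  rw [ind_congr (forall₂_congr fun x hx => by rw [h x hx])]

omit [DecidableEq V] in
private theorem mg_nonneg {ν : Finset V → ℝ} (hν : ∀ σ, 0 ≤ ν σ) (A σ : Finset V) :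
    0 ≤ mg ν A σ := Finset.sum_nonneg fun τ _ => mul_nonneg (hν τ) (ind_nonneg _)

omit [DecidableEq V] in
private theorem le_mg {ν : Finset V → ℝ} (hν : ∀ σ, 0 ≤ ν σ) (A σ : Finset V) :
    ν σ ≤ mg ν A σ := by
  have := Finset.single_le_sum (f := fun τ => ν τ * ind (∀ x ∈ A, x ∈ τ ↔ x ∈ σ))
    (fun τ _ => mul_nonneg (hν τ) (ind_nonneg _)) (Finset.mem_univ σ)
  rw [ind_pos (fun _ _ => Iff.rfl), mul_one] at this
  exact this

private theorem mg_split (R : RT V k) (ν : Finset V → ℝ) (u : V) {ψ : Finset V → ℝ}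
    (hψ : Dep (R.B u : Set V) ψ) (σ : Finset V) :
    mg ν (R.B u) (insert u σ) * ψ (insert u σ) + mg ν (R.B u) (σ.erase u) * ψ (σ.erase u)
      = ∑ τ, ν τ * ψ τ * ind (∀ x ∈ R.S u, x ∈ τ ↔ x ∈ σ) := by
  simp only [mg, Finset.sum_mul]
  rw [← Finset.sum_add_distrib]
  refine Finset.sum_congr rfl fun τ _ => ?_
  have hne : ∀ x ∈ R.S u, x ≠ u := fun x hx e =>
    not_mem_S R u (by rw [e] at hx; exact Finset.mem_coe.2 hx)
  by_cases h : ∀ x ∈ R.S u, x ∈ τ ↔ x ∈ σ
  · rw [ind_pos h]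
    by_cases hu : u ∈ τ
    · have h1 : ∀ x ∈ R.B u, x ∈ τ ↔ x ∈ insert u σ := by
        intro x hx
        rcases Finset.mem_insert.1 hx with e | e
        · simp [e, hu]
        · simp [hne x e, h x e]
      have h2 : ¬ ∀ x ∈ R.B u, x ∈ τ ↔ x ∈ σ.erase u := fun h2 => by
        simpa using (h2 u (R.self_mem_B u)).1 hu
      rw [ind_pos h1, ind_neg h2, hψ τ _ h1]
      ring
    · have h1 : ∀ x ∈ R.B u, x ∈ τ ↔ x ∈ σ.erase u := by
        intro x hx
        rcases Finset.mem_insert.1 hx with e | e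
        · simp [e, hu]
        · simp [hne x e, h x e]
      have h2 : ¬ ∀ x ∈ R.B u, x ∈ τ ↔ x ∈ insert u σ := fun h2 =>
        hu ((h2 u (R.self_mem_B u)).2 (Finset.mem_insert_self _ _))
      rw [ind_pos h1, ind_neg h2, hψ τ _ h1]
      ring
  · have h1 : ¬ ∀ x ∈ R.B u, x ∈ τ ↔ x ∈ insert u σ := fun h1 => h fun x hx => by
      simpa [hne x hx] using h1 x (R.S_sub_B_self u hx)
    have h2 : ¬ ∀ x ∈ R.B u, x ∈ τ ↔ x ∈ σ.erase u := fun h1 => h fun x hx => by
      simpa [hne x hx] using h1 x (R.S_sub_B_self u hx)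
    rw [ind_neg h, ind_neg h1, ind_neg h2]
    ring

/-- The conditional weight of `u` given the separator. -/
private noncomputable def kap (R : RT V k) (ν : V → Finset V → ℝ) (u : V) (σ : Finset V) : ℝ :=
  if mg (ν u) (R.S u) σ = 0 then 1 / 2 else mg (ν u) (R.B u) σ / mg (ν u) (R.S u) σ

private theorem kap_dep (R : RT V k) (ν : V → Finset V → ℝ) (u : V) :
    Dep (R.B u : Set V) (kap R ν u) := by
  intro σ τ h
  have h1 := mg_dep (ν u) (R.B u) σ τ h
  have h2 := (mg_dep (ν u) (R.S u)).mono (Finset.coe_subset.2 (R.S_sub_B_self u)) σ τ h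
  simp only [kap, h1, h2]

private theorem kap_nonneg (R : RT V k) {ν : V → Finset V → ℝ} (hν : ∀ u σ, 0 ≤ ν u σ) (u : V)
    (σ : Finset V) : 0 ≤ kap R ν u σ := by
  unfold kap
  split_ifs
  · norm_num
  · exact div_nonneg (mg_nonneg (hν u) _ _) (mg_nonneg (hν u) _ _)

private theorem kap_sum (R : RT V k) (ν : V → Finset V → ℝ) (u : V) (σ : Finset V) :
    kap R ν u (insert u σ) + kap R ν u (σ.erase u) = 1 := by
  have h := mg_split R (ν u) u (ψ := fun _ => 1) (fun _ _ _ => rfl) σ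
  simp only [mul_one] at h
  simp only [kap, dep_ins (mg_dep (ν u) (R.S u)) (not_mem_S R u),
    dep_era (mg_dep (ν u) (R.S u)) (not_mem_S R u)]
  split_ifs with h0
  · norm_num
  · rw [← add_div, h]
    exact div_self h0

private theorem Sm_Kop (R : RT V k) {ν : V → Finset V → ℝ} (hν : ∀ u σ, 0 ≤ ν u σ) (u : V)
    {ψ : Finset V → ℝ} (hψ : Dep (R.B u : Set V) ψ) :
    Sm (ν u) (Kop (kap R ν) u ψ) = Sm (ν u) ψ := by
  have hz : ∀ σ, mg (ν u) (R.S u) σ = 0 → ν u σ = 0 := fun σ h =>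
    le_antisymm (h ▸ le_mg (hν u) (R.S u) σ) (hν u σ)
  have h1 : ∀ σ, ν u σ * Kop (kap R ν) u ψ σ = ∑ τ, ν u τ * ψ τ / mg (ν u) (R.S u) τ *
      (ν u σ * ind (∀ x ∈ R.S u, x ∈ σ ↔ x ∈ τ)) := by
    intro σ
    by_cases h0 : mg (ν u) (R.S u) σ = 0
    · simp [hz σ h0]
    · have h2 : Kop (kap R ν) u ψ σ = (∑ τ, ν u τ * ψ τ * ind (∀ x ∈ R.S u, x ∈ τ ↔ x ∈ σ)) /
          mg (ν u) (R.S u) σ := by
        rw [← mg_split R (ν u) u hψ σ]
        simp only [Kop, kap, dep_ins (mg_dep (ν u) (R.S u)) (not_mem_S R u),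
          dep_era (mg_dep (ν u) (R.S u)) (not_mem_S R u), h0, if_false]
        ring
      rw [h2, Finset.sum_div, Finset.mul_sum]
      refine Finset.sum_congr rfl fun τ _ => ?_
      by_cases h : ∀ x ∈ R.S u, x ∈ τ ↔ x ∈ σ
      · rw [ind_pos h, ind_pos fun x hx => (h x hx).symm, mg_dep (ν u) (R.S u) τ σ h]
        ring
      · rw [ind_neg h, ind_neg fun h' => h fun x hx => (h' x hx).symm]
        ring
  simp only [Sm, h1]
  rw [Finset.sum_comm]
  refine Finset.sum_congr rfl fun τ _ => ?_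
  rw [← Finset.mul_sum]
  change _ * mg (ν u) (R.S u) τ = _
  by_cases h0 : mg (ν u) (R.S u) τ = 0
  · simp [hz τ h0]
  · exact div_mul_cancel₀ _ h0

theorem glue (R : RT V k) (ν : V → Finset V → ℝ) (hν : ∀ u σ, 0 ≤ ν u σ)
    (hc : ∀ u, u ≠ R.o → ∀ Φ, Dep (R.S u : Set V) Φ → Sm (ν u) Φ = Sm (ν (R.par u)) Φ) :
    ∃ Q : Finset V → ℝ, (∀ σ, 0 ≤ Q σ) ∧
      (∀ u Φ, Dep (R.B u : Set V) Φ → Sm Q Φ = Sm (ν u) Φ) ∧ Mark R Q := by
  have hd := kap_dep R ν
  have hs := kap_sum R ν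
  have hM : ∀ (u : V) (ψ χ : Finset V → ℝ), Dep (R.B u : Set V) ψ → Dep {x | ¬ R.Anc u x} χ →
      (Sm (fun σ => (∑ τ, ν R.o τ) * ∏ v, kap R ν v σ) fun σ => χ σ * ψ σ) =
        Sm (fun σ => (∑ τ, ν R.o τ) * ∏ v, kap R ν v σ)
          fun σ => χ σ * Kop (kap R ν) u ψ σ := by
    intro u ψ χ hψ hχ
    simp only [Sm, mul_assoc]
    rw [← Finset.mul_sum, ← Finset.mul_sum, markov R _ hd hs u hψ hχ]
  have hM1 : ∀ (u : V) (ψ : Finset V → ℝ), Dep (R.B u : Set V) ψ →
      Sm (fun σ => (∑ τ, ν R.o τ) * ∏ v, kap R ν v σ) ψ =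
        Sm (fun σ => (∑ τ, ν R.o τ) * ∏ v, kap R ν v σ) (Kop (kap R ν) u ψ) := by
    intro u ψ hψ
    simpa only [one_mul] using hM u ψ (fun _ => 1) hψ fun _ _ _ => rfl
  refine ⟨fun σ => (∑ τ, ν R.o τ) * ∏ v, kap R ν v σ, fun σ => ?_, fun u => ?_, ?_⟩
  · exact mul_nonneg (Finset.sum_nonneg fun τ _ => hν _ τ)
      (Finset.prod_nonneg fun v _ => kap_nonneg R hν v σ)
  · refine R.ind (fun u => ∀ Φ, Dep (R.B u : Set V) Φ →
      Sm (fun σ => (∑ τ, ν R.o τ) * ∏ v, kap R ν v σ) Φ = Sm (ν u) Φ) ?_ ?_ u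
    · intro Φ hΦ
      have hK := Kop_dep R (hd R.o) hΦ
      have hc0 : Kop (kap R ν) R.o Φ = fun _ => Kop (kap R ν) R.o Φ ∅ := by
        funext σ
        refine hK _ _ fun x hx => ?_
        rw [R.S_o] at hx
        simp at hx
      have h1 := sum_prod_kap R _ hd hs univ (fun _ => 1) fun _ _ _ => rfl
      simp only [mul_one, Finset.sum_const, Finset.card_univ, Fintype.card_finset, nsmul_eq_mul,
        Nat.cast_pow, Nat.cast_ofNat, ← mul_pow] at h1
      norm_num at h1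
      rw [hM1 _ _ hΦ, ← Sm_Kop R hν R.o hΦ, hc0]
      simp only [Sm]
      rw [← Finset.sum_mul, ← Finset.sum_mul, ← Finset.mul_sum, h1, mul_one]
    · intro u hu ih Φ hΦ
      have hK := Kop_dep R (hd u) hΦ
      rw [hM1 _ _ hΦ, ih _ (hK.mono (Finset.coe_subset.2 (R.S_sub_B hu))), ← hc u hu _ hK,
        Sm_Kop R hν u hΦ]
  · intro u ψ hψ h01
    refine ⟨Kop (kap R ν) u ψ, Kop_dep R (hd u) hψ, fun σ => ?_, fun χ hχ => hM u ψ χ hψ hχ⟩
    have a1 := kap_nonneg R hν u (insert u σ)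
    have a2 := kap_nonneg R hν u (σ.erase u)
    have a3 := hs u σ
    have b1 := h01 (insert u σ)
    have b2 := h01 (σ.erase u)
    unfold Kop
    constructor
    · exact add_nonneg (mul_nonneg a1 b1.1) (mul_nonneg a2 b2.1)
    · nlinarith [mul_le_mul_of_nonneg_left b1.2 a1, mul_le_mul_of_nonneg_left b2.2 a2]

end Vale.Agent.P235
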