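import Vale.Agent.P235.CKR
import Vale.Agent.P235.Glue

/-! Predictors. Plan: `n = dep s + 1 - i₀`. Define backwards `X 0 = mem s`, `X (j+1) = (X j)'` from
`Mark` at `u = w (dep s - j)` (`X j` depends on `S (w (dep s - j + 1)) ⊆ B (w (dep s - j))`, or on
`B s` for `j = 0`); build the sequence by recursion on `j` with a subtype or `Nat.rec` and `choose`.
For `i ≤ j ≤ n` and `χ` depending on the complement of the subtree of `w (dep s + 1 - j)`:
`Sm Q (χ * X i) = Sm Q (χ * X j)` (induction on `j`, the complements decrease in `j`;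
`Path.anc_of_le`). With `χ = X j` (`not_anc_of_mem_S`): `Sm Q (X i - X j)² = e j - e i` for
`e j = - Sm Q (X j)²`. A function depending on `S u` takes at most `2 ^ k` values. Use
`ckr (2 ^ k + 2)`, `φ i σ = ind (θ (dep s + 1 - i) < X (dep s + 1 - i) σ)`, reindex the sum.
Energy: `e n - e 0 = Sm Q (X n * (1 - X n)) ≤ Sm Q (mem t * (1 - X n) + (1 - mem t) * X n)`, which is
`dis Q (mem s) (mem t)` by the martingale identity with `χ = 1`, `mem t`. -/

namespace Vale.Agent.P235

open Finset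

private theorem card_vals {V : Type} [Fintype V] [DecidableEq V] (A : Finset V)
    {Φ : Finset V → ℝ} (h : Dep (A : Set V) Φ) : (univ.image Φ).card ≤ 2 ^ A.card := by
  rw [← card_powerset]
  refine le_trans (card_le_card fun x hx => ?_) (card_image_le (f := Φ))
  obtain ⟨σ, -, rfl⟩ := mem_image.1 hx
  exact mem_image.2 ⟨σ ∩ A, mem_powerset.2 inter_subset_right,
    h _ _ fun x hx => by simp [show x ∈ A from hx]⟩

theorem pred (k : ℕ) : ∃ C : ℝ, 0 < C ∧ ∀ (V : Type) [Fintype V] [DecidableEq V] (R : RT V k)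
    (Q : Finset V → ℝ) (s t : V) (w : ℕ → V) (i₀ : ℕ), (∀ σ, 0 ≤ Q σ) → Mark R Q → R.Path s w →
    i₀ ≤ R.dep s → ¬ R.Anc (w i₀) t →
    ∃ φ : ℕ → Finset V → ℝ, (∀ i, Bin (φ i)) ∧
      (∀ i, i₀ ≤ i → i ≤ R.dep s → Dep (R.S (w i) : Set V) (φ i)) ∧ φ (R.dep s + 1) = mem s ∧
      ∑ i ∈ Ico i₀ (R.dep s + 1), dis Q (φ i) (φ (i + 1)) ≤ C * dis Q (mem s) (mem t) := by
  obtain ⟨C, hC, hckr⟩ := ckr (2 ^ k + 2)
  refine ⟨C, hC, fun V _ _ R Q s t w i₀ hQ hM hw hi ht => ?_⟩
  choose! F f1 f2 f3 using hM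
  obtain ⟨d, hd⟩ : ∃ d, d = R.dep s := ⟨_, rfl⟩
  let X : ℕ → Finset V → ℝ := fun j => Nat.rec (mem s) (fun j Y => F (w (d - j)) Y) j
  have X0 : X 0 = mem s := rfl
  have X1 : ∀ j, X (j + 1) = F (w (d - j)) (X j) := fun j => rfl
  have good : ∀ j, j ≤ d → Dep (R.B (w (d - j)) : Set V) (X j) ∧ ∀ σ, 0 ≤ X j σ ∧ X j σ ≤ 1 := by
    intro j
    induction j with
    | zero =>
      intro _
      rw [Nat.sub_zero, hd, hw.last]
      exact ⟨dep_mem (R.self_mem_B s), fun σ => ⟨ind_nonneg _, ind_le_one _⟩⟩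
    | succ j ih =>
      intro hj
      obtain ⟨a1, a2⟩ := ih (by omega)
      refine ⟨(f1 _ _ a1 a2).mono ?_, f2 _ _ a1 a2⟩
      have a3 := R.S_sub_B (hw.ne_o (d - (j + 1)) (by omega))
      rw [hw.par_eq _ (by omega), show d - (j + 1) + 1 = d - j by omega] at a3
      exact a3
  have dS : ∀ j, j ≤ d → Dep (R.S (w (d - j)) : Set V) (X (j + 1)) :=
    fun j hj => f1 _ _ (good j hj).1 (good j hj).2
  have mart : ∀ i j, i ≤ j → j ≤ d → ∀ χ, Dep {x | ¬ R.Anc (w (d - j)) x} χ →
      (Sm Q fun σ => χ σ * X i σ) = Sm Q fun σ => χ σ * X (j + 1) σ := by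
    intro i j hij
    induction j, hij using Nat.le_induction with
    | base => exact fun hj χ hχ => f3 _ _ (good i hj).1 (good i hj).2 χ hχ
    | succ j hij ih =>
      intro hj χ hχ
      rw [ih (by omega) χ (hχ.mono fun x hx h => hx (R.anc_trans
        (hw.anc_of_le (by omega) (by omega)) h))]
      exact f3 _ _ (good _ hj).1 (good _ hj).2 χ hχ
  obtain ⟨θ, h0, hθ⟩ := hckr (Finset V) Q (d - i₀ + 1) X (fun j => - Sm Q fun σ => X j σ * X j σ) hQ
    (fun i hi => by
      rcases i with _ | i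
      · have := card_vals {s} (Φ := mem s) (dep_mem (by simp))
        rw [card_singleton] at this
        exact le_trans this (Nat.le_add_left _ _)
      · have := (card_vals _ (dS i (by omega))).trans
          (Nat.pow_le_pow_right (by norm_num) (R.card_S _))
        exact le_trans this (Nat.le_add_right _ _))
    (bin_mem s) (fun i j hij hj => by
      rcases hij.lt_or_eq with h | rfl
      · obtain ⟨j, rfl⟩ : ∃ j', j = j' + 1 := ⟨j - 1, by omega⟩
        have a1 := mart i j (by omega) (by omega) _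
          ((dS j (by omega)).mono fun x hx => R.not_anc_of_mem_S hx)
        have a2 : ∑ ω, Q ω * (X i ω - X (j + 1) ω) ^ 2 = Sm Q fun σ => X i σ * X i σ -
            2 * (X (j + 1) σ * X i σ) + X (j + 1) σ * X (j + 1) σ :=
          sum_congr rfl fun ω _ => by ring
        rw [a2, Sm_add, Sm_sub, Sm_mul, a1]
        linarith
      · simp)
  refine ⟨fun i σ => ind (θ (d + 1 - i) < X (d + 1 - i) σ), fun i σ => ?_, fun i h1 h2 => ?_, ?_,
    le_trans (le_of_eq ?_) (hθ.trans (mul_le_mul_of_nonneg_left ?_ hC.le))⟩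
  · exact (em (θ (d + 1 - i) < X (d + 1 - i) σ)).elim (fun h => Or.inr (ind_pos h))
      fun h => Or.inl (ind_neg h)
  · intro σ τ h
    have := dS (d - i) (by omega)
    rw [show d - (d - i) = i by omega, show d - i + 1 = d + 1 - i by omega] at this
    simp only [this σ τ h]
  · funext σ
    rw [← hd]
    dsimp only
    rw [Nat.sub_self, X0]
    rcases bin_mem s σ with h | h <;> rw [h]
    · exact ind_neg (not_lt.2 h0.1)
    · exact ind_pos h0.2
  · rw [← hd]
    refine sum_nbij' (fun i => d - i) (fun j => d - j) (fun i h => ?_) (fun i h => ?_)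
      (fun i h => ?_) (fun i h => ?_) fun i h => ?_
    · simp only [mem_Ico, mem_range] at h ⊢; omega
    · simp only [mem_Ico, mem_range] at h ⊢; omega
    · simp only [mem_Ico] at h ⊢; omega
    · simp only [mem_range] at h ⊢; omega
    · rw [mem_Ico] at h
      rw [dis_comm, show d - i + 1 = d + 1 - i by omega, show d - i = d + 1 - (i + 1) by omega]
      rfl
  · have e1 : d - (d - i₀) = i₀ := by omega
    have a1 := mart 0 (d - i₀) (by omega) (by omega) (fun _ => 1) fun _ _ _ => rfl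
    have a2 := mart 0 (d - i₀) (by omega) (by omega) (mem t) (by rw [e1]; exact dep_mem ht)
    have a3 : dis Q (mem s) (mem t) =
        Sm Q fun σ => 1 * X 0 σ + mem t σ - 2 * (mem t σ * X 0 σ) := by
      refine congrArg (Sm Q) (funext fun σ => ?_)
      rw [X0]
      rcases bin_mem s σ with h | h <;> rcases bin_mem t σ with h' | h' <;> rw [h, h'] <;> norm_num
    have a4 : (Sm Q fun σ => X 0 σ * X 0 σ) = Sm Q fun σ => 1 * X 0 σ := by
      refine congrArg (Sm Q) (funext fun σ => ?_)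
      rw [X0]
      rcases bin_mem s σ with h | h <;> rw [h] <;> norm_num
    have a5 : (Sm Q fun σ => 2 * (mem t σ * X (d - i₀ + 1) σ)) ≤
        Sm Q fun σ => mem t σ + X (d - i₀ + 1) σ * X (d - i₀ + 1) σ := by
      refine Sm_mono hQ fun σ => ?_
      rcases bin_mem t σ with h | h <;> rw [h] <;> nlinarith [sq_nonneg (X (d - i₀ + 1) σ - 1)]
    rw [Sm_mul, Sm_add] at a5
    rw [a3, Sm_sub, Sm_add, Sm_mul Q _ 2, a4, a2]
    linarith

end Vale.Agent.P235
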