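import Vale.Agent.P235.Setup
import Vale.Agent.P235.Pred

/-! The cut measure. Plan: `mE = 2 + 2 * k * (k * k * 5)`, `M, W` from `setup k mE`, `Λ = ⌈80 / W⌉₊`,
`θ u = (S u ×ˢ S u).biUnion` of the five thresholds, `E` from `exists_sch`, `Δ` a bound for all
distances, `T = (1 + Λ²) Δ`, `Q` from `glue` for `ν u = nu T (μ u)` (`cons` with `b = u`).
`upper`: `Loc` for `ρ x y = dis Q (mem x) (mem y)`, with `nu_xor` on bags.
`bag`: for `x, y ∈ B a`, `W / 2 * dist x y ≤ dis Q (mem x) (mem y)` by `nu_xor` and `anti`.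
`farb`: if `c ≠ o`, `Anc c s`, `¬ Anc c t` then `c₁ * D c s ≤ C * dis Q (mem s) (mem t)` by
`exists_path`, `Path.eq_of_anc`, `pred`, `far` with `i₀ = dep c`. Finally `lca`: with `η = W / 20`,
either one of the two points has `η * dist x y ≤ D c x` (use `farb`), or there are `x', y' ∈ B a`
within `η * dist x y` of `x, y` (`D_near`, `S_sub_B`), and then
`dis x y ≥ W/2 * (1 - 2η) d - 2 η d ≥ W/4 * d`. -/

namespace Vale.Agent.P235

open Finset

theorem core (k : ℕ) : ∃ C : ℝ, 0 ≤ C ∧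
    ∀ (V : Type) [Fintype V] [DecidableEq V] [PseudoMetricSpace V] (R : RT V k), R.Loc →
      ∃ Q : Finset V → ℝ, (∀ σ, 0 ≤ Q σ) ∧ ∀ x y, dist x y ≤ C * dis Q (mem x) (mem y) ∧
        dis Q (mem x) (mem y) ≤ dist x y := by
  obtain ⟨M, W, hM, hW, hW1, hset⟩ := setup k (2 + 2 * k * (k * k * 5))
  obtain ⟨Cp, hCp, hpred⟩ := pred k
  obtain ⟨Λ, hΛ⟩ : ∃ Λ : ℕ, 80 / W ≤ Λ := ⟨_, Nat.le_ceil _⟩
  have hΛ0 : (0 : ℝ) < Λ := lt_of_lt_of_le (by positivity) hΛ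
  obtain ⟨c₁, hc₁⟩ : ∃ c₁ : ℝ, c₁ = W / (20 * (2 * M + 1)) /
    (4 * Λ * ((2 + 2 * k * (k * k * 5) : ℕ) + 1)) := ⟨_, rfl⟩
  have hc0 : 0 < c₁ := by rw [hc₁]; positivity
  refine ⟨4 / W + Cp / (c₁ * (W / 20)), by positivity, fun V _ _ _ R hL => ?_⟩
  let th : ℝ → Fin 3 ⊕ Bool → ℝ := fun d =>
    Sum.elim (fun j => (Λ : ℝ) ^ (Int.log Λ d - 1 + (j : ℕ)) / 4)
      fun b => cond b (d / 25) (40 / W * d)
  let θ : V → Finset ℝ := fun u => ((R.S u ×ˢ R.S u) ×ˢ (univ : Finset (Fin 3 ⊕ Bool))).image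
    fun x => th (dist x.1.1 x.1.2) x.2
  have hθ : ∀ u, ∀ p ∈ R.S u, ∀ q ∈ R.S u, ∀ j, th (dist p q) j ∈ θ u := fun u p hp q hq j =>
    mem_image.2 ⟨((p, q), j), mem_product.2 ⟨mem_product.2 ⟨hp, hq⟩, mem_univ _⟩, rfl⟩
  obtain ⟨E, hS⟩ := exists_sch R θ (k * k * 5) fun u => card_image_le.trans (by
    rw [card_product, card_product]
    exact Nat.mul_le_mul (Nat.mul_le_mul (R.card_S u) (R.card_S u)) (by simp))
  obtain ⟨μ, hμ⟩ := hset V R θ E hL hS fun u p hp q hq => hθ u p hp q hq (Sum.inr true)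
  obtain ⟨Δ, hΔ'⟩ := (Set.finite_range fun p : V × V => dist p.1 p.2).bddAbove
  have hΔ : ∀ x y : V, dist x y ≤ Δ := fun x y => hΔ' ⟨(x, y), rfl⟩
  have hT : ∀ x, dist x R.o ≤ (1 + (Λ : ℝ) ^ 2) * Δ := fun x => by
    have h1 := hΔ x R.o
    have h2 : 0 ≤ (Λ : ℝ) ^ 2 * Δ := mul_nonneg (by positivity) (dist_nonneg.trans h1)
    linarith
  obtain ⟨Q, hQ, hQ1, hMk⟩ := glue R (fun u => nu ((1 + (Λ : ℝ) ^ 2) * Δ) (μ u))
    (fun u σ => nu_nonneg _ (hμ.law u).1.nonneg σ) fun u hu Φ hΦ =>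
      hμ.cons _ hT u hu u (hS.self u hu) Φ (by rwa [union_self])
  have hx : ∀ u, ∀ x ∈ R.B u, ∀ y ∈ R.B u,
      dis Q (mem x) (mem y) = Ex (μ u) fun h => |h x - h y| := fun u x hx y hy =>
    (hQ1 u _ ((dep_mem (A := (R.B u : Set V)) hx).comp₂ (dep_mem hy) fun a b => |a - b|)).trans
      (nu_xor (hμ.law u).1 hT x y)
  have up : ∀ u, ∀ x ∈ R.B u, ∀ y ∈ R.B u, dis Q (mem x) (mem y) ≤ dist x y := by
    intro u x h1 y h2
    rw [hx u x h1 y h2]
    refine (Ex_mono (Ψ := fun _ => dist x y) (hμ.law u).1.nonneg fun h hh => ?_).trans ?_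
    · simpa using ((hμ.law u).1.lip h hh).1 x y
    · rw [Ex_const, (hμ.law u).2, mul_one]
  have hU : ∀ x y, dis Q (mem x) (mem y) ≤ dist x y :=
    hL (fun x y => dis Q (mem x) (mem y)) (fun x => (dis_self _ _).le)
      (fun x y z => dis_triangle hQ _ _ _) fun x y h => h.elim
        (fun h => up y x (R.S_sub_B_self y h) y (R.self_mem_B y))
        fun h => up x x (R.self_mem_B x) y (R.S_sub_B_self x h)
  have bag : ∀ u, ∀ x ∈ R.B u, ∀ y ∈ R.B u, W / 2 * dist x y ≤ dis Q (mem x) (mem y) := by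
    intro u x h1 y h2
    rw [hx u x h1 y h2]
    have h3 := hμ.anti u x h1 y h2
    have h4 : 1 / (10 * ((k : ℝ) + 1)) ≤ 1 / 2 :=
      one_div_le_one_div_of_le two_pos (by linarith [(Nat.cast_nonneg k : (0 : ℝ) ≤ k)])
    have h5 : 0 ≤ W * dist x y := by positivity
    refine le_trans ?_ (Ex_mono (Φ := fun h => W * dist x y * ind (W * dist x y ≤ |h x - h y|))
      (hμ.law u).1.nonneg fun h _ => ?_)
    · rw [Ex_fmul]
      have h6 := mul_le_mul_of_nonneg_left (show (1 : ℝ) / 2 ≤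
        Ex (μ u) fun h => ind (W * dist x y ≤ |h x - h y|) by linarith) h5
      linarith
    · by_cases h6 : W * dist x y ≤ |h x - h y|
      · rw [ind_pos h6, mul_one]; exact h6
      · rw [ind_neg h6, mul_zero]; exact abs_nonneg _
  have farb : ∀ c s t, c ≠ R.o → R.Anc c s → ¬ R.Anc c t →
      c₁ * R.D c s ≤ Cp * dis Q (mem s) (mem t) := by
    intro c s t h1 h2 h3
    obtain ⟨w, hw⟩ := R.exists_path s
    have h4 := hw.eq_of_anc h2
    have h5 := R.dep_par c h1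
    obtain ⟨φ, p1, p2, p3, p4⟩ := hpred V R Q s t w (R.dep c) hQ hMk hw (R.anc_dep_le h2)
      (by rwa [h4])
    have h6 := far hL hS hW hW1 hΛ (fun u p hp q hq => hθ u p hp q hq (Sum.inr false))
      (fun u p hp q hq j => hθ u p hp q hq (Sum.inl j)) hM hμ hΔ le_rfl hQ hQ1 hU hw
      (by omega) (R.anc_dep_le h2) p1 p2 p3
    rw [h4, ← hc₁] at h6
    exact h6.trans p4
  have near : ∀ x y a, (x = a ∨ ∃ c, c ≠ R.o ∧ R.par c = a ∧ R.Anc c x ∧ ¬ R.Anc c y) →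
      dist x y ≤ Cp / (c₁ * (W / 20)) * dis Q (mem x) (mem y) ∨
        ∃ x' ∈ R.B a, dist x x' ≤ W / 20 * dist x y := by
    rintro x y a (rfl | ⟨c, h1, rfl, h2, h3⟩)
    · exact Or.inr ⟨x, R.self_mem_B x, by rw [dist_self]; positivity⟩
    · rcases le_total (W / 20 * dist x y) (R.D c x) with h4 | h4
      · left
        have h5 := (mul_le_mul_of_nonneg_left h4 hc0.le).trans (farb c x y h1 h2 h3)
        rw [div_mul_eq_mul_div, le_div_iff₀ (by positivity)]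
        linarith
      · obtain ⟨z, hz, h5⟩ := R.D_near h1 x
        exact Or.inr ⟨z, R.S_sub_B h1 hz, h5 ▸ h4⟩
  refine ⟨Q, hQ, fun x y => ⟨?_, hU x y⟩⟩
  obtain ⟨a, h1, h2⟩ := R.lca x y
  have h0 := dis_nonneg hQ (mem x) (mem y)
  have p1 : 0 ≤ 4 / W * dis Q (mem x) (mem y) := by positivity
  have p2 : 0 ≤ Cp / (c₁ * (W / 20)) * dis Q (mem x) (mem y) := by positivity
  rw [add_mul]
  rcases near x y a h1 with h3 | ⟨x', hx', h3⟩
  · linarith
  rcases near y x a h2 with h4 | ⟨y', hy', h4⟩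
  · rw [dist_comm, dis_comm] at h4
    linarith
  rw [dist_comm y x] at h4
  have h5 := bag a x' hx' y' hy'
  have h6 := dis_triangle hQ (mem x') (mem x) (mem y')
  have h7 := dis_triangle hQ (mem x) (mem y) (mem y')
  have h8 := hU x' x
  have h9 := hU y y'
  have h10 := dist_triangle4 x x' y' y
  rw [dist_comm x' x] at h8
  rw [dist_comm y' y] at h10
  have h11 : W / 20 * dist x y ≤ 1 / 20 * dist x y :=
    mul_le_mul_of_nonneg_right (by linarith) dist_nonneg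
  have h12 : W / 2 * (9 / 10 * dist x y) ≤ W / 2 * dist x' y' :=
    mul_le_mul_of_nonneg_left (by linarith) (by positivity)
  have h13 : 0 ≤ W * dist x y := by positivity
  have h14 : dist x y ≤ 4 / W * dis Q (mem x) (mem y) := by
    rw [div_mul_eq_mul_div, le_div_iff₀ hW]
    linarith
  linarith

end Vale.Agent.P235
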