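import Vale.Agent.P235.Av

/-! Cuts of functions. Plan: `Sm_cw`: `Sm (cw T h) Φ = ∫ t in Ioc (-T) T, Φ (cut h t)` (the sets
`{t | cut h t = σ}` are measurable, they partition the line; write `Φ (cut h t)` as
`∑ σ, indicator {t | cut h t = σ} (Φ σ)`); also export integrability. Everything else follows:
`B ⊆ cut h t ↔ t < inf' B h`; `|mem x - mem y|` is the indicator of `Ico (min ..) (max ..)`.
`span`: induction on `T` (generalising the weights and `Φ`): for `Φ` depending on `insert a T`,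
`Φ σ = Φ (σ.erase a) + ind (a ∈ σ) * (Φ (insert a σ) - Φ (σ.erase a))`; apply the hypothesis to the
weights `μ` and `fun σ => μ σ * ind (a ∈ σ)`. `nu_cons` from `span`, `Sm_nu`, `cw_one`, `cw_sub`
(note `|h x| ≤ dist x o ≤ T`). -/

namespace Vale.Agent.P235

open Finset MeasureTheory

variable {V : Type} [Fintype V]

open Classical in
/-- The cut of `h` at level `t`. -/
noncomputable def cut (h : V → ℝ) (t : ℝ) : Finset V := univ.filter fun x => t < h x

/-- The length of the set of levels that give the cut `σ`. -/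
noncomputable def cw (T : ℝ) (h : V → ℝ) (σ : Finset V) : ℝ :=
  volume.real ({t | cut h t = σ} ∩ Set.Ioc (-T) T)

/-- The weights on cuts of a law on functions. -/
noncomputable def nu (T : ℝ) (μ : (V → ℝ) →₀ ℝ) (σ : Finset V) : ℝ := Ex μ fun h => cw T h σ

theorem mem_cut {h : V → ℝ} {t : ℝ} {x : V} : x ∈ cut h t ↔ t < h x := by simp [cut]

theorem cw_nonneg (T : ℝ) (h : V → ℝ) (σ : Finset V) : 0 ≤ cw T h σ := measureReal_nonneg

theorem nu_nonneg (T : ℝ) {μ : (V → ℝ) →₀ ℝ} (hμ : ∀ h, 0 ≤ μ h) (σ : Finset V) :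
    0 ≤ nu T μ σ := Ex_nonneg hμ fun h _ => cw_nonneg T h σ

theorem measurableSet_cut (h : V → ℝ) (σ : Finset V) : MeasurableSet {t | cut h t = σ} := by
  have e : {t | cut h t = σ} = ⋂ x, {t | t < h x ↔ x ∈ σ} := by
    ext t
    simp only [Set.mem_ofPred_eq, Set.mem_iInter, Finset.ext_iff, mem_cut]
  rw [e]
  refine MeasurableSet.iInter fun x => ?_
  by_cases hx : x ∈ σ
  · simp only [hx, iff_true]
    exact measurableSet_Iio
  · simp only [hx, iff_false, not_lt]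
    exact measurableSet_Ici

theorem cut_eq_sum (h : V → ℝ) (Φ : Finset V → ℝ) (t : ℝ) :
    Φ (cut h t) = ∑ σ, {t | cut h t = σ}.indicator (fun _ => Φ σ) t := by
  rw [Finset.sum_eq_single (cut h t)]
  · rw [Set.indicator_of_mem (by rfl)]
  · intro σ _ hσ
    exact Set.indicator_of_notMem (fun h' => hσ (Eq.symm h')) _
  · intro h'
    exact absurd (mem_univ _) h'

theorem integrableOn_cut_ind (T : ℝ) (h : V → ℝ) (σ : Finset V) (c : ℝ) :
    Integrable ({t | cut h t = σ}.indicator fun _ => c) (volume.restrict (Set.Ioc (-T) T)) :=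
  (integrable_const c).indicator (measurableSet_cut h σ)

theorem integrableOn_cut (T : ℝ) (h : V → ℝ) (Φ : Finset V → ℝ) :
    IntegrableOn (fun t => Φ (cut h t)) (Set.Ioc (-T) T) := by
  have e : (fun t => Φ (cut h t)) = fun t => ∑ σ, {t | cut h t = σ}.indicator (fun _ => Φ σ) t :=
    funext (cut_eq_sum h Φ)
  rw [e]
  exact integrable_finsetSum _ fun σ _ => integrableOn_cut_ind T h σ _

theorem cut_int_ind {T a b : ℝ} (ha : -T ≤ a) (hb : b ≤ T) :
    ∫ t in Set.Ioc (-T) T, (Set.Ioo a b).indicator (fun _ => (1 : ℝ)) t = max (b - a) 0 := by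
  rw [integral_indicator measurableSet_Ioo, setIntegral_const, smul_eq_mul, mul_one,
    measureReal_restrict_apply measurableSet_Ioo,
    Set.inter_eq_left.2 (Set.Ioo_subset_Ioc_self.trans (Set.Ioc_subset_Ioc ha hb)),
    Real.volume_real_Ioo]

theorem cut_lower {T a b : ℝ} (ha : -T ≤ a) (hb : b ≤ T) {F : ℝ → ℝ}
    (hF : IntegrableOn F (Set.Ioc (-T) T)) (h0 : ∀ t, 0 ≤ F t)
    (h1 : ∀ t, a < t → t < b → 1 ≤ F t) : b - a ≤ ∫ t in Set.Ioc (-T) T, F t := by
  refine (le_max_left _ 0).trans ?_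
  rw [← cut_int_ind ha hb]
  refine integral_mono ((integrable_const _).indicator measurableSet_Ioo) hF fun t => ?_
  by_cases ht : t ∈ Set.Ioo a b
  · rw [Set.indicator_of_mem ht]
    exact h1 t ht.1 ht.2
  · rw [Set.indicator_of_notMem ht]
    exact h0 t

theorem cut_int_eq {T a b : ℝ} (ha : -T ≤ a) (hab : a ≤ b) (hb : b ≤ T) {F : ℝ → ℝ}
    (h1 : ∀ t, a < t → t < b → F t = 1) (h0 : ∀ t, -T < t → (t < a ∨ b ≤ t) → F t = 0) :
    ∫ t in Set.Ioc (-T) T, F t = b - a := by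
  rw [← max_eq_left (sub_nonneg.2 hab), ← cut_int_ind ha hb]
  refine setIntegral_congr_ae measurableSet_Ioc ?_
  have : ∀ᵐ t : ℝ, t ≠ a := by simp [ae_iff]
  filter_upwards [this] with t hta ht
  by_cases h : t ∈ Set.Ioo a b
  · rw [Set.indicator_of_mem h, h1 t h.1 h.2]
  · rw [Set.indicator_of_notMem h]
    refine h0 t ht.1 ?_
    rcases lt_or_gt_of_ne hta with h' | h'
    · exact Or.inl h'
    · exact Or.inr (not_lt.1 fun h'' => h ⟨h', h''⟩)

theorem Sm_nu (T : ℝ) (μ : (V → ℝ) →₀ ℝ) (Φ : Finset V → ℝ) :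
    Sm (nu T μ) Φ = Ex μ fun h => Sm (cw T h) Φ := by
  unfold Sm nu
  rw [Ex_fsum]
  refine Finset.sum_congr rfl fun σ _ => ?_
  rw [mul_comm, ← Ex_fmul]
  simp only [mul_comm]

theorem Sm_cw (T : ℝ) (h : V → ℝ) (Φ : Finset V → ℝ) :
    Sm (cw T h) Φ = ∫ t in Set.Ioc (-T) T, Φ (cut h t) := by
  rw [integral_congr_ae (Filter.Eventually.of_forall (cut_eq_sum h Φ)),
    integral_finsetSum _ fun σ _ => integrableOn_cut_ind T h σ _]
  refine Finset.sum_congr rfl fun σ _ => ?_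
  rw [integral_indicator (measurableSet_cut h σ), setIntegral_const, smul_eq_mul,
    measureReal_restrict_apply (measurableSet_cut h σ)]
  rfl

theorem cw_one {T : ℝ} (hT : 0 ≤ T) (h : V → ℝ) : (Sm (cw T h) fun _ => 1) = 2 * T := by
  rw [Sm_cw, setIntegral_const, Real.volume_real_Ioc, smul_eq_mul, mul_one,
    max_eq_left (by linarith)]
  ring

theorem cw_sub {T : ℝ} {h : V → ℝ} (hT : ∀ x, |h x| ≤ T) (B : Finset V) (hB : B.Nonempty) :
    (Sm (cw T h) fun σ => ind (B ⊆ σ)) = B.inf' hB h + T := by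
  obtain ⟨x, hx, e⟩ := Finset.exists_mem_eq_inf' hB h
  have h1 := abs_le.1 (hT x)
  have hiff : ∀ t, B ⊆ cut h t ↔ t < B.inf' hB h := fun t => by
    rw [Finset.lt_inf'_iff]
    exact ⟨fun h' y hy => mem_cut.1 (h' hy), fun h' y hy => mem_cut.2 (h' y hy)⟩
  rw [Sm_cw, cut_int_eq (a := -T) (b := B.inf' hB h) le_rfl (e ▸ h1.1) (e ▸ h1.2)
    (fun t _ ht => ind_pos ((hiff t).2 ht))
    (fun t ht ht' => ind_neg fun h' => by
      rcases ht' with h'' | h''
      · exact absurd ht (not_lt.2 h''.le)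
      · exact absurd ((hiff t).1 h') (not_lt.2 h''))]
  ring

theorem cw_xor {T : ℝ} {h : V → ℝ} (hT : ∀ x, |h x| ≤ T) (x y : V) :
    dis (cw T h) (mem x) (mem y) = |h x - h y| := by
  wlog hxy : h x ≤ h y generalizing x y
  · rw [dis_comm, abs_sub_comm]
    exact this y x (le_of_not_ge hxy)
  unfold dis
  rw [Sm_cw, cut_int_eq (a := h x) (b := h y) (abs_le.1 (hT x)).1 hxy (abs_le.1 (hT y)).2,
    abs_sub_comm, abs_of_nonneg (sub_nonneg.2 hxy)]
  · intro t h1 h2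
    unfold mem
    rw [ind_neg (fun h' => absurd (mem_cut.1 h') (not_lt.2 h1.le)), ind_pos (mem_cut.2 h2)]
    norm_num
  · intro t _ ht
    unfold mem
    rcases ht with ht | ht
    · rw [ind_pos (mem_cut.2 ht), ind_pos (mem_cut.2 (ht.trans_le hxy))]
      norm_num
    · rw [ind_neg (fun h' => absurd (mem_cut.1 h') (not_lt.2 (hxy.trans ht))),
        ind_neg (fun h' => absurd (mem_cut.1 h') (not_lt.2 ht))]
      norm_num

theorem cw_lower {T a b : ℝ} (ha : -T ≤ a) (hb : b ≤ T) (h : V → ℝ) (Φ : Finset V → ℝ)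
    (hΦ : ∀ σ, 0 ≤ Φ σ) (h1 : ∀ t, a < t → t < b → 1 ≤ Φ (cut h t)) : b - a ≤ Sm (cw T h) Φ := by
  rw [Sm_cw]
  exact cut_lower ha hb (integrableOn_cut T h Φ) (fun t => hΦ _) h1

theorem cw_lower₂ {T a b : ℝ} (ha : -T ≤ a) (hb : b ≤ T) (h h' : V → ℝ) (Φ : Finset V → ℝ)
    (hΦ : ∀ σ, 0 ≤ Φ σ) (h1 : ∀ t, a < t → t < b → 1 ≤ Φ (cut h t) + Φ (cut h' t)) :
    b - a ≤ Sm (cw T h) Φ + Sm (cw T h') Φ := by
  rw [Sm_cw, Sm_cw, ← integral_add (integrableOn_cut T h Φ) (integrableOn_cut T h' Φ)]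
  exact cut_lower ha hb ((integrableOn_cut T h Φ).add (integrableOn_cut T h' Φ))
    (fun t => add_nonneg (hΦ _) (hΦ _)) h1

theorem span (T : Finset V) (μ μ' : Finset V → ℝ)
    (h : ∀ B ⊆ T, (Sm μ fun σ => ind (B ⊆ σ)) = Sm μ' fun σ => ind (B ⊆ σ))
    (Φ : Finset V → ℝ) (hΦ : Dep (T : Set V) Φ) : Sm μ Φ = Sm μ' Φ := by
  classical
  induction T using Finset.induction_on generalizing μ μ' Φ with
  | empty =>
    have e : Φ = fun σ => Φ ∅ * ind (∅ ⊆ σ) := by
      funext σ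
      rw [ind_pos (Finset.empty_subset σ), mul_one]
      exact hΦ _ _ (by simp)
    rw [e, Sm_mul, Sm_mul, h ∅ le_rfl]
  | insert a T ha ih =>
    have e : Φ = fun σ => Φ (σ.erase a) + ind (a ∈ σ) * (Φ (insert a σ) - Φ (σ.erase a)) := by
      funext σ
      by_cases h' : a ∈ σ
      · rw [ind_pos h', Finset.insert_eq_of_mem h']; ring
      · rw [ind_neg h', Finset.erase_eq_of_notMem h']; ring
    have d1 : Dep (T : Set V) fun σ => Φ (σ.erase a) := fun σ τ hs => hΦ _ _ fun x hx => by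
      rw [Finset.coe_insert] at hx
      rcases hx with rfl | hx
      · simp
      · simp [hs x hx]
    have d2 : Dep (T : Set V) fun σ => Φ (insert a σ) := fun σ τ hs => hΦ _ _ fun x hx => by
      rw [Finset.coe_insert] at hx
      rcases hx with rfl | hx
      · simp
      · simp [hs x hx]
    have e2 : ∀ (ν Ψ : Finset V → ℝ), Sm ν (fun σ => ind (a ∈ σ) * Ψ σ)
        = Sm (fun σ => ν σ * ind (a ∈ σ)) Ψ := fun ν Ψ => by
      simp only [Sm, mul_assoc]
    have k1 := ih μ μ' (fun B hB => h B (hB.trans (Finset.subset_insert _ _))) _ d1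
    have k2 := ih (fun σ => μ σ * ind (a ∈ σ)) (fun σ => μ' σ * ind (a ∈ σ)) (fun B hB => by
      rw [← e2, ← e2]
      simp only [← ind_and, ← Finset.insert_subset_iff]
      exact h _ (Finset.insert_subset_insert _ hB)) _ (d2.comp₂ d1 fun u v => u - v)
    rw [e, Sm_add, Sm_add, e2, e2, k1, k2]

variable [PseudoMetricSpace V]

omit [Fintype V] in
theorem cut_law_abs {o : V} {μ : (V → ℝ) →₀ ℝ} (hμ : IsLaw o μ) {T : ℝ} (hT : ∀ x, dist x o ≤ T)
    {g : V → ℝ} (hg : g ∈ μ.support) (x : V) : |g x| ≤ T := by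
  have h := (hμ.lip g hg).1 x o
  rw [(hμ.lip g hg).2, sub_zero, one_mul] at h
  exact h.trans (hT x)

theorem nu_cons {o : V} {μ μ' : (V → ℝ) →₀ ℝ} (hμ : IsLaw o μ) (hμ' : IsLaw o μ')
    (h1 : (Ex μ fun _ => 1) = 1) (h1' : (Ex μ' fun _ => 1) = 1) (U : Finset V)
    (h : ∀ (B : Finset V) (hB : B.Nonempty), B ⊆ U →
      (Ex μ fun h => B.inf' hB h) = Ex μ' fun h => B.inf' hB h)
    {T : ℝ} (hT : ∀ x, dist x o ≤ T) (Φ : Finset V → ℝ) (hΦ : Dep (U : Set V) Φ) :
    Sm (nu T μ) Φ = Sm (nu T μ') Φ := by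
  refine span U _ _ (fun B hB => ?_) Φ hΦ
  have hT0 : 0 ≤ T := dist_nonneg.trans (hT o)
  rw [Sm_nu, Sm_nu]
  rcases B.eq_empty_or_nonempty with rfl | hne
  · simp only [ind_pos (Finset.empty_subset _), cw_one hT0]
    rw [Ex_const, Ex_const μ', h1, h1']
  · rw [Ex_congr fun g hg => cw_sub (cut_law_abs hμ hT hg) B hne,
      Ex_congr fun g hg => cw_sub (cut_law_abs hμ' hT hg) B hne, Ex_fadd, Ex_fadd,
      h B hne hB, Ex_const, Ex_const μ', h1, h1']

theorem nu_xor {o : V} {μ : (V → ℝ) →₀ ℝ} (hμ : IsLaw o μ) {T : ℝ} (hT : ∀ x, dist x o ≤ T)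
    (x y : V) : dis (nu T μ) (mem x) (mem y) = Ex μ fun h => |h x - h y| := by
  unfold dis
  rw [Sm_nu]
  exact Ex_congr fun g hg => cw_xor (cut_law_abs hμ hT hg) x y

end Vale.Agent.P235
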