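import Mathlib

/-! Definitions used in the statement on L1 embeddings of graphs of bounded treewidth. -/

namespace Vale.Agent.P235

/-- The shortest path distance for edge lengths `len`. -/
noncomputable def gdist {V : Type} (G : SimpleGraph V) (len : Sym2 V → ℝ) (x y : V) : ℝ :=
  ⨅ p : G.Walk x y, (p.edges.map len).sum

/-- `G` has a tree decomposition of width at most `k`. -/
def TwLe {V : Type} (G : SimpleGraph V) (k : ℕ) : Prop :=
  ∃ (ι : Type) (_ : Fintype ι) (T : SimpleGraph ι) (B : ι → Finset V),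
    T.IsTree ∧ (∀ x y, G.Adj x y → ∃ t, x ∈ B t ∧ y ∈ B t) ∧
    (∀ v, (T.induce {t | v ∈ B t}).Connected) ∧ ∀ t, (B t).card ≤ k + 1

end Vale.Agent.P235
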