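import Vale.Agent.P235.Tree

/-! Distances to separators. Plan: a pair with `x ∈ S y`, `Anc u y`, `¬ Anc u x` has `x ∈ S u`
by `RI`; a pair with `x ∈ S y` and `Anc u x` has `Anc u y`.
`res_lip`: apply `Loc` to `|res x - res y| / L` (treat `L = 0` by replacing `L` by `L + e`, or apply
`Loc` to `t * |..|` for all `t`). `sep`: apply `Loc` to `|f x - f x'|` where
`f x = if Anc u x then inf' over z ∈ S u of (dist x z + dist z y) else dist x y` (note `u ≠ o`).
`D_via`: if `x ∈ S τ` take `z = x`; else take the point `y ∈ S b` nearest to `x`, it is not below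
`τ`, use `sep`. `D_mono` from `D_via`. -/

namespace Vale.Agent.P235

open Finset

namespace RT

variable {V : Type} [DecidableEq V] [PseudoMetricSpace V] {k : ℕ} (R : RT V k)

/-- The metric is the largest pseudo-metric with the given values on the bags. -/
def Loc : Prop :=
  ∀ ρ : V → V → ℝ, (∀ x, ρ x x ≤ 0) → (∀ x y z, ρ x z ≤ ρ x y + ρ y z) →
    (∀ x y, (x ∈ R.S y ∨ y ∈ R.S x) → ρ x y ≤ dist x y) → ∀ x y, ρ x y ≤ dist x y

/-- Distance to the separator of `b`. -/
noncomputable def D (b x : V) : ℝ := Metric.infDist x (R.S b : Set V)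

open Classical in
/-- Restriction of `g` to the subtree of `b`. -/
noncomputable def res (b : V) (g : V → ℝ) (x : V) : ℝ := if R.Anc b x then g x else 0

/-- The local signal of the pair `p, q`. -/
noncomputable def g (b p q x : V) : ℝ := min (R.D b x) (max 0 (dist p q / 2 - dist x p))

theorem D_nonneg (b x : V) : 0 ≤ R.D b x := Metric.infDist_nonneg

theorem D_zero {b z : V} (h : z ∈ R.S b) : R.D b z = 0 := Metric.infDist_zero_of_mem h

theorem D_le {b z : V} (h : z ∈ R.S b) (x : V) : R.D b x ≤ dist x z :=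
  Metric.infDist_le_dist_of_mem h

theorem D_le_add (b x y : V) : R.D b x ≤ R.D b y + dist x y :=
  Metric.infDist_le_infDist_add_dist

theorem D_o (x : V) : R.D R.o x = 0 := by simp [D, R.S_o]

theorem D_lip (b : V) : Lip 1 (R.D b) := by
  intro x y
  have h1 := R.D_le_add b x y
  have h2 := R.D_le_add b y x
  rw [dist_comm y x] at h2
  rw [abs_le]
  constructor <;> linarith

theorem D_near {b : V} (hb : b ≠ R.o) (x : V) : ∃ z ∈ R.S b, R.D b x = dist x z := by
  have hne : (R.S b : Set V).Nonempty := ⟨R.par b, R.par_mem b hb⟩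
  obtain ⟨z, hz, h⟩ := (R.S b).finite_toSet.isCompact.exists_infDist_eq_dist hne x
  exact ⟨z, hz, h⟩

theorem g_lip (b p q : V) : Lip 1 (R.g b p q) := by
  intro x y
  have h1 := R.D_lip b x y
  have h2 : |dist x p - dist y p| ≤ dist x y := abs_dist_sub_le x y p
  have h3 : |max 0 (dist p q / 2 - dist x p) - max 0 (dist p q / 2 - dist y p)| ≤ dist x y := by
    refine (abs_max_sub_max_le_max _ _ _ _).trans (max_le (by simp) ?_)
    have : dist p q / 2 - dist x p - (dist p q / 2 - dist y p) = -(dist x p - dist y p) := by ring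
    rw [this, abs_neg]
    exact h2
  rw [one_mul] at h1 ⊢
  exact (abs_min_sub_min_le_max _ _ _ _).trans (max_le h1 h3)

theorem g_zero {b z : V} (h : z ∈ R.S b) (p q : V) : R.g b p q z = 0 := by
  unfold g
  rw [R.D_zero h]
  exact min_eq_left (le_max_left _ _)

theorem g_o (p q x : V) : R.g R.o p q x = 0 := by
  unfold g
  rw [R.D_o]
  exact min_eq_left (le_max_left _ _)

omit [PseudoMetricSpace V] in
theorem mem_S_of_pair {u x y : V} (h : x ∈ R.S y ∨ y ∈ R.S x) (hx : R.Anc u x)
    (hy : ¬ R.Anc u y) : y ∈ R.S u := by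
  rcases h with h | h
  · exact absurd (R.anc_trans hx (R.mem_S h).1) hy
  · exact R.RI hx (R.S_sub_B_self x h) hy

theorem loc_le (hL : R.Loc) (F : V → ℝ) {c : ℝ} (hc : 0 ≤ c)
    (h : ∀ x y, (x ∈ R.S y ∨ y ∈ R.S x) → F x - F y ≤ c * dist x y) (x y : V) :
    F x - F y ≤ c * dist x y := by
  have key : ∀ e : ℝ, 0 < e → F x - F y ≤ (c + e) * dist x y := by
    intro e he
    have hce : 0 < c + e := by linarith
    have := hL (fun a b => (F a - F b) / (c + e)) (fun a => by simp)
      (fun a b d => by rw [← add_div]; apply le_of_eq; congr 1; ring)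
      (fun a b hab => by
        rw [div_le_iff₀ hce]
        have h1 := h a b hab
        have h2 : 0 ≤ e * dist a b := mul_nonneg he.le dist_nonneg
        nlinarith) x y
    rw [div_le_iff₀ hce] at this
    linarith
  by_contra hn
  have hd : 0 ≤ dist x y := dist_nonneg
  have hp : 0 < F x - F y - c * dist x y := by linarith
  have hd1 : 0 < dist x y + 1 := by linarith
  have h1 := key ((F x - F y - c * dist x y) / (dist x y + 1)) (div_pos hp hd1)
  have h2 : (F x - F y - c * dist x y) / (dist x y + 1) * (dist x y + 1)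
      = F x - F y - c * dist x y := div_mul_cancel₀ _ hd1.ne'
  have h3 := div_pos hp hd1
  nlinarith

theorem sep (hL : R.Loc) {u x y : V} (hx : R.Anc u x) (hy : ¬ R.Anc u y) :
    ∃ z ∈ R.S u, dist x z + dist z y ≤ dist x y := by
  classical
  have hu : u ≠ R.o := fun h => hy (by rw [h]; exact R.anc_o y)
  have hne : (R.S u).Nonempty := ⟨R.par u, R.par_mem u hu⟩
  choose m hm hmin using fun a : V =>
    Finset.exists_min_image (R.S u) (fun z => dist a z + dist z y) hne
  have := R.loc_le hL
    (fun a => if R.Anc u a then dist a (m a) + dist (m a) y else dist a y) zero_le_one ?_ x y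
  · refine ⟨m x, hm x, ?_⟩
    simp only [hx, hy, if_true, if_false, dist_self] at this
    linarith
  · intro a b hab
    by_cases ha : R.Anc u a <;> by_cases hb : R.Anc u b <;>
      simp only [ha, hb, if_true, if_false, one_mul]
    · have h1 := hmin a (m b) (hm b)
      have h2 := dist_triangle a b (m b)
      linarith
    · have h1 := hmin a b (R.mem_S_of_pair hab ha hb)
      linarith
    · have h1 := dist_triangle4 a b (m b) y
      linarith
    · have h1 := dist_triangle a b y
      linarith

theorem D_via (hL : R.Loc) {b τ x : V} (hb : b ≠ R.o) (h : R.Anc b τ)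
    (hx : R.Anc τ x ∨ x ∈ R.S τ) : ∃ z ∈ R.S τ, dist x z + R.D b z ≤ R.D b x := by
  rcases hx with hx | hx
  · obtain ⟨y, hy, hxy⟩ := R.D_near hb x
    have hn : ¬ R.Anc τ y := fun h' => R.not_anc_of_mem_S hy (R.anc_trans h h')
    obtain ⟨z, hz, h1⟩ := R.sep hL hx hn
    have h2 := R.D_le hy z
    exact ⟨z, hz, by linarith⟩
  · exact ⟨x, hx, by simp⟩

theorem D_mono (hL : R.Loc) {b b' x : V} (hb : b ≠ R.o) (h : R.Anc b b')
    (hx : R.Anc b' x ∨ x ∈ R.S b') : R.D b' x ≤ R.D b x := by
  obtain ⟨z, hz, h1⟩ := R.D_via hL hb h hx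
  have h2 := R.D_le hz x
  have h3 := R.D_nonneg b z
  linarith

theorem res_lip (hL : R.Loc) {b : V} {f : V → ℝ} {L : ℝ} (h0 : 0 ≤ L) (hf : Lip L f)
    (hz : ∀ z ∈ R.S b, f z = 0) : Lip L (R.res b f) := by
  have key : ∀ x y, R.res b f x - R.res b f y ≤ L * dist x y := by
    refine R.loc_le hL (R.res b f) h0 ?_
    intro x y hxy
    have h1 := (abs_le.1 (hf x y)).2
    have h2 : 0 ≤ L * dist x y := mul_nonneg h0 dist_nonneg
    by_cases hx : R.Anc b x <;> by_cases hy : R.Anc b y <;>
      simp only [res, hx, hy, if_true, if_false]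
    · exact h1
    · have := hz y (R.mem_S_of_pair hxy hx hy)
      linarith
    · have := hz x (R.mem_S_of_pair hxy.symm hy hx)
      linarith
    · linarith
  intro x y
  have h1 := key x y
  have h2 := key y x
  rw [dist_comm y x] at h2
  rw [abs_le]
  constructor <;> linarith

omit [PseudoMetricSpace V] in
theorem res_out {b x : V} (h : ¬ R.Anc b x) (f : V → ℝ) : R.res b f x = 0 := by
  simp [res, h]

omit [PseudoMetricSpace V] in
theorem res_eq {b u x : V} (h : R.Anc b u) (hx : x ∈ R.B u) {f : V → ℝ}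
    (hz : ∀ z ∈ R.S b, f z = 0) : R.res b f x = f x := by
  by_cases hb : R.Anc b x
  · simp [res, hb]
  · rw [R.res_out hb, hz x (R.RI h hx hb)]

omit [PseudoMetricSpace V] in
theorem anc_or_mem {b u x : V} (h : R.Anc b u) (hx : x ∈ R.B u) : R.Anc b x ∨ x ∈ R.S b := by
  by_cases hb : R.Anc b x
  · exact Or.inl hb
  · exact Or.inr (R.RI h hx hb)

end RT

end Vale.Agent.P235
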