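import Vale.Agent.P235.Tree

/-! From a tree decomposition to an elimination tree. Plan: root `T` at `r`, `d t = T.dist r t`.
(1) Every `t ≠ r` has a unique neighbour `π t` with `d (π t) + 1 = d t`, and for every edge `a ~ b`
of `T` either `a = π b` or `b = π a` (`IsTree`: uniqueness of paths, see
`SimpleGraph.IsAcyclic.dist_ne_of_adj`, `path_unique`, `Connected.exists_path_of_dist`).
(2) If `X` induces a connected subgraph, `t, t' ∈ X`, `t ≠ t'`, `d t' ≤ d t`, then `t ≠ r` and
`π t ∈ X`: the walk inside `X` from `t` to `t'` leaves the set of descendants of `t`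
(`ReflTransGen` of `π`), and the only edge leaving it is `t ~ π t`.
(3) `top v` = a bag containing `v` of least `d`. If `x, y ∈ B t` and `d (top x) ≤ d (top y)` then
`x ∈ B (top y)` (induction on `d t` with (2)).
(4) Take an injective `rk : V → ℕ` with `d (top x) < d (top y) → rk x < rk y`
(e.g. `d (top x) * card V + index x`), `o` the minimiser of `rk`, `N v = {x ∈ B (top v) | rk x < rk v}`,
`par v` = the maximiser of `rk` on `N v` if `N v` is nonempty, else `o`;
`S v = if v = o then ∅ else insert (par v) (N v)`, `dep` by well founded recursion on `rk`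
(`rk (par v) < rk v` for `v ≠ o`). `card (N v) ≤ k` as `v ∈ B (top v)`, `v ∉ N v`. -/

namespace Vale.Agent.P235

theorem tree_parent {ι : Type} (T : SimpleGraph ι) (hT : T.IsTree) :
    ∃ (d : ι → ℕ) (π : ι → ι), ∀ a b, T.Adj a b →
      (π a = b ∧ d a = d b + 1) ∨ (π b = a ∧ d b = d a + 1) := by
  classical
  obtain ⟨r⟩ := hT.connected.nonempty
  have huniq : ∀ a b b', T.Adj b a → T.Adj b' a → T.dist r a = T.dist r b + 1 →
      T.dist r a = T.dist r b' + 1 → b = b' := by
    intro a b b' hb hb' h1 h2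
    obtain ⟨p, -, hp⟩ := hT.connected.exists_path_of_dist r b
    obtain ⟨p', -, hp'⟩ := hT.connected.exists_path_of_dist r b'
    have hq : (p.concat hb).IsPath :=
      SimpleGraph.Walk.isPath_of_length_eq_dist _ (by rw [p.length_concat, hp, h1])
    have hq' : (p'.concat hb').IsPath :=
      SimpleGraph.Walk.isPath_of_length_eq_dist _ (by rw [p'.length_concat, hp', h2])
    have he : p.concat hb = p'.concat hb' :=
      Subtype.mk.inj <| (hT.isAcyclic.subsingleton_path r a).elim ⟨_, hq⟩ ⟨_, hq'⟩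
    have := congrArg SimpleGraph.Walk.penultimate he
    simpa using this
  have hex : ∀ a, ∃ c, ∀ b, T.Adj b a → T.dist r a = T.dist r b + 1 → c = b := by
    intro a
    by_cases h : ∃ b, T.Adj b a ∧ T.dist r a = T.dist r b + 1
    · obtain ⟨c, hc, hc'⟩ := h
      exact ⟨c, fun b hb hb' => huniq a c b hc hb hc' hb'⟩
    · exact ⟨a, fun b hb hb' => (h ⟨b, hb, hb'⟩).elim⟩
  choose π hπ using hex
  refine ⟨T.dist r, π, fun a b hab => ?_⟩
  rcases hT.dist_eq_dist_add_one_of_adj r hab with h | h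
  · exact Or.inl ⟨hπ a b hab.symm h, h⟩
  · exact Or.inr ⟨hπ b a hab h, h⟩

theorem parent_mem {ι : Type} (T : SimpleGraph ι) (d : ι → ℕ) (π : ι → ι)
    (hπ : ∀ a b, T.Adj a b → (π a = b ∧ d a = d b + 1) ∨ (π b = a ∧ d b = d a + 1))
    (X : Set ι) (hX : (T.induce X).Connected) {t t' : ι} (ht : t ∈ X) (ht' : t' ∈ X)
    (hne : t ≠ t') (hd : d t' ≤ d t) : π t ∈ X ∧ d t = d (π t) + 1 := by
  have hlt : ∀ s, Relation.ReflTransGen (fun a c => π c = a ∧ d c = d a + 1) t s →
      s = t ∨ d t < d s := by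
    intro s hs
    induction hs with
    | refl => exact Or.inl rfl
    | tail _ h ih =>
      right
      rcases ih with ih | ih
      · subst ih; omega
      · omega
  have key : ∀ (a b : X), Relation.ReflTransGen (T.induce X).Adj a b →
      Relation.ReflTransGen (fun a c => π c = a ∧ d c = d a + 1) t a →
      Relation.ReflTransGen (fun a c => π c = a ∧ d c = d a + 1) t b ∨
        (π t ∈ X ∧ d t = d (π t) + 1) := by
    intro a b hab ha
    induction hab with
    | refl => exact Or.inl ha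
    | @tail b c _ hbc ih =>
      rcases ih with ih | ih
      · have hadj : T.Adj b c := hbc
        rcases hπ _ _ hadj with ⟨h1, h2⟩ | ⟨h1, h2⟩
        · rcases ih.cases_tail with h | ⟨e, he, he1, -⟩
          · right
            rw [← h, h1]
            exact ⟨c.2, h2⟩
          · left
            rw [← h1, he1]
            exact he
        · exact Or.inl (ih.tail ⟨h1, h2⟩)
      · exact Or.inr ih
  have hr := (SimpleGraph.reachable_iff_reflTransGen _ _).1 (hX.preconnected ⟨t, ht⟩ ⟨t', ht'⟩)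
  rcases key _ _ hr Relation.ReflTransGen.refl with h | h
  · rcases hlt _ h with h | h
    · exact (hne h.symm).elim
    · exact absurd h (not_lt.2 hd)
  · exact h

theorem exists_top {V : Type} (G : SimpleGraph V) (k : ℕ) (h : TwLe G k) :
    ∃ (C : V → Finset V) (e : V → ℕ), (∀ v, v ∈ C v) ∧ (∀ v, (C v).card ≤ k + 1) ∧
      (∀ x y, G.Adj x y → e x ≤ e y → x ∈ C y) ∧
      ∀ v x y, x ∈ C v → y ∈ C v → e x ≤ e y → x ∈ C y := by
  classical
  obtain ⟨ι, _, T, B, hT, hE, hC, hB⟩ := h
  obtain ⟨d, π, hπ⟩ := tree_parent T hT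
  have htop : ∀ v, ∃ t, v ∈ B t ∧ ∀ s, v ∈ B s → d t ≤ d s := by
    intro v
    obtain ⟨⟨t, ht⟩⟩ := (hC v).nonempty
    obtain ⟨s, hs, hs'⟩ := Finset.exists_min_image (Finset.univ.filter fun s => v ∈ B s) d
      ⟨t, by simpa using ht⟩
    exact ⟨s, by simpa using hs, fun s' h' => hs' s' (by simpa using h')⟩
  choose top htop1 htop2 using htop
  have key : ∀ x y, d (top x) ≤ d (top y) → ∀ n t, d t = n → x ∈ B t → y ∈ B t →
      x ∈ B (top y) := by
    intro x y hxy n
    induction n using Nat.strong_induction_on with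
    | _ n ih =>
      intro t hn hx hy
      by_cases hty : t = top y
      · exact hty ▸ hx
      obtain ⟨h1, h2⟩ := parent_mem T d π hπ _ (hC y) (t := t) (t' := top y) hy (htop1 y) hty
        (htop2 y t hy)
      have h3 := htop2 y _ h1
      have htx : t ≠ top x := by
        intro htx
        rw [← htx] at hxy
        omega
      obtain ⟨h4, -⟩ := parent_mem T d π hπ _ (hC x) (t := t) (t' := top x) hx (htop1 x) htx
        (htop2 x t hx)
      exact ih (d (π t)) (by omega) (π t) rfl h4 h1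
  refine ⟨fun v => B (top v), fun v => d (top v), htop1, fun v => hB _, fun x y hxy he => ?_,
    fun v x y hx hy he => key x y he _ _ rfl hx hy⟩
  obtain ⟨t, hx, hy⟩ := hE x y hxy
  exact key x y he _ _ rfl hx hy

theorem exists_rk {V : Type} [Fintype V] (e : V → ℕ) :
    ∃ rk : V → ℕ, Function.Injective rk ∧ ∀ x y, rk x ≤ rk y → e x ≤ e y := by
  have f := Fintype.equivFin V
  have h2 : ∀ x y, e x * Fintype.card V + (f x : ℕ) ≤ e y * Fintype.card V + (f y : ℕ) →
      e x ≤ e y := by
    intro x y h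
    by_contra hc
    have h1 : e y + 1 ≤ e x := by omega
    have h3 := Nat.mul_le_mul_right (Fintype.card V) h1
    have h4 := (f y).2
    rw [add_mul, one_mul] at h3
    omega
  refine ⟨fun x => e x * Fintype.card V + (f x : ℕ), fun x y h => ?_, h2⟩
  have h3 : e x = e y := le_antisymm (h2 x y h.le) (h2 y x h.ge)
  have h4 : (f x : ℕ) = f y := by
    simp only [h3] at h
    omega
  exact f.injective (Fin.ext h4)

theorem exists_dep {V : Type} [DecidableEq V] (o : V) (par : V → V) (rk : V → ℕ)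
    (h : ∀ u, u ≠ o → rk (par u) < rk u) :
    ∃ dep : V → ℕ, dep o = 0 ∧ ∀ u, u ≠ o → dep u = dep (par u) + 1 := by
  have hwf : WellFounded fun a b : V => rk a < rk b := InvImage.wf rk Nat.lt_wfRel.wf
  refine ⟨hwf.fix fun u ih => if hu : u = o then 0 else ih (par u) (h u hu) + 1, ?_, ?_⟩
  · rw [WellFounded.fix_eq]
    simp
  · intro u hu
    rw [WellFounded.fix_eq]
    simp [hu]

theorem exists_RT {V : Type} [Fintype V] [DecidableEq V] [Nonempty V] (G : SimpleGraph V) (k : ℕ)
    (h : TwLe G k) : ∃ R : RT V (k + 1), ∀ x y, G.Adj x y → x ∈ R.S y ∨ y ∈ R.S x := by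
  obtain ⟨C, e, hC1, hC2, hC3, hC4⟩ := exists_top G k h
  obtain ⟨rk, hinj, hrk⟩ := exists_rk e
  obtain ⟨o, -, ho⟩ := Finset.exists_min_image (Finset.univ : Finset V) rk Finset.univ_nonempty
  have ho' : ∀ u, u ≠ o → rk o < rk u := fun u hu =>
    lt_of_le_of_ne (ho u (Finset.mem_univ u)) fun h => hu (hinj h).symm
  have hno : ∀ x u, rk x < rk u → u ≠ o := by
    intro x u hx hu
    have := ho x (Finset.mem_univ x)
    rw [hu] at hx
    omega
  obtain ⟨N, hN⟩ : ∃ N : V → Finset V, ∀ v x, x ∈ N v ↔ x ∈ C v ∧ rk x < rk v :=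
    ⟨fun v => (C v).filter fun x => rk x < rk v, fun v x => Finset.mem_filter⟩
  have hpar : ∀ v, ∃ p, (p = o ∨ p ∈ N v) ∧ ∀ x ∈ N v, p ∈ N v ∧ rk x ≤ rk p := by
    intro v
    rcases (N v).eq_empty_or_nonempty with h | h
    · exact ⟨o, Or.inl rfl, by simp [h]⟩
    · obtain ⟨p, hp, hp'⟩ := Finset.exists_max_image (N v) rk h
      exact ⟨p, Or.inr hp, fun x hx => ⟨hp, hp' x hx⟩⟩
  choose par hpar1 hpar2 using hpar
  have hlt : ∀ u, u ≠ o → rk (par u) < rk u := by
    intro u hu
    rcases hpar1 u with h | h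
    · rw [h]; exact ho' u hu
    · exact ((hN _ _).1 h).2
  obtain ⟨dep, hd0, hd1⟩ := exists_dep o par rk hlt
  obtain ⟨S, hS0, hS1⟩ : ∃ S : V → Finset V, S o = ∅ ∧
      ∀ v, v ≠ o → S v = insert (par v) (N v) :=
    ⟨fun v => if v = o then ∅ else insert (par v) (N v), by simp, fun v hv => by simp [hv]⟩
  have hmem : ∀ x y, x ∈ C y → rk x < rk y → x ∈ S y := by
    intro x y hx hxy
    rw [hS1 y (hno x y hxy)]
    exact Finset.mem_insert_of_mem ((hN _ _).2 ⟨hx, hxy⟩)
  refine ⟨⟨o, par, dep, S, hd0, hd1, hS0, ?_, ?_, ?_⟩, ?_⟩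
  · intro u hu x hx
    rw [hS1 u hu, Finset.mem_insert] at hx
    rw [Finset.mem_insert]
    by_cases hxp : x = par u
    · exact Or.inl hxp
    · right
      have hxN := hx.resolve_left hxp
      obtain ⟨h1, h2⟩ := hpar2 u x hxN
      have h3 : rk x < rk (par u) := lt_of_le_of_ne h2 fun h => hxp (hinj h)
      exact hmem _ _ (hC4 u x (par u) ((hN _ _).1 hxN).1 ((hN _ _).1 h1).1 (hrk _ _ h2)) h3
  · intro u hu
    rw [hS1 u hu]
    exact Finset.mem_insert_self _ _
  · intro u
    by_cases hu : u = o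
    · rw [hu, hS0]; simp
    · rw [hS1 u hu]
      have h1 : N u ⊆ (C u).erase u := by
        intro x hx
        obtain ⟨h1, h2⟩ := (hN _ _).1 hx
        exact Finset.mem_erase.2 ⟨fun h => by rw [h] at h2; omega, h1⟩
      have h2 := Finset.card_le_card h1
      rw [Finset.card_erase_of_mem (hC1 u)] at h2
      have h3 := Finset.card_insert_le (par u) (N u)
      have h4 := hC2 u
      omega
  · intro x y hxy
    rcases lt_trichotomy (rk x) (rk y) with h | h | h
    · exact Or.inl (hmem x y (hC3 x y hxy (hrk _ _ h.le)) h)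
    · exact (hxy.ne (hinj h)).elim
    · exact Or.inr (hmem y x (hC3 y x hxy.symm (hrk _ _ h.le)) h)

end Vale.Agent.P235
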