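import Vale.Agent.P235.Basic

/-! From a weighted family of cuts to a map into `L1`. Plan: `Ω = Finset V` with the discrete
sigma-algebra and the counting measure, `f x = MemLp.toLp (fun σ => C * Q σ * mem x σ)`;
`Lp.norm_toLp` or `L1.norm_eq_integral_norm`, `integral_count` or `integral_fintype`. -/

namespace Vale.Agent.P235

open MeasureTheory

theorem exists_emb {V : Type} [Fintype V] (Q : Finset V → ℝ) (hQ : ∀ σ, 0 ≤ Q σ) (C : ℝ)
    (hC : 0 ≤ C) :
    ∃ (Ω : Type) (_ : MeasurableSpace Ω) (μ : Measure Ω) (f : V → Lp ℝ 1 μ),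
      ∀ x y, ‖f x - f y‖ = C * dis Q (mem x) (mem y) := by
  let _ : MeasurableSpace (Finset V) := ⊤
  have _ : DiscreteMeasurableSpace (Finset V) := ⟨fun _ => trivial⟩
  have hm : ∀ g : Finset V → ℝ, MemLp g 1 (Measure.count : Measure (Finset V)) := fun g =>
    memLp_one_iff_integrable.2 Integrable.of_finite
  refine ⟨Finset V, ⊤, Measure.count, fun x => (hm fun σ => C * Q σ * mem x σ).toLp _,
    fun x y => ?_⟩
  rw [← MemLp.toLp_sub, L1.norm_eq_integral_norm]
  refine (integral_congr_ae ((MemLp.coeFn_toLp _).fun_comp norm)).trans ?_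
  rw [integral_count, dis, Sm, Finset.mul_sum]
  refine Finset.sum_congr rfl fun σ _ => ?_
  rw [Function.comp_apply, Pi.sub_apply, ← mul_sub, Real.norm_eq_abs, abs_mul, abs_of_nonneg (mul_nonneg hC (hQ σ)),
    mul_assoc]

end Vale.Agent.P235
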