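import Vale.Agent.P235.Anti
import Vale.Agent.P235.Cut

/-! A predictor close to `mem c` cannot be predicted from `Sb`. Put `L = Λ² ϱ`,
`N = S.filter (dist c · ≤ r)`, `Up h = S.filter (r < dist c · ∧ h c < h ·)`,
`Sp h = ∀ p ∈ S, r < dist c p → W * dist c p ≤ |h c - h p|`,
`Good h = Sp h ∧ φ (N ∪ Up h) = 1 ∧ φ (Up h) = 0`. Note `r ≤ W L / 2`.
(1) `Ex μ (ind ¬ Sp) ≤ 1/10` (union bound). (2) If `h` is `1`-Lipschitz with `h o = 0`, `Sp h` and not
`Good h`, then `W L / 2 ≤ Sm (cw T h) |φ - mem c|`: `cw_lower` on `(h c + r, h c + W L)` where the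
trace of the cut on `S` is `Up h`, or on `(h c - W L, h c - r)` where it is `N ∪ Up h`. Hence
`Ex μ (ind ¬ Good) ≤ 1/10 + 4 / (W Λ) ≤ 3/20`. (3) For `h` in the support of `μ'` (from `Sig`), with
`G = (W/10) • g`: if `h₁ = h + vl M j • G` is good for some `j`, then on the interval
`(h c - W Γ / 10 + 2 r, h c + W Γ / 10 - 2 r)` the trace on `S` of the cut of `h + G` is
`N ∪ Up h₁`, that of `h - G` is `Up h₁`, and the traces on `Sb` agree, so by `cw_lower₂` the sum of the
two `Sm (cw T ·) |φ - φb|` is at least `W Γ / 10`. So pointwise, with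
`Φ h = Sm (cw T h) |φ - φb|` and `a = W Γ / (10 (2M+1))`:
`a * (1 - av (ind ¬ Good (h + vl M j • G))) ≤ av (Φ (h + vl M j • G))` (`vl_zero`, `vl_last`).
Integrate: `a * (9/10 - 3/20) ≤ Ex μ Φ = dis (nu T μ) φ φb` (`Sm_nu`). -/

namespace Vale.Agent.P235

open Finset

section Aux
variable {V : Type} [PseudoMetricSpace V]

open Classical in
/-- Points of `S` near `c`. -/
noncomputable def hargN (S : Finset V) (c : V) (r : ℝ) : Finset V :=
  S.filter fun p => dist c p ≤ r

open Classical in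
/-- Far points of `S` above `c`. -/
noncomputable def hargU (S : Finset V) (c : V) (r : ℝ) (h : V → ℝ) : Finset V :=
  S.filter fun p => r < dist c p ∧ h c < h p

/-- Far points of `S` are spread. -/
def hargSp (S : Finset V) (c : V) (r W : ℝ) (h : V → ℝ) : Prop :=
  ∀ p ∈ S, r < dist c p → W * dist c p ≤ |h c - h p|

/-- The good event. -/
def hargGood [DecidableEq V] (S : Finset V) (c : V) (r W : ℝ) (φ : Finset V → ℝ) (h : V → ℝ) :
    Prop :=
  hargSp S c r W h ∧ φ (hargN S c r ∪ hargU S c r h) = 1 ∧ φ (hargU S c r h) = 0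

theorem mem_hargN {S : Finset V} {c p : V} {r : ℝ} :
    p ∈ hargN S c r ↔ p ∈ S ∧ dist c p ≤ r := by simp [hargN]

theorem mem_hargU {S : Finset V} {c p : V} {r : ℝ} {h : V → ℝ} :
    p ∈ hargU S c r h ↔ p ∈ S ∧ r < dist c p ∧ h c < h p := by simp [hargU]

theorem harg_sp {μ : (V → ℝ) →₀ ℝ} (hμ : ∀ h, 0 ≤ μ h) (h1 : (Ex μ fun _ => 1) = 1) {k : ℕ}
    {S : Finset V} (hS : S.card ≤ k) {c : V} {W r : ℝ}
    (hanti : ∀ p ∈ S,
      1 - 1 / (10 * ((k : ℝ) + 1)) ≤ Ex μ fun h => ind (W * dist c p ≤ |h c - h p|)) :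
    (Ex μ fun h => ind (¬ hargSp S c r W h)) ≤ 1 / 10 := by
  have e1 : (Ex μ fun h => ind (¬ hargSp S c r W h)) ≤
      Ex μ fun h => ∑ p ∈ S, (1 - ind (W * dist c p ≤ |h c - h p|)) := by
    refine Ex_mono hμ fun h _ => ?_
    have hn : ∀ p ∈ S, 0 ≤ 1 - ind (W * dist c p ≤ |h c - h p|) :=
      fun p _ => sub_nonneg.2 (ind_le_one _)
    by_cases hs : hargSp S c r W h
    · rw [ind_neg (not_not.2 hs)]
      exact Finset.sum_nonneg hn
    · rw [ind_pos hs]
      unfold hargSp at hs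
      push Not at hs
      obtain ⟨p, hp, -, hlt⟩ := hs
      refine le_trans ?_ (Finset.single_le_sum hn hp)
      rw [ind_neg (not_le.2 hlt)]
      norm_num
  rw [Ex_fsum] at e1
  have e2 : ∑ p ∈ S, (Ex μ fun h => 1 - ind (W * dist c p ≤ |h c - h p|)) ≤
      ∑ _p ∈ S, 1 / (10 * ((k : ℝ) + 1)) := by
    refine Finset.sum_le_sum fun p hp => ?_
    rw [Ex_fsub, h1]
    linarith [hanti p hp]
  rw [Finset.sum_const, nsmul_eq_mul] at e2
  have e3 : (S.card : ℝ) ≤ k := by exact_mod_cast hS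
  have e4 : (S.card : ℝ) * (1 / (10 * ((k : ℝ) + 1))) ≤ 1 / 10 := by
    rw [mul_one_div, div_le_div_iff₀ (by positivity) (by norm_num)]
    linarith
  linarith

variable [Fintype V] [DecidableEq V]

theorem harg_bad {o c : V} {S : Finset V} {W L r T : ℝ} (hW : 0 < W) (hW1 : W ≤ 1) (hL : 0 < L)
    (hr : 0 ≤ r) (hrL : r ≤ W * L / 2) (hnear : ∀ p ∈ S, dist c p ≤ r ∨ L ≤ dist c p)
    (hT : dist c o + L ≤ T) {φ : Finset V → ℝ} (hφ : Bin φ) (hd : Dep (S : Set V) φ)
    {h : V → ℝ} (hl : Lip 1 h) (ho : h o = 0) (hs : hargSp S c r W h)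
    (hg : ¬ hargGood S c r W φ h) : W * L / 2 ≤ Sm (cw T h) fun σ => |φ σ - mem c σ| := by
  have hco : |h c| ≤ dist c o := by simpa [ho] using hl c o
  obtain ⟨hc1, hc2⟩ := abs_le.1 hco
  have hWL : W * L ≤ L := by nlinarith
  have hWL0 : 0 < W * L := mul_pos hW hL
  have hfar : ∀ p ∈ S, r < dist c p → W * L ≤ |h c - h p| := fun p hp hrp => by
    have h2 := (hnear p hp).resolve_left (not_le.2 hrp)
    exact (mul_le_mul_of_nonneg_left h2 hW.le).trans (hs p hp hrp)
  have hnr : ∀ p, dist c p ≤ r → |h c - h p| ≤ r := fun p hp => by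
    have := hl c p
    linarith
  by_cases h0 : φ (hargU S c r h) = 0
  · have h2 : φ (hargN S c r ∪ hargU S c r h) = 0 :=
      (hφ _).resolve_right fun h3 => hg ⟨hs, h3, h0⟩
    have key := cw_lower (T := T) (a := h c - W * L) (b := h c - r) (by linarith) (by linarith) h
      (fun σ => |φ σ - mem c σ|) (fun _ => abs_nonneg _) fun t ht1 ht2 => by
        have e1 : φ (cut h t) = φ (hargN S c r ∪ hargU S c r h) := by
          refine hd _ _ fun p hp => ?_
          have hp' : p ∈ S := hp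
          rw [mem_cut, Finset.mem_union, mem_hargN, mem_hargU]
          rcases le_or_gt (dist c p) r with hpr | hpr
          · have := abs_le.1 (hnr p hpr)
            exact ⟨fun _ => Or.inl ⟨hp', hpr⟩, fun _ => by linarith [this.2]⟩
          · have h4 := hfar p hp' hpr
            constructor
            · intro h5
              refine Or.inr ⟨hp', hpr, ?_⟩
              by_contra h6
              rw [abs_of_nonneg (by linarith [not_lt.1 h6])] at h4
              linarith
            · rintro (h5 | h5)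
              · exact absurd h5.2 (not_le.2 hpr)
              · linarith [h5.2.2]
        have e2 : mem c (cut h t) = 1 := ind_pos (mem_cut.2 (by linarith))
        simp only [e1, e2, h2]
        norm_num
    linarith
  · have h2 : φ (hargU S c r h) = 1 := (hφ _).resolve_left h0
    have key := cw_lower (T := T) (a := h c + r) (b := h c + W * L) (by linarith) (by linarith) h
      (fun σ => |φ σ - mem c σ|) (fun _ => abs_nonneg _) fun t ht1 ht2 => by
        have e1 : φ (cut h t) = φ (hargU S c r h) := by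
          refine hd _ _ fun p hp => ?_
          have hp' : p ∈ S := hp
          rw [mem_cut, mem_hargU]
          rcases le_or_gt (dist c p) r with hpr | hpr
          · have := abs_le.1 (hnr p hpr)
            exact ⟨fun _ => by linarith [this.1], fun h5 => absurd h5.2.1 (not_lt.2 hpr)⟩
          · have h4 := hfar p hp' hpr
            constructor
            · intro h5
              exact ⟨hp', hpr, by linarith⟩
            · intro h5
              rw [abs_of_neg (by linarith [h5.2.2])] at h4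
              linarith
        have e2 : mem c (cut h t) = 0 := ind_neg fun h5 => by
          have := mem_cut.1 h5
          linarith
        simp only [e1, e2, h2]
        norm_num
    linarith

omit [PseudoMetricSpace V] [Fintype V] [DecidableEq V] in
theorem harg_far {c p : V} {W Γ d u v t : ℝ} (hW : 0 < W) {g h : V → ℝ}
    (hg : |g c - g p| ≤ d) (hΓ : g c = Γ) (hΓ0 : 0 ≤ Γ) (hd : Γ ≤ d) (hu : |u| ≤ 1) (hv : |v| ≤ 1)
    (hs : W * d ≤ |(h + v • (W / 10) • g) c - (h + v • (W / 10) • g) p|)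
    (ht1 : h c - W * Γ / 10 < t) (ht2 : t < h c + W * Γ / 10) :
    t < (h + u • (W / 10) • g) p ↔ (h + v • (W / 10) • g) c < (h + v • (W / 10) • g) p := by
  simp only [Pi.add_apply, Pi.smul_apply, smul_eq_mul] at hs ⊢
  have hd0 : 0 ≤ d := hΓ0.trans hd
  have e1 : |(u - v) * (g c - g p)| ≤ 2 * d := by
    rw [abs_mul]
    refine mul_le_mul ?_ hg (abs_nonneg _) (by norm_num)
    have := abs_sub u v
    linarith
  have e2 : |u * Γ| ≤ Γ := by
    rw [abs_mul, abs_of_nonneg hΓ0]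
    nlinarith
  obtain ⟨e3, e4⟩ := abs_le.1 e1
  obtain ⟨e5, e6⟩ := abs_le.1 e2
  have f3 := mul_le_mul_of_nonneg_left e3 hW.le
  have f4 := mul_le_mul_of_nonneg_left e4 hW.le
  have f5 := mul_le_mul_of_nonneg_left e5 hW.le
  have f6 := mul_le_mul_of_nonneg_left e6 hW.le
  have f7 := mul_le_mul_of_nonneg_left hd hW.le
  have f8 := mul_nonneg hW.le hΓ0
  rw [hΓ] at hs f3 f4 ⊢
  constructor
  · intro h5
    by_contra h6
    rw [abs_of_nonneg (by linarith [not_lt.1 h6])] at hs
    nlinarith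
  · intro h5
    rw [abs_of_neg (by linarith)] at hs
    nlinarith

theorem harg_two {o c : V} {S Sb : Finset V} {W L r T : ℝ} (hW : 0 < W) (hW1 : W ≤ 1)
    {g : V → ℝ} (hg : Lip 1 g) (hg0 : ∀ z ∈ Sb, g z = 0) (hr : 0 ≤ r) (hrΓ : 40 * r ≤ W * g c)
    (hΓ : g c ≤ L) (hnear : ∀ p ∈ S, dist c p ≤ r ∨ L ≤ dist c p) (hT : dist c o + L ≤ T)
    {φ φb : Finset V → ℝ} (hd : Dep (S : Set V) φ) (hdb : Dep (Sb : Set V) φb)
    {h : V → ℝ} (hl : Lip 1 h) (ho : h o = 0) {v : ℝ} (hv : |v| ≤ 1)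
    (hG : hargGood S c r W φ (h + v • (W / 10) • g)) :
    W * g c / 10 ≤ (Sm (cw T (h + (1 : ℝ) • (W / 10) • g)) fun σ => |φ σ - φb σ|) +
      Sm (cw T (h + (-1 : ℝ) • (W / 10) • g)) fun σ => |φ σ - φb σ| := by
  have hco : |h c| ≤ dist c o := by simpa [ho] using hl c o
  obtain ⟨hc1, hc2⟩ := abs_le.1 hco
  have hΓ0 : 0 ≤ g c := by
    by_contra h0
    have := mul_neg_of_pos_of_neg hW (not_le.1 h0)
    linarith
  have hWΓ : W * g c ≤ g c := by nlinarith
  have hfar : ∀ p ∈ S, r < dist c p → ∀ u : ℝ, |u| ≤ 1 → ∀ t, h c - W * g c / 10 < t →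
      t < h c + W * g c / 10 → (t < (h + u • (W / 10) • g) p ↔
        (h + v • (W / 10) • g) c < (h + v • (W / 10) • g) p) := fun p hp hpr u hu t ht1 ht2 =>
    harg_far (d := dist c p) hW (by simpa using hg c p) rfl hΓ0
      (hΓ.trans ((hnear p hp).resolve_left (not_le.2 hpr))) hu hv (hG.1 p hp hpr) ht1 ht2
  have hnr : ∀ p, dist c p ≤ r → |h c - h p| ≤ r ∧ W * g c - r ≤ W * g p := fun p hp => by
    have e1 := hl c p
    have e2 := (abs_le.1 (hg c p)).2
    refine ⟨by linarith, ?_⟩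
    have e3 : g c - r ≤ g p := by linarith
    have e4 := mul_le_mul_of_nonneg_left e3 hW.le
    nlinarith
  have key := cw_lower₂ (T := T) (a := h c - W * g c / 10 + 2 * r)
    (b := h c + W * g c / 10 - 2 * r) (by linarith) (by linarith)
    (h + (1 : ℝ) • (W / 10) • g) (h + (-1 : ℝ) • (W / 10) • g)
    (fun σ => |φ σ - φb σ|) (fun _ => abs_nonneg _) fun t ht1 ht2 => by
      have e1 : φ (cut (h + (1 : ℝ) • (W / 10) • g) t) = 1 := by
        refine (hd _ _ fun p hp => ?_).trans hG.2.1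
        have hp' : p ∈ S := hp
        rw [mem_cut, Finset.mem_union, mem_hargN, mem_hargU]
        rcases le_or_gt (dist c p) r with hpr | hpr
        · obtain ⟨f1, f2⟩ := hnr p hpr
          refine ⟨fun _ => Or.inl ⟨hp', hpr⟩, fun _ => ?_⟩
          simp only [Pi.add_apply, Pi.smul_apply, smul_eq_mul]
          linarith [(abs_le.1 f1).2]
        · rw [hfar p hp' hpr 1 (by norm_num) t (by linarith) (by linarith)]
          exact ⟨fun h5 => Or.inr ⟨hp', hpr, h5⟩, fun h5 =>
            h5.elim (fun h6 => absurd h6.2 (not_le.2 hpr)) fun h6 => h6.2.2⟩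
      have e2 : φ (cut (h + (-1 : ℝ) • (W / 10) • g) t) = 0 := by
        refine (hd _ _ fun p hp => ?_).trans hG.2.2
        have hp' : p ∈ S := hp
        rw [mem_cut, mem_hargU]
        rcases le_or_gt (dist c p) r with hpr | hpr
        · obtain ⟨f1, f2⟩ := hnr p hpr
          refine ⟨fun h5 => ?_, fun h5 => absurd h5.2.1 (not_lt.2 hpr)⟩
          simp only [Pi.add_apply, Pi.smul_apply, smul_eq_mul] at h5
          linarith [(abs_le.1 f1).1]
        · rw [hfar p hp' hpr (-1) (by norm_num) t (by linarith) (by linarith)]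
          exact ⟨fun h5 => ⟨hp', hpr, h5⟩, fun h5 => h5.2.2⟩
      have e3 : φb (cut (h + (1 : ℝ) • (W / 10) • g) t) =
          φb (cut (h + (-1 : ℝ) • (W / 10) • g) t) := by
        refine hdb _ _ fun z hz => ?_
        have hz0 : g z = 0 := hg0 z hz
        simp [mem_cut, hz0]
      simp only [e1, e2, e3]
      have e4 := le_abs_self (1 - φb (cut (h + (-1 : ℝ) • (W / 10) • g) t))
      have e5 := neg_abs_le (0 - φb (cut (h + (-1 : ℝ) • (W / 10) • g) t))
      linarith
  linarith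

end Aux

theorem harg {V : Type} [Fintype V] [DecidableEq V] [PseudoMetricSpace V] {o : V}
    {μ : (V → ℝ) →₀ ℝ} (hμ : IsLaw o μ) (h1 : (Ex μ fun _ => 1) = 1) {k M : ℕ} (hM : 1 ≤ M)
    {S Sb : Finset V} (hS : S.card ≤ k) {c : V} (hc : c ∈ S) {W Λ ϱ r T : ℝ} (hW : 0 < W)
    (hW1 : W ≤ 1) (hΛ : 80 / W ≤ Λ) (hϱ : 0 < ϱ) {g : V → ℝ} (hg : Lip 1 g)
    (hg0 : ∀ z ∈ Sb, g z = 0) (hr : 0 ≤ r) (hrΓ : 40 / W * r ≤ g c) (hΓ : g c ≤ 2 * Λ * ϱ)
    (hnear : ∀ p ∈ S, dist c p ≤ r ∨ Λ ^ 2 * ϱ ≤ dist c p) (hT : dist c o + Λ ^ 2 * ϱ ≤ T)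
    (hanti : ∀ p ∈ S,
      1 - 1 / (10 * ((k : ℝ) + 1)) ≤ Ex μ fun h => ind (W * dist c p ≤ |h c - h p|))
    (hsig : Sig (vl M) (1 / 10) o μ ((W / 10) • g)) {φ φb : Finset V → ℝ} (hφ : Bin φ)
    (hφb : Bin φb) (hd : Dep (S : Set V) φ) (hdb : Dep (Sb : Set V) φb)
    (hcl : dis (nu T μ) φ (mem c) ≤ 2 * Λ * ϱ) :
    W / (20 * (2 * M + 1)) * g c ≤ dis (nu T μ) φ φb := by
  have hΛ80 : 80 ≤ W * Λ := by
    rw [div_le_iff₀ hW] at hΛ
    linarith
  have hΛ1 : 80 ≤ Λ := by nlinarith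
  have hrΓ' : 40 * r ≤ W * g c := by
    have e := mul_le_mul_of_nonneg_left hrΓ hW.le
    have e2 : W * (40 / W * r) = 40 * r := by field_simp
    linarith
  have hΓ0 : 0 ≤ g c := le_trans (by positivity) hrΓ
  have hΛϱ : 0 < Λ * ϱ := by positivity
  have hΓL : g c ≤ Λ ^ 2 * ϱ := by nlinarith
  have hL : 0 < Λ ^ 2 * ϱ := by positivity
  have hrL : r ≤ W * (Λ ^ 2 * ϱ) / 2 := by
    have := mul_le_mul_of_nonneg_left hΓL hW.le
    linarith
  have hsm : ∀ (h : V → ℝ) (ψ : Finset V → ℝ), 0 ≤ Sm (cw T h) fun σ => |φ σ - ψ σ| :=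
    fun h ψ => Sm_nonneg (cw_nonneg T h) fun _ => abs_nonneg _
  have s1 := harg_sp (r := r) hμ.nonneg h1 hS hanti
  have s2 : (Ex μ fun h => ind (¬ hargGood S c r W φ h)) ≤ 3 / 20 := by
    have e1 : (Ex μ fun h => ind (¬ hargGood S c r W φ h)) ≤
        Ex μ fun h => ind (¬ hargSp S c r W h) +
          (Sm (cw T h) fun σ => |φ σ - mem c σ|) / (W * (Λ ^ 2 * ϱ) / 2) := by
      refine Ex_mono hμ.nonneg fun h hh => ?_
      have e0 : 0 ≤ (Sm (cw T h) fun σ => |φ σ - mem c σ|) / (W * (Λ ^ 2 * ϱ) / 2) :=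
        div_nonneg (hsm h _) (by positivity)
      by_cases hs : hargSp S c r W h
      · by_cases hgd : hargGood S c r W φ h
        · rw [ind_neg (not_not.2 hgd)]
          linarith [ind_nonneg (¬ hargSp S c r W h)]
        · have e2 := harg_bad hW hW1 hL hr hrL hnear hT hφ hd (hμ.lip h hh).1 (hμ.lip h hh).2 hs hgd
          rw [ind_pos hgd, ind_neg (not_not.2 hs), zero_add, le_div_iff₀ (by positivity)]
          linarith
      · rw [ind_pos hs]
        linarith [ind_le_one (¬ hargGood S c r W φ h)]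
    rw [Ex_fadd, Ex_fdiv, ← Sm_nu] at e1
    have e3 : (Sm (nu T μ) fun σ => |φ σ - mem c σ|) / (W * (Λ ^ 2 * ϱ) / 2) ≤ 1 / 20 := by
      rw [div_le_iff₀ (by positivity)]
      refine le_trans hcl ?_
      nlinarith
    linarith
  obtain ⟨μ', hμ', hm, hs⟩ := hsig
  have hq : (0 : ℝ) < 2 * M + 1 := by positivity
  have hqc : (((2 * M + 1 : ℕ) : ℕ) : ℝ) = 2 * M + 1 := by push_cast; ring
  set a : ℝ := W * g c / 10 / (2 * M + 1) with ha
  have ha0 : 0 ≤ a := by positivity
  have s3 : (Ex μ' fun h => a * (1 - av fun j =>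
        ind (¬ hargGood S c r W φ (h + vl M j • (W / 10) • g)))) ≤
      Ex μ' fun h => av fun j => Sm (cw T (h + vl M j • (W / 10) • g)) fun σ => |φ σ - φb σ| := by
    refine Ex_mono hμ'.nonneg fun h hh => ?_
    by_cases hex : ∃ j, hargGood S c r W φ (h + vl M j • (W / 10) • g)
    · obtain ⟨j, hj⟩ := hex
      have e1 := harg_two hW hW1 hg hg0 hr hrΓ' hΓL hnear hT hd hdb (hμ'.lip h hh).1
        (hμ'.lip h hh).2 (vl_abs M j) hj
      rw [← vl_zero hM] at e1
      nth_rewrite 1 [← vl_last hM] at e1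
      have hne : (Fin.last (2 * M)) ≠ 0 := by
        intro h0
        have := congrArg Fin.val h0
        simp at this
        omega
      have e2 : W * g c / 10 ≤
          ∑ j, Sm (cw T (h + vl M j • (W / 10) • g)) fun σ => |φ σ - φb σ| := by
        refine e1.trans ?_
        rw [← Finset.sum_pair (f := fun j => Sm (cw T (h + vl M j • (W / 10) • g))
          fun σ => |φ σ - φb σ|) hne]
        exact Finset.sum_le_sum_of_subset_of_nonneg (Finset.subset_univ _) fun _ _ _ => hsm _ _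
      have e3 : 0 ≤ av fun j => ind (¬ hargGood S c r W φ (h + vl M j • (W / 10) • g)) :=
        div_nonneg (Finset.sum_nonneg fun _ _ => ind_nonneg _) (Nat.cast_nonneg _)
      have e4 : a ≤ av fun j => Sm (cw T (h + vl M j • (W / 10) • g)) fun σ => |φ σ - φb σ| := by
        unfold av
        rw [hqc, ha]
        exact div_le_div_of_nonneg_right e2 hq.le
      nlinarith
    · push Not at hex
      have e1 : (av fun j => ind (¬ hargGood S c r W φ (h + vl M j • (W / 10) • g))) = 1 := by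
        unfold av
        simp only [ind_pos (hex _), Finset.sum_const, Finset.card_univ, Fintype.card_fin,
          nsmul_eq_mul, mul_one]
        rw [hqc]
        exact div_self hq.ne'
      rw [e1, sub_self, mul_zero]
      exact div_nonneg (Finset.sum_nonneg fun _ _ => hsm _ _) (Nat.cast_nonneg _)
  have s4 := hs (fun h => ind (¬ hargGood S c r W φ h)) fun _ => ind_nonneg _
  have s5 := hs (fun h => Sm (cw T h) fun σ => |φ σ - φb σ|) fun h => hsm h _
  rw [Ex_fmul, Ex_fsub] at s3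
  rw [← Sm_nu] at s5
  have e6 : W / (20 * (2 * M + 1)) * g c = a / 2 := by
    rw [ha]
    field_simp
    ring
  rw [e6]
  unfold dis
  nlinarith

end Vale.Agent.P235
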