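import Vale.Agent.P235.Chg
import Vale.Agent.P235.Harg

/-! Every chain of predictors pays for the distance to the first separator.
Plan: `a = w i₀`; if `D a s = 0` trivial. `e = Int.log Λ (D a s)`, `ϱ = Λ ^ e ≤ D a s ≤ Δ`,
`c₀ = W / (20 (2M+1))`, `cost i = dis Q (φ i) (φ (i+1))`, `tot` = the sum. If `Λ ϱ ≤ tot` we are done.
Otherwise `dis Q (φ i) (mem s) ≤ tot ≤ Λ ϱ` for `i₀ ≤ i ≤ dep s + 1` (triangle inequality).
For `i₀ ≤ i ≤ dep s` put `F i = (E (w i)).filter (i₀ ≤ dep ·)` (it contains `w i`),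
`Θ i = ∑ b ∈ F i, dis (nu T (μ (w i))) (φ i) (φ (dep b))`, `K i = ∑ j ∈ Ico i₀ i, cost j`.
Invariant (induction on `i`): `Θ i ≤ mE * K i`, and for the point `b ∈ F i` of least depth
`c₀ * (ϱ/4 - D b s) + Θ i ≤ mE * K i`. At `i₀`: `F = {a}`, `Θ = 0`. Step `u = w (i+1)`, `v = w i`:
put `d b = dis (nu T (μ v)) (φ (i+1)) (φ (dep b)) ≤ dis (nu T (μ v)) (φ i) (φ (dep b)) + cost i` (`hQ1`
at `v`, `S u ∪ S v ⊆ B v`), so `∑ b ∈ F i, d b ≤ Θ i + mE * cost i`, and by `cons`
`Θ (i+1) = ∑ b ∈ (F (i+1)).erase u, d b` with `(F (i+1)).erase u ⊆ F i` (`φ (dep b)` depends on `S b`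
by `Path.eq_of_anc`). If the least point `b` is kept nothing else is needed. If it is dropped use
`change`: in the right case `harg` for `μ v`, `S u`, `S b`, `g = res b (D b)` (`res_lip`, `res_eq`)
gives `c₀ * D b c ≤ d b` (`dis (nu ..) (φ (i+1)) (mem c) = dis Q .. ≤ tot + dist s c`).
End: `harg` for `μ s`, `S = {s}`, `r = 0`, `φ = mem s` gives
`c₀ * D b s ≤ dis (nu T (μ s)) (mem s) (φ (dep b)) ≤ cost (dep s) + Θ (dep s)`
(for `hS` use `1 ≤ k` from `par_mem`). So `c₀ ϱ / 4 ≤ (mE + 1) * tot`. -/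

namespace Vale.Agent.P235

open Finset

variable {V : Type} [Fintype V] [DecidableEq V] [PseudoMetricSpace V] {k : ℕ}

/-- The properties of the local laws. -/
structure Sys (R : RT V k) (E : V → Finset V) (M : ℕ) (W : ℝ) (μ : V → (V → ℝ) →₀ ℝ) : Prop where
  law : ∀ u, IsLaw R.o (μ u) ∧ (Ex (μ u) fun _ => 1) = 1
  anti : ∀ u, ∀ x ∈ R.B u, ∀ y ∈ R.B u,
    1 - 1 / (10 * ((k : ℝ) + 1)) ≤ Ex (μ u) fun h => ind (W * dist x y ≤ |h x - h y|)
  sig : ∀ u, ∀ b ∈ E u, Sig (vl M) (1 / 10) R.o (μ u) ((W / 10) • R.res b (R.D b))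
  cons : ∀ T : ℝ, (∀ x, dist x R.o ≤ T) → ∀ u, u ≠ R.o → ∀ b ∈ E u, ∀ Φ,
    Dep ((R.S b ∪ R.S u : Finset V) : Set V) Φ →
      Sm (nu T (μ u)) Φ = Sm (nu T (μ (R.par u))) Φ

omit [DecidableEq V] [PseudoMetricSpace V] in
theorem far_chain {Q : Finset V → ℝ} (hQ : ∀ σ, 0 ≤ Q σ) (φ : ℕ → Finset V → ℝ) {i j : ℕ}
    (hij : i ≤ j) : dis Q (φ i) (φ j) ≤ ∑ l ∈ Ico i j, dis Q (φ l) (φ (l + 1)) := by
  induction j, hij using Nat.le_induction with
  | base => simp
  | succ j hij ih =>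
    rw [Finset.sum_Ico_succ_top hij]
    have := dis_triangle hQ (φ i) (φ j) (φ (j + 1))
    linarith

omit [Fintype V] [DecidableEq V] [PseudoMetricSpace V] in
theorem far_dep {A B C : Finset V} {φ ψ : Finset V → ℝ} (h : Dep (A : Set V) φ)
    (h' : Dep (B : Set V) ψ) (hA : A ⊆ C) (hB : B ⊆ C) :
    Dep (C : Set V) fun σ => |φ σ - ψ σ| :=
  (h.mono (by exact_mod_cast hA)).comp₂ (h'.mono (by exact_mod_cast hB)) fun a b => |a - b|

theorem far {R : RT V k} {θ : V → Finset ℝ} {mE : ℕ} {E : V → Finset V} (hL : R.Loc)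
    (hS : Sch R θ mE E) {W : ℝ} (hW : 0 < W) (hW1 : W ≤ 1) {Λ : ℕ} (hΛ : 80 / W ≤ Λ)
    (hθ2 : ∀ u, ∀ p ∈ R.S u, ∀ q ∈ R.S u, 40 / W * dist p q ∈ θ u)
    (hθ3 : ∀ u, ∀ p ∈ R.S u, ∀ q ∈ R.S u, ∀ j : Fin 3,
      (Λ : ℝ) ^ (Int.log Λ (dist p q) - 1 + (j : ℕ)) / 4 ∈ θ u)
    {M : ℕ} (hM : 1 ≤ M) {μ : V → (V → ℝ) →₀ ℝ} (hμ : Sys R E M W μ) {Δ T : ℝ}
    (hΔ : ∀ x y : V, dist x y ≤ Δ) (hT : (1 + (Λ : ℝ) ^ 2) * Δ ≤ T) {Q : Finset V → ℝ}
    (hQ : ∀ σ, 0 ≤ Q σ) (hQ1 : ∀ u Φ, Dep (R.B u : Set V) Φ → Sm Q Φ = Sm (nu T (μ u)) Φ)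
    (hU : ∀ x y, dis Q (mem x) (mem y) ≤ dist x y) {s : V} {w : ℕ → V} (hw : R.Path s w) {i₀ : ℕ}
    (hi : 1 ≤ i₀) (hi' : i₀ ≤ R.dep s) {φ : ℕ → Finset V → ℝ} (hφ : ∀ i, Bin (φ i))
    (hd : ∀ i, i₀ ≤ i → i ≤ R.dep s → Dep (R.S (w i) : Set V) (φ i))
    (hs : φ (R.dep s + 1) = mem s) :
    W / (20 * (2 * M + 1)) / (4 * Λ * (mE + 1)) * R.D (w i₀) s ≤
      ∑ i ∈ Ico i₀ (R.dep s + 1), dis Q (φ i) (φ (i + 1)) := by
  classical
  have hΛ80 : (80 : ℝ) ≤ Λ := le_trans (by rw [le_div_iff₀ hW]; nlinarith) hΛ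
  have hΛ1 : 1 < Λ := by
    have : (1 : ℝ) < Λ := by linarith
    exact_mod_cast this
  have hΛ0 : (0 : ℝ) < Λ := by linarith
  set n := R.dep s with hn
  set a := w i₀ with ha_def
  have hda : R.dep a = i₀ := hw.dep_eq i₀ hi'
  have hao : a ≠ R.o := fun h => by
    have := R.dep_eq_zero.2 h
    omega
  have has : R.Anc a s := hw.anc i₀ hi'
  set c₀ : ℝ := W / (20 * (2 * M + 1)) with hc₀
  have hc₀0 : 0 < c₀ := by positivity
  have hc₀1 : c₀ ≤ 1 := by
    rw [hc₀, div_le_one (by positivity)]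
    have : (0 : ℝ) ≤ M := by positivity
    nlinarith
  set tot := ∑ i ∈ Ico i₀ (n + 1), dis Q (φ i) (φ (i + 1)) with htot
  have htot0 : 0 ≤ tot := Finset.sum_nonneg fun i _ => dis_nonneg hQ _ _
  have hmE : (0 : ℝ) ≤ mE := by positivity
  rcases (R.D_nonneg a s).eq_or_lt with hD0 | hD0
  · rw [← hD0, mul_zero]; exact htot0
  set e := Int.log Λ (R.D a s) with he_def
  set ϱ : ℝ := (Λ : ℝ) ^ e with hϱ_def
  have he : ϱ ≤ R.D a s := Int.zpow_log_le_self hΛ1 hD0
  have he' : R.D a s < Λ * ϱ := by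
    have := Int.lt_zpow_succ_log_self hΛ1 (R.D a s)
    rw [zpow_add_one₀ hΛ0.ne'] at this
    linarith [mul_comm (Λ : ℝ) ϱ]
  have hϱ0 : 0 < ϱ := zpow_pos hΛ0 _
  have hΔ0 : 0 ≤ Δ := le_trans dist_nonneg (hΔ s s)
  have hϱΔ : ϱ ≤ Δ := he.trans ((R.D_le (R.par_mem a hao) s).trans (hΔ _ _))
  have hTo : ∀ x, dist x R.o ≤ T := fun x => by
    have := hΔ x R.o
    nlinarith [sq_nonneg (Λ : ℝ), mul_nonneg (sq_nonneg (Λ : ℝ)) hΔ0]
  have hTc : ∀ c : V, dist c R.o + (Λ : ℝ) ^ 2 * ϱ ≤ T := fun c => by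
    have := hΔ c R.o
    have h2 := mul_le_mul_of_nonneg_left hϱΔ (sq_nonneg (Λ : ℝ))
    nlinarith
  -- reduction to the main estimate
  suffices hmain : tot < Λ * ϱ → c₀ * (ϱ / 4) ≤ (mE + 1) * tot by
    by_cases hbig : tot < Λ * ϱ
    · have h1 := hmain hbig
      rw [div_mul_eq_mul_div, div_le_iff₀ (by positivity)]
      have h2 : c₀ * R.D a s ≤ c₀ * (Λ * ϱ) := mul_le_mul_of_nonneg_left he'.le hc₀0.le
      have h3 := mul_le_mul_of_nonneg_left h1 (show (0 : ℝ) ≤ 4 * Λ by positivity)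
      nlinarith
    · push Not at hbig
      have h1 : c₀ / (4 * Λ * (mE + 1)) ≤ 1 := by
        rw [div_le_one (by positivity)]
        nlinarith
      have h2 := mul_le_mul_of_nonneg_right h1 hD0.le
      linarith
  intro hsmall
  have hnn : ∀ u σ, 0 ≤ nu T (μ u) σ := fun u σ => nu_nonneg T (hμ.law u).1.nonneg σ
  have htail : ∀ i, i₀ ≤ i → i ≤ n + 1 → dis Q (φ i) (mem s) ≤ tot := fun i h1 h2 => by
    rw [← hs]
    refine (far_chain hQ φ h2).trans ?_
    exact Finset.sum_le_sum_of_subset_of_nonneg (Finset.Ico_subset_Ico_left h1)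
      fun j _ _ => dis_nonneg hQ _ _
  -- kept points
  have hwo : ∀ i, i₀ ≤ i → i ≤ n → w i ≠ R.o := fun i h1 h2 h => by
    have h3 := hw.dep_eq i h2
    have := R.dep_eq_zero.2 h
    omega
  have hkept : ∀ i, i ≤ n → ∀ b ∈ E (w i), i₀ ≤ R.dep b →
      R.Anc b s ∧ Dep (R.S b : Set V) (φ (R.dep b)) := fun i h2 b hb h3 => by
    have h4 : R.Anc b s := R.anc_trans (hS.anc hb).2 (hw.anc i h2)
    refine ⟨h4, ?_⟩
    have := hd (R.dep b) h3 (R.anc_dep_le h4)
    rwa [hw.eq_of_anc h4] at this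
  set F : ℕ → Finset V := fun i => (E (w i)).filter fun b => i₀ ≤ R.dep b with hF
  set Θ : ℕ → ℝ := fun i => ∑ b ∈ F i, dis (nu T (μ (w i))) (φ i) (φ (R.dep b)) with hΘ
  set K : ℕ → ℝ := fun i => ∑ j ∈ Ico i₀ i, dis Q (φ j) (φ (j + 1)) with hK
  have hresz : ∀ b, ∀ z ∈ R.S b, R.D b z = 0 := fun b z hz => R.D_zero hz
  have hinv : ∀ i, i₀ ≤ i → i ≤ n → Θ i ≤ mE * K i ∧ ∃ b ∈ F i, (∀ v ∈ F i, R.dep b ≤ R.dep v) ∧
      c₀ * (ϱ / 4 - R.D b s) + Θ i ≤ mE * K i := by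
    intro i h1
    induction i, h1 using Nat.le_induction with
    | base =>
      intro _
      have hΘ0 : Θ i₀ = 0 := by
        refine Finset.sum_eq_zero fun b hb => ?_
        have hb' := Finset.mem_filter.1 hb
        have h3 := R.anc_dep_le (hS.anc hb'.1).2
        have h4 : R.dep b = i₀ := by
          have := hb'.2
          rw [← ha_def, hda] at h3
          omega
        rw [h4, dis_self]
      have hK0 : K i₀ = 0 := by simp [hK]
      rw [hΘ0, hK0]
      refine ⟨by simp, a, Finset.mem_filter.2 ⟨hS.self a hao, hda.ge⟩, fun v hv => ?_, ?_⟩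
      · rw [hda]; exact (Finset.mem_filter.1 hv).2
      · have : c₀ * (ϱ / 4 - R.D a s) ≤ 0 :=
          mul_nonpos_of_nonneg_of_nonpos hc₀0.le (by linarith)
        linarith
    | succ i h1 ih =>
      intro h2
      obtain ⟨ih1, b, hb, hbm, ih2⟩ := ih (by omega)
      have hi_lt : i < n := by omega
      set u := w (i + 1) with hu_def
      set v := w i with hv_def
      have hu : u ≠ R.o := hw.ne_o i hi_lt
      have hpar : R.par u = v := hw.par_eq i hi_lt
      have hdu : R.dep u = i + 1 := hw.dep_eq (i + 1) h2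
      have hus : R.Anc u s := hw.anc (i + 1) h2
      have hSu : R.S u ⊆ R.B v := hpar ▸ R.S_sub_B hu
      have hdi : Dep (R.S v : Set V) (φ i) := hd i h1 hi_lt.le
      have hdi' : Dep (R.S u : Set V) (φ (i + 1)) := hd (i + 1) (by omega) h2
      set cost := dis Q (φ i) (φ (i + 1)) with hcost
      have hcost0 : 0 ≤ cost := dis_nonneg hQ _ _
      have hKs : K (i + 1) = K i + cost := by
        simp only [hK]; rw [Finset.sum_Ico_succ_top h1]
      set d : V → ℝ := fun x => dis (nu T (μ v)) (φ (i + 1)) (φ (R.dep x)) with hd_def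
      have hd0 : ∀ x, 0 ≤ d x := fun x => dis_nonneg (hnn v) _ _
      have hcv : dis (nu T (μ v)) (φ (i + 1)) (φ i) = cost := by
        rw [hcost, dis_comm Q]
        exact (hQ1 v _ (far_dep hdi' hdi hSu (R.S_sub_B_self v))).symm
      have hsum : ∑ x ∈ F i, d x ≤ Θ i + mE * cost := by
        have h3 : ∑ x ∈ F i, d x ≤
            ∑ x ∈ F i, (dis (nu T (μ v)) (φ i) (φ (R.dep x)) + cost) :=
          Finset.sum_le_sum fun x _ => by
            have := dis_triangle (hnn v) (φ (i + 1)) (φ i) (φ (R.dep x))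
            rw [hcv] at this
            simp only [hd_def]; linarith
        rw [Finset.sum_add_distrib, Finset.sum_const, nsmul_eq_mul] at h3
        have h4 : ((F i).card : ℝ) ≤ mE := by
          exact_mod_cast (Finset.card_filter_le _ _).trans (hS.card _)
        have h5 := mul_le_mul_of_nonneg_right h4 hcost0
        simp only [hΘ]; linarith
      have hsub : (F (i + 1)).erase u ⊆ F i := fun x hx => by
        have h3 := Finset.mem_erase.1 hx
        have h4 := Finset.mem_filter.1 h3.2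
        have h5 := Finset.mem_insert.1 (hS.sub u hu h4.1)
        rw [hpar] at h5
        exact Finset.mem_filter.2 ⟨h5.resolve_left h3.1, h4.2⟩
      have huF : u ∈ F (i + 1) := Finset.mem_filter.2 ⟨hS.self u hu, by omega⟩
      have hΘs : Θ (i + 1) = ∑ x ∈ (F (i + 1)).erase u, d x := by
        simp only [hΘ]
        rw [← Finset.add_sum_erase _ _ huF, hdu, dis_self, zero_add]
        refine Finset.sum_congr rfl fun x hx => ?_
        have h4 := Finset.mem_filter.1 (Finset.mem_erase.1 hx).2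
        have h5 := hμ.cons T hTo u hu x h4.1 _
          (far_dep hdi' (hkept (i + 1) h2 x h4.1 h4.2).2 Finset.subset_union_right
            Finset.subset_union_left)
        rw [hpar] at h5
        exact h5
      have hΘle : Θ (i + 1) ≤ ∑ x ∈ F i, d x := by
        rw [hΘs]
        exact Finset.sum_le_sum_of_subset_of_nonneg hsub fun x _ _ => hd0 x
      have hfirst : Θ (i + 1) ≤ mE * K (i + 1) := by rw [hKs, mul_add]; linarith
      refine ⟨hfirst, ?_⟩
      have hbE := Finset.mem_filter.1 hb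
      by_cases hbu : b ∈ E u
      · refine ⟨b, Finset.mem_filter.2 ⟨hbu, hbE.2⟩, fun x hx => ?_, ?_⟩
        · by_cases hxu : x = u
          · rw [hxu]; exact R.anc_dep_le (hS.anc hbu).2
          · exact hbm x (hsub (Finset.mem_erase.2 ⟨hxu, hx⟩))
        · rw [hKs, mul_add]; linarith
      · obtain ⟨b', hb', hbm'⟩ := Finset.exists_min_image (F (i + 1)) R.dep ⟨u, huF⟩
        have hb'E := Finset.mem_filter.1 hb'
        refine ⟨b', hb', hbm', ?_⟩
        have hav : R.Anc a (R.par u) := by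
          rw [hpar]; exact hw.anc_of_le h1 hi_lt.le
        have hch := change hL hS hW hW1 hΛ hθ2 hθ3 hu hus hao hav (b := b) (b' := b')
          (by rw [hpar]; exact hbE.1) (by rw [hda]; exact hbE.2)
          (fun x hx hx' => hbm x (Finset.mem_filter.2 ⟨by rwa [hpar] at hx, by rwa [hda] at hx'⟩))
          hbu hb'E.1 (by rw [hda]; exact hb'E.2)
          (fun x hx hx' => hbm' x (Finset.mem_filter.2 ⟨hx, by rwa [hda] at hx'⟩)) he he'
        rcases hch with hch | ⟨c, hc, r, hr, hsc, hnear, hrΓ, hΓ, hdrop⟩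
        · have : c₀ * (ϱ / 4 - R.D b' s) ≤ 0 :=
            mul_nonpos_of_nonneg_of_nonpos hc₀0.le (by linarith)
          linarith
        · have hbv : R.Anc b v := (hS.anc hbE.1).2
          have hgc : R.res b (R.D b) c = R.D b c := R.res_eq hbv (hSu hc) (hresz b)
          have hcl : dis (nu T (μ v)) (φ (i + 1)) (mem c) ≤ 2 * Λ * ϱ := by
            have h3 : dis (nu T (μ v)) (φ (i + 1)) (mem c) = dis Q (φ (i + 1)) (mem c) :=
              (hQ1 v _ (far_dep (B := R.S u) hdi' (dep_mem (by exact_mod_cast hc)) hSu hSu)).symm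
            have h4 := dis_triangle hQ (φ (i + 1)) (mem s) (mem c)
            have h5 := htail (i + 1) (by omega) (by omega)
            have h6 := hU s c
            linarith
          have hH := harg (hμ.law v).1 (hμ.law v).2 hM (R.card_S u) hc hW hW1 hΛ hϱ0
            (R.res_lip hL zero_le_one (R.D_lip b) (hresz b))
            (fun z hz => R.res_out (R.not_anc_of_mem_S hz) _) hr (by rw [hgc]; exact hrΓ)
            (by rw [hgc]; exact hΓ) hnear (hTc c)
            (fun p hp => hμ.anti v c (hSu hc) p (hSu hp)) (hμ.sig v b hbE.1) (hφ (i + 1))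
            (hφ (R.dep b)) hdi' (hkept i hi_lt.le b hbE.1 hbE.2).2 hcl
          rw [hgc] at hH
          have hΘb : Θ (i + 1) + d b ≤ ∑ x ∈ F i, d x := by
            rw [hΘs, ← Finset.sum_erase_add _ _ hb]
            have : (F (i + 1)).erase u ⊆ (F i).erase b := fun x hx =>
              Finset.mem_erase.2 ⟨fun h => hbu (h ▸ (Finset.mem_filter.1
                (Finset.mem_erase.1 hx).2).1), hsub hx⟩
            have := Finset.sum_le_sum_of_subset_of_nonneg this fun x _ _ => hd0 x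
            linarith
          have h7 : c₀ * (ϱ / 4 - R.D b' s) ≤ c₀ * (ϱ / 4 - R.D b s) + c₀ * R.D b c := by
            rw [← mul_add]
            exact mul_le_mul_of_nonneg_left (by linarith) hc₀0.le
          have h8 : c₀ * R.D b c ≤ d b := hH
          rw [hKs, mul_add]; linarith
  obtain ⟨-, b, hb, -, hfin⟩ := hinv n hi' le_rfl
  have hwn : w n = s := hw.last
  have hbE := Finset.mem_filter.1 hb
  rw [hwn] at hbE
  have hso : s ≠ R.o := hwn ▸ hwo n hi' le_rfl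
  have hk : ({s} : Finset V).card ≤ k := by
    rw [Finset.card_singleton]
    exact (Finset.card_pos.2 ⟨_, R.par_mem s hso⟩).trans_le (R.card_S s)
  have hbs : R.Anc b s := (hS.anc hbE.1).2
  have hgs : R.res b (R.D b) s = R.D b s := R.res_eq hbs (R.self_mem_B s) (hresz b)
  have hab : R.Anc a b := R.anc_of_dep_le has hbs (by rw [hda]; exact hbE.2)
  have hDb : R.D b s ≤ R.D a s := R.D_mono hL hao hab (Or.inl hbs)
  have hdb : Dep (R.S b : Set V) (φ (R.dep b)) := (hkept n le_rfl b (hwn ▸ hbE.1) hbE.2).2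
  have hH := harg (hμ.law s).1 (hμ.law s).2 hM hk (Finset.mem_singleton_self s) hW hW1 hΛ hϱ0
    (R.res_lip hL zero_le_one (R.D_lip b) (hresz b))
    (fun z hz => R.res_out (R.not_anc_of_mem_S hz) _) le_rfl
    (by rw [hgs, mul_zero]; exact R.D_nonneg b s) (by rw [hgs]; linarith [mul_pos hΛ0 hϱ0])
    (fun p hp => Or.inl (by rw [Finset.mem_singleton.1 hp, dist_self])) (hTc s)
    (fun p hp => by
      rw [Finset.mem_singleton.1 hp]; exact hμ.anti s s (R.self_mem_B s) s (R.self_mem_B s))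
    (hμ.sig s b hbE.1) (bin_mem s) (hφ (R.dep b)) (dep_mem (by simp)) hdb
    (by rw [dis_self]; positivity)
  rw [hgs] at hH
  have hdn : Dep (R.S s : Set V) (φ n) := hwn ▸ hd n hi' le_rfl
  have h3 : dis (nu T (μ s)) (mem s) (φ n) = dis Q (φ n) (φ (n + 1)) := by
    rw [hs, dis_comm Q]
    exact (hQ1 s _ (far_dep (A := R.B s) (dep_mem (by exact_mod_cast R.self_mem_B s)) hdn
      subset_rfl (R.S_sub_B_self s))).symm
  have h4 := dis_triangle (hnn s) (mem s) (φ n) (φ (R.dep b))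
  have h5 : dis (nu T (μ s)) (φ n) (φ (R.dep b)) ≤ Θ n := by
    simp only [hΘ]
    rw [hwn]
    exact Finset.single_le_sum (f := fun x => dis (nu T (μ s)) (φ n) (φ (R.dep x)))
      (fun x _ => dis_nonneg (hnn s) _ _) hb
  have h6 : tot = K n + dis Q (φ n) (φ (n + 1)) := by
    simp only [htot, hK]; rw [Finset.sum_Ico_succ_top hi']
  have h7 : 0 ≤ K n := Finset.sum_nonneg fun i _ => dis_nonneg hQ _ _
  have h8 : 0 ≤ dis Q (φ n) (φ (n + 1)) := dis_nonneg hQ _ _
  have h9 : c₀ * R.D b s ≤ dis (nu T (μ s)) (mem s) (φ (R.dep b)) := hH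
  rw [mul_sub] at hfin
  rw [h6, add_mul, mul_add, one_mul]
  linarith [mul_nonneg hmE h8]

end Vale.Agent.P235
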