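import Vale.Agent.P235.Basic

/-! Martingale certificates. A leaf is a pair (function, set of active signals). `Ok P o E l D` says
that `D` is the terminal law of a martingale started at `0` at level `l`.
Plan: `nonneg`, `mass`, `mean`, `le`, `supp`, `mono` by induction on `Ok` (use `Ex_add`, `Ex_sum`,
`Ex_smul`, `Ex_mapDomain`; for `le` in a node: `p < 1` so `κ` is nonempty). `supp`: in a leaf
`a.card * δ ≤ γ (J+m) ≤ γ (l+1)` if `a` is nonempty; in a node a point of the support is in the
support of `Z` or is `sh (z c) y` (`Finsupp.support_add`, `support_finset_sum`, `support_smul`,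
`mapDomain_support`), and `(M+1) * γ (l+2) = γ (l+1) / 4`.
`retire`: induction. Leaf with `b ∈ a`: node with `κ = Fin q`, `w = 1/q`, `z j = val j • g`, `Z = 0`,
children the leaf `a.erase b` (`δ ≤ γ (J+m) ≤ M * γ (l+1)` as `l + 1 ≤ J + m`). Leaf with `b ∉ a`:
same leaf. Node: `choose` the new children, and replace `Z` by
`Z.sum fun x t => if b ∈ x.2 then ∑ j, single (x.1 + val j • g, x.2.erase b) (t / q) else single x t`. -/

namespace Vale.Agent.P235

open Finset

/-- A function together with the set of active signals. -/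
abbrev Leaf (V ι : Type) : Type := (V → ℝ) × Finset ι

/-- Shift of a leaf. -/
def sh {V ι : Type} (z : V → ℝ) (x : Leaf V ι) : Leaf V ι := (z + x.1, x.2)

/-- Numerical parameters. -/
structure Prm where
  M : ℝ
  p : ℝ
  δ : ℝ
  J : ℕ
  m : ℕ
  one_le : 1 ≤ M
  p_pos : 0 < p
  pM : p * (M + 1) ≤ 1
  δ_pos : 0 < δ
  mδ : (m + 1) * δ ≤ (1 / (4 * (M + 1))) ^ (J + m)

/-- The scale of level `l`. -/
noncomputable def Prm.γ (P : Prm) (l : ℕ) : ℝ := (1 / (4 * (P.M + 1))) ^ l

theorem Prm.γ_pos (P : Prm) (l : ℕ) : 0 < P.γ l := by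
  have := P.one_le
  unfold Prm.γ; positivity

theorem Prm.γ_succ (P : Prm) (l : ℕ) : (P.M + 1) * P.γ (l + 1) = P.γ l / 4 := by
  have := P.one_le
  unfold Prm.γ; rw [pow_succ]; field_simp

theorem Prm.γ_anti (P : Prm) {l l' : ℕ} (h : l ≤ l') : P.γ l' ≤ P.γ l := by
  have := P.one_le
  unfold Prm.γ
  refine pow_le_pow_of_le_one (by positivity) ?_ h
  rw [div_le_one (by positivity)]; linarith

variable {V ι : Type} [PseudoMetricSpace V] [DecidableEq ι]

/-- The non recursive conditions on a node: weights `w`, steps `z`, frozen part `Z`. -/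
structure Top (P : Prm) (o : V) (E : Finset ι) (l : ℕ) {κ : Type} [Fintype κ] (w : κ → ℝ)
    (z : κ → V → ℝ) (Z : Leaf V ι →₀ ℝ) : Prop where
  hw : ∀ c, 0 ≤ w c
  hz : ∀ c, Lip (P.M * P.γ (l + 1)) (z c) ∧ z c o = 0
  hZ : ∀ x, 0 ≤ Z x
  hZs : ∀ x ∈ Z.support,
    Lip ((P.M + 1) * P.γ (l + 1) - x.2.card * P.δ) x.1 ∧ x.1 o = 0 ∧ x.2 ⊆ E
  hp : (Ex Z fun _ => 1) ≤ P.p
  h1 : (Ex Z fun _ => 1) + ∑ c, w c = 1
  h0 : ∀ v, (Ex Z fun x => x.1 v) + ∑ c, w c * z c v = 0

/-- The law assembled from a node. -/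
noncomputable def asm {κ : Type} [Fintype κ] (w : κ → ℝ) (z : κ → V → ℝ)
    (Dc : κ → Leaf V ι →₀ ℝ) (Z : Leaf V ι →₀ ℝ) : Leaf V ι →₀ ℝ :=
  Z + ∑ c, w c • Finsupp.mapDomain (sh (z c)) (Dc c)

/-- Certified laws. -/
inductive Ok (P : Prm) (o : V) (E : Finset ι) : ℕ → (Leaf V ι →₀ ℝ) → Prop
  | leaf (l : ℕ) (a : Finset ι) (ha : a ⊆ E) (hl : l + a.card ≤ P.J + P.m) :
      Ok P o E l (Finsupp.single (0, a) 1)
  | node (l : ℕ) (κ : Type) [Fintype κ] (w : κ → ℝ) (z : κ → V → ℝ) (Dc : κ → Leaf V ι →₀ ℝ)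
      (Z : Leaf V ι →₀ ℝ) (hT : Top P o E l w z Z) (hD : ∀ c, Ok P o E (l + 1) (Dc c)) :
      Ok P o E l (asm w z Dc Z)

omit [PseudoMetricSpace V] [DecidableEq ι] in
theorem Ex_asm {κ : Type} [Fintype κ] (w : κ → ℝ) (z : κ → V → ℝ)
    (Dc : κ → Leaf V ι →₀ ℝ) (Z : Leaf V ι →₀ ℝ) (Φ : Leaf V ι → ℝ) :
    Ex (asm w z Dc Z) Φ = Ex Z Φ + ∑ c, w c * Ex (Dc c) fun x => Φ (sh (z c) x) := by
  simp only [asm, Ex_add, Ex_sum, Ex_smul, Ex_mapDomain]

variable {P : Prm} {o : V} {E : Finset ι} {l : ℕ} {D : Leaf V ι →₀ ℝ}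

theorem Ok.nonneg (h : Ok P o E l D) (x : Leaf V ι) : 0 ≤ D x := by
  classical
  induction h generalizing x with
  | leaf l a ha hl =>
    rw [Finsupp.single_apply]; split_ifs <;> norm_num
  | node l κ w z Dc Z hT hD ih =>
    simp only [asm, Finsupp.add_apply, Finsupp.finset_sum_apply, Finsupp.smul_apply, smul_eq_mul]
    refine add_nonneg (hT.hZ x) (Finset.sum_nonneg fun c _ => mul_nonneg (hT.hw c) ?_)
    rw [Finsupp.mapDomain, Finsupp.sum_apply, Finsupp.sum]
    refine Finset.sum_nonneg fun y _ => ?_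
    rw [Finsupp.single_apply]
    split_ifs
    · exact ih c y
    · exact le_rfl

theorem Ok.mass (h : Ok P o E l D) : (Ex D fun _ => 1) = 1 := by
  induction h with
  | leaf l a ha hl => simp
  | node l κ w z Dc Z hT hD ih =>
    rw [Ex_asm]
    simp only [ih, mul_one]
    exact hT.h1

theorem Ok.mean (h : Ok P o E l D) (v : V) : (Ex D fun x => x.1 v) = 0 := by
  induction h with
  | leaf l a ha hl => simp
  | node l κ w z Dc Z hT hD ih =>
    rw [Ex_asm]
    have : ∀ c, (Ex (Dc c) fun x => (sh (z c) x).1 v) = z c v := fun c => by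
      simp only [sh, Pi.add_apply]
      rw [Ex_fadd, ih c, Ex_const, (hD c).mass]; ring
    simp only [this]
    exact hT.h0 v

theorem Ok.le (h : Ok P o E l D) : l ≤ P.J + P.m := by
  induction h with
  | leaf l a ha hl => omega
  | node l κ w z Dc Z hT hD ih =>
    by_cases hκ : Nonempty κ
    · obtain ⟨c⟩ := hκ
      have := ih c
      omega
    · exfalso
      haveI : IsEmpty κ := not_nonempty_iff.1 hκ
      have h1 := hT.h1
      have h2 := hT.hp
      have h3 := P.pM
      have h4 := P.one_le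
      have h5 := P.p_pos
      simp only [Finset.univ_eq_empty, Finset.sum_empty, add_zero] at h1
      nlinarith

theorem Ok.supp (h : Ok P o E l D) (hE : E.card ≤ P.m) {x : Leaf V ι} (hx : x ∈ D.support) :
    Lip ((P.M + 1) * P.γ (l + 1) - x.2.card * P.δ) x.1 ∧ x.1 o = 0 ∧ x.2 ⊆ E := by
  classical
  induction h generalizing x with
  | leaf l a ha hl =>
    have hx' : x = (0, a) := Finset.mem_singleton.1 (Finsupp.support_single_subset hx)
    subst hx'
    refine ⟨Lip.zero ?_, rfl, ha⟩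
    have hγ := P.γ_pos (l + 1)
    have hM := P.one_le
    have hδ := P.δ_pos
    by_cases h0 : a.card = 0
    · simp only [h0, Nat.cast_zero, zero_mul, sub_zero]; positivity
    · have h1 : P.γ (P.J + P.m) ≤ P.γ (l + 1) := P.γ_anti (by omega)
      have h2 : (P.m + 1) * P.δ ≤ P.γ (P.J + P.m) := P.mδ
      have h3 : (a.card : ℝ) ≤ P.m := by exact_mod_cast (Finset.card_le_card ha).trans hE
      have h4 : (a.card : ℝ) * P.δ ≤ (P.m + 1) * P.δ :=
        mul_le_mul_of_nonneg_right (by linarith) hδ.le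
      show 0 ≤ (P.M + 1) * P.γ (l + 1) - (a.card : ℝ) * P.δ
      nlinarith
  | node l κ w z Dc Z hT hD ih =>
    rcases Finset.mem_union.1 (Finsupp.support_add hx) with hx | hx
    · exact hT.hZs x hx
    · obtain ⟨c, -, hc⟩ := Finset.mem_biUnion.1 (Finsupp.support_finset_sum hx)
      obtain ⟨y, hy, rfl⟩ := Finset.mem_image.1
        (Finsupp.mapDomain_support (Finsupp.support_smul hc))
      obtain ⟨h1, h2, h3⟩ := ih c hy
      refine ⟨((hT.hz c).1.add h1).mono ?_, ?_, h3⟩
      · rw [P.γ_succ (l + 1)]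
        have hγ := P.γ_pos (l + 1)
        show _ ≤ (P.M + 1) * P.γ (l + 1) - (y.2.card : ℝ) * P.δ
        linarith
      · show z c o + y.1 o = 0
        rw [(hT.hz c).2, h2, add_zero]

omit [DecidableEq ι] in
theorem Top.mono {κ : Type} [Fintype κ] {w : κ → ℝ} {z : κ → V → ℝ} {Z : Leaf V ι →₀ ℝ}
    (h : Top P o E l w z Z) {E' : Finset ι} (hE : E ⊆ E') : Top P o E' l w z Z :=
  ⟨h.hw, h.hz, h.hZ, fun x hx => ⟨(h.hZs x hx).1, (h.hZs x hx).2.1, (h.hZs x hx).2.2.trans hE⟩,
    h.hp, h.h1, h.h0⟩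

theorem Ok.mono (h : Ok P o E l D) {E' : Finset ι} (hE : E ⊆ E') : Ok P o E' l D := by
  induction h with
  | leaf l a ha hl => exact Ok.leaf l a (ha.trans hE) hl
  | node l κ w z Dc Z hT hD ih => exact Ok.node l κ w z Dc Z (hT.mono hE) ih

theorem Ok.retire (h : Ok P o E l D) {q : ℕ} (hq : 0 < q) (val : Fin q → ℝ)
    (hv1 : ∀ j, |val j| ≤ 1) (hv0 : ∑ j, val j = 0) (b : ι) (g : V → ℝ) (hg : Lip P.δ g)
    (hg0 : g o = 0) :
    ∃ D', Ok P o (E.erase b) l D' ∧ ∀ Φ : Leaf V ι → ℝ, Ex D' Φ = Ex D fun x =>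
      if b ∈ x.2 then av fun j => Φ (x.1 + val j • g, x.2.erase b) else Φ x := by
  classical
  have hq' : (q : ℝ) ≠ 0 := by exact_mod_cast hq.ne'
  have hqp : (0 : ℝ) < q := by exact_mod_cast hq
  have hδ := P.δ_pos
  have hvg : ∀ j, Lip P.δ (val j • g) := fun j =>
    (hg.smul (val j)).mono (by have := hv1 j; nlinarith)
  induction h with
  | leaf l a ha hl =>
    by_cases hb : b ∈ a
    · have hc : (a.erase b).card + 1 = a.card := Finset.card_erase_add_one hb
      refine ⟨asm (fun _ : Fin q => 1 / (q : ℝ)) (fun j => val j • g)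
        (fun _ => Finsupp.single (0, a.erase b) 1) 0, Ok.node l (Fin q) _ _ _ _ ?_ fun _ =>
          Ok.leaf (l + 1) _ (Finset.erase_subset_erase b ha) (by omega), fun Φ => ?_⟩
      · refine ⟨fun _ => by positivity, fun j => ⟨(hvg j).mono ?_, by simp [hg0]⟩,
          fun _ => le_rfl, fun x hx => by simp at hx, by simpa using P.p_pos.le, ?_, fun v => ?_⟩
        · have h1 : P.γ (P.J + P.m) ≤ P.γ (l + 1) := P.γ_anti (by omega)
          have h2 : (P.m + 1) * P.δ ≤ P.γ (P.J + P.m) := P.mδ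
          have hγ := P.γ_pos (l + 1)
          have hM := P.one_le
          have h3 : (0 : ℝ) ≤ P.m * P.δ := by positivity
          nlinarith
        · simp only [Ex_zero, Finset.sum_const, Finset.card_univ, Fintype.card_fin, nsmul_eq_mul,
            zero_add]
          field_simp
        · simp only [Ex_zero, zero_add, Pi.smul_apply, smul_eq_mul]
          rw [← Finset.mul_sum, ← Finset.sum_mul, hv0]; simp
      · rw [Ex_asm]
        simp only [Ex_zero, Ex_single, one_mul, zero_add, sh, add_zero, hb, if_true, av]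
        rw [← Finset.mul_sum]; ring
    · refine ⟨_, Ok.leaf l a (fun i hi => Finset.mem_erase.2 ⟨fun e => hb (e ▸ hi), ha hi⟩) hl,
        fun Φ => ?_⟩
      simp [hb]
  | node l κ w z Dc Z hT hD ih =>
    choose Dc' hDc' hEx using ih
    set F : Leaf V ι → ℝ → Leaf V ι →₀ ℝ := fun x t =>
      if b ∈ x.2 then ∑ j, Finsupp.single (x.1 + val j • g, x.2.erase b) (t / q)
      else Finsupp.single x t with hF
    have hZ' : ∀ Φ : Leaf V ι → ℝ, Ex (Z.sum F) Φ = Ex Z fun x =>
        if b ∈ x.2 then av fun j => Φ (x.1 + val j • g, x.2.erase b) else Φ x := fun Φ => by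
      rw [Ex_finsuppSum, Ex_eq_sum]
      refine Finset.sum_congr rfl fun x _ => ?_
      simp only [hF]
      split_ifs
      · rw [Ex_sum]
        simp only [Ex_single, av]
        rw [← Finset.mul_sum]; ring
      · rw [Ex_single]
    have hone : (Ex (Z.sum F) fun _ => 1) = Ex Z fun _ => 1 := by
      rw [hZ']
      refine Ex_congr fun x _ => ?_
      split_ifs
      · simp only [av, Finset.sum_const, Finset.card_univ, Fintype.card_fin, nsmul_eq_mul, mul_one]
        exact div_self hq'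
      · rfl
    refine ⟨asm w z Dc' (Z.sum F), Ok.node l κ w z Dc' _ ?_ hDc', fun Φ => ?_⟩
    · refine ⟨hT.hw, hT.hz, fun y => ?_, fun y hy => ?_, hone ▸ hT.hp, hone ▸ hT.h1, fun v => ?_⟩
      · rw [Finsupp.sum_apply, Finsupp.sum]
        refine Finset.sum_nonneg fun x _ => ?_
        have hx := hT.hZ x
        simp only [hF]
        split_ifs
        · rw [Finsupp.finset_sum_apply]
          refine Finset.sum_nonneg fun j _ => ?_
          rw [Finsupp.single_apply]
          split_ifs
          · positivity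
          · exact le_rfl
        · rw [Finsupp.single_apply]
          split_ifs
          · exact hx
          · exact le_rfl
      · obtain ⟨x, hx, hy⟩ := Finset.mem_biUnion.1 (Finsupp.support_sum hy)
        obtain ⟨h1, h2, h3⟩ := hT.hZs x hx
        simp only [hF] at hy
        split_ifs at hy with hb
        · obtain ⟨j, -, hj⟩ := Finset.mem_biUnion.1 (Finsupp.support_finset_sum hy)
          have hy' := Finset.mem_singleton.1 (Finsupp.support_single_subset hj)
          subst hy'
          refine ⟨(h1.add (hvg j)).mono ?_, by simp [h2, hg0], Finset.erase_subset_erase b h3⟩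
          have hc : ((x.2.erase b).card : ℝ) + 1 = x.2.card := by
            exact_mod_cast Finset.card_erase_add_one hb
          show _ ≤ (P.M + 1) * P.γ (l + 1) - ((x.2.erase b).card : ℝ) * P.δ
          rw [← hc]
          linarith
        · have hy' := Finset.mem_singleton.1 (Finsupp.support_single_subset hy)
          subst hy'
          exact ⟨h1, h2, fun i hi => Finset.mem_erase.2 ⟨fun e => hb (e ▸ hi), h3 hi⟩⟩
      · rw [hZ', ← hT.h0 v]
        congr 1
        refine Ex_congr fun x _ => ?_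
        split_ifs
        · simp only [av, Pi.add_apply, Pi.smul_apply, smul_eq_mul, Finset.sum_add_distrib,
            Finset.sum_const, Finset.card_univ, Fintype.card_fin, nsmul_eq_mul]
          rw [← Finset.sum_mul, hv0]
          field_simp
          ring
        · rfl
    · rw [Ex_asm, Ex_asm, hZ']
      congr 1
      refine Finset.sum_congr rfl fun c _ => ?_
      rw [hEx c]
      congr 1
      refine Ex_congr fun x _ => ?_
      simp only [sh, add_assoc]

end Vale.Agent.P235
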