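import Vale.Agent.P235.Basic

/-! Hellinger gain. Plan: fix `c`, put `a i = √(X i c)`, `P = ∑ w a²`. Jensen (Cauchy-Schwarz):
`∑ w a ≤ √P`. If `c` is bad: `∑ w X y = ∑ w (a² - P) y`, so
`θ P ≤ ∑ w |a - √P| (a + √P) ≤ √(∑ w (a - √P)²) √(∑ w (a + √P)²) ≤ √(2 P - 2 √P ∑ w a) * 2 √P`,
hence `θ² √P / 8 ≤ √P - ∑ w a`. Sum over `c` and use `√(∑ P c) ≤ ∑ √(P c)`.
`sum_sqrt_le`: Cauchy-Schwarz. -/

namespace Vale.Agent.P235

open Finset

theorem hell_one {K : Type} [Fintype K] (w X : K → ℝ) (hw : ∀ i, 0 ≤ w i) (hw1 : ∑ i, w i = 1)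
    (hX : ∀ i, 0 ≤ X i) {θ : ℝ} (hθ : 0 ≤ θ) (y : K → ℝ) (hy : ∀ i, |y i| ≤ 1)
    (hy0 : ∑ i, w i * y i = 0) (h : θ * ∑ i, w i * X i ≤ |∑ i, w i * (X i * y i)|) :
    ∑ i, w i * √(X i) + θ ^ 2 / 8 * √(∑ i, w i * X i) ≤ √(∑ i, w i * X i) := by
  set s := √(∑ i, w i * X i)
  set m := ∑ i, w i * √(X i) with hm
  have hs0 : 0 ≤ s := Real.sqrt_nonneg _
  have hs : ∑ i, w i * X i = s ^ 2 :=
    (Real.sq_sqrt (sum_nonneg fun i _ => mul_nonneg (hw i) (hX i))).symm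
  have hq : ∀ t, ∑ i, w i * (√(X i) + t) ^ 2 = s ^ 2 + 2 * t * m + t ^ 2 := fun t => by
    have : ∀ i, w i * (√(X i) + t) ^ 2 = w i * X i + 2 * t * (w i * √(X i)) + t ^ 2 * w i :=
      fun i => by rw [add_sq, Real.sq_sqrt (hX i)]; ring
    simp only [this, sum_add_distrib, ← mul_sum, hw1, hs, mul_one, hm]
  have hms : m ≤ s := by
    have h1 : 0 ≤ s ^ 2 + 2 * -m * m + (-m) ^ 2 :=
      hq (-m) ▸ sum_nonneg fun i _ => mul_nonneg (hw i) (sq_nonneg _)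
    exact abs_le_of_sq_le_sq' (by nlinarith) hs0 |>.2
  rcases hs0.eq_or_lt with h0 | h0
  · rw [← h0] at hms ⊢
    simpa using hms
  have h1 : ∑ i, w i * (X i * y i) = ∑ i, w i * ((X i - s ^ 2) * y i) := by
    have : ∀ i, w i * ((X i - s ^ 2) * y i) = w i * (X i * y i) - s ^ 2 * (w i * y i) :=
      fun i => by ring
    simp only [this, sum_sub_distrib, ← mul_sum, hy0, mul_zero, sub_zero]
  have h2 : θ / 4 * |∑ i, w i * ((X i - s ^ 2) * y i)| ≤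
      ∑ i, (w i * (√(X i) + -s) ^ 2 / 2 + (θ / 4) ^ 2 / 2 * (w i * (√(X i) + s) ^ 2)) := by
    refine (mul_le_mul_of_nonneg_left (abs_sum_le_sum_abs _ _) (by positivity)).trans ?_
    rw [mul_sum]
    refine sum_le_sum fun i _ => ?_
    have h3 : |X i - s ^ 2| = |√(X i) + -s| * (√(X i) + s) := by
      rw [← abs_of_nonneg (a := √(X i) + s) (by positivity), ← abs_mul]
      congr 1
      nlinarith [Real.sq_sqrt (hX i)]
    have h4 : |(X i - s ^ 2) * y i| ≤ |√(X i) + -s| * (√(X i) + s) := by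
      rw [abs_mul, h3]
      exact mul_le_of_le_one_right (by positivity) (hy i)
    have h5 : θ / 4 * |(X i - s ^ 2) * y i| ≤
        (√(X i) + -s) ^ 2 / 2 + (θ / 4) ^ 2 / 2 * (√(X i) + s) ^ 2 := by
      refine (mul_le_mul_of_nonneg_left h4 (by positivity)).trans ?_
      nlinarith [sq_nonneg (|√(X i) + -s| - θ / 4 * (√(X i) + s)), sq_abs (√(X i) + -s)]
    rw [abs_mul, abs_of_nonneg (hw i)]
    nlinarith [mul_le_mul_of_nonneg_left h5 (hw i)]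
  rw [sum_add_distrib, ← sum_div, ← mul_sum, hq, hq, ← h1] at h2
  rw [hs] at h
  have h3 := mul_le_mul_of_nonneg_left h (by positivity : 0 ≤ θ / 4)
  have h4 := mul_le_mul_of_nonneg_left hms (by positivity : 0 ≤ θ ^ 2 * s)
  refine le_of_mul_le_mul_left ?_ h0
  nlinarith

theorem sqrt_sum_le {C : Type} (s : Finset C) (P : C → ℝ) (hP : ∀ c, 0 ≤ P c) :
    √(∑ c ∈ s, P c) ≤ ∑ c ∈ s, √(P c) := by
  rw [Real.sqrt_le_left (sum_nonneg fun c _ => Real.sqrt_nonneg _), sq, sum_mul]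
  refine sum_le_sum fun c hc => (Real.mul_self_sqrt (hP c)).symm.trans_le ?_
  exact mul_le_mul_of_nonneg_left (single_le_sum (f := fun c => √(P c))
    (fun c _ => Real.sqrt_nonneg _) hc) (Real.sqrt_nonneg _)

theorem hell {K C : Type} [Fintype K] [Fintype C] (w : K → ℝ) (X : K → C → ℝ)
    (hw : ∀ i, 0 ≤ w i) (hw1 : ∑ i, w i = 1) (hX : ∀ i c, 0 ≤ X i c) (Bad : Finset C) (θ : ℝ)
    (hθ : 0 ≤ θ)
    (hB : ∀ c ∈ Bad, ∃ y : K → ℝ, (∀ i, |y i| ≤ 1) ∧ ∑ i, w i * y i = 0 ∧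
      θ * ∑ i, w i * X i c ≤ |∑ i, w i * (X i c * y i)|) :
    ∑ i, w i * ∑ c, √(X i c) + θ ^ 2 / 8 * √(∑ c ∈ Bad, ∑ i, w i * X i c) ≤
      ∑ c, √(∑ i, w i * X i c) := by
  classical
  have h1 := sqrt_sum_le Bad (fun c => ∑ i, w i * X i c)
    fun c => sum_nonneg fun i _ => mul_nonneg (hw i) (hX i c)
  have h2 : ∀ c, ∑ i, w i * √(X i c) +
      (if c ∈ Bad then θ ^ 2 / 8 * √(∑ i, w i * X i c) else 0) ≤ √(∑ i, w i * X i c) := fun c => by
    split_ifs with h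
    · obtain ⟨y, h3, h4, h5⟩ := hB c h
      exact hell_one w (X · c) hw hw1 (hX · c) hθ y h3 h4 h5
    · simpa using hell_one w (X · c) hw hw1 (hX · c) le_rfl 0 (by simp) (by simp) (by simp)
  refine le_trans ?_ (sum_le_sum fun c _ => h2 c)
  rw [sum_add_distrib, sum_ite_mem, univ_inter, ← mul_sum]
  refine add_le_add (le_of_eq ?_) (mul_le_mul_of_nonneg_left h1 (by positivity))
  simp only [mul_sum univ]
  exact sum_comm

theorem sum_sqrt_le {C : Type} [Fintype C] (P : C → ℝ) (hP : ∀ c, 0 ≤ P c) (h1 : ∑ c, P c = 1)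
    {N : ℕ} (hN : Fintype.card C ≤ N) : ∑ c, √(P c) ≤ √N := by
  refine Real.le_sqrt_of_sq_le ((sq_sum_le_card_mul_sum_sq).trans ?_)
  simp only [Real.sq_sqrt (hP _), h1, mul_one, card_univ]
  exact_mod_cast hN

end Vale.Agent.P235
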