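import Vale.Agent.P235.Coll
import Vale.Agent.P235.Hell

/-! The potential gain at a node with many bad chambers. Plan: apply `hell` with
`K = κ ⊕ Z.support`, weights `w c` and `Z x`, `X (inl c) c' = Pc (Dc c) (ch ∘ sh (z c)) c'`,
`X (inr x) c' = ind (ch x = c')`, so `∑ w X c' = Pc D ch c'` (`Ex_asm`), `θ = 1 / (4 (M+1))`.
For a bad `c'` with witnesses `x, y` (then `0 < dist x y`, otherwise all functions of the support
agree at `x, y`), `s = (M+1) γ (l+1) dist x y`, take `(z c x - z c y) / s` and `(a.1 x - a.1 y) / s`;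
mean zero by `h0`; the children contribute at most `γ (l+1) / 4 * dist x y * Pc D ch c'` by
`Ok.supp` and `γ_succ`. Finally drop the nonnegative terms `inr` and use
`∑ c' bad, Pc D ch c' = Ex D (ind (Bad (ch x))) > p`. -/

namespace Vale.Agent.P235

open Finset

variable {V ι C : Type}

theorem gain [PseudoMetricSpace V] [DecidableEq ι] [Fintype C] {P : Prm} {o : V}
    {E : Finset ι} {l : ℕ} {κ : Type} [Fintype κ] {w : κ → ℝ} {z : κ → V → ℝ}
    {Dc : κ → Leaf V ι →₀ ℝ} {Z : Leaf V ι →₀ ℝ} (hT : Top P o E l w z Z)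
    (hD : ∀ c, Ok P o E (l + 1) (Dc c)) (hm : E.card ≤ P.m) (ch : Leaf V ι → C) (T : Finset V)
    (hB : P.p < Ex (asm w z Dc Z) fun x =>
      ind (Bad (asm w z Dc Z) ch T (P.γ (l + 1) / 2) (ch x))) :
    ∑ c, w c * Psi (Dc c) (fun x => ch (sh (z c) x)) + √P.p / (128 * (P.M + 1) ^ 2) ≤
      Psi (asm w z Dc Z) ch := by
  classical
  set D := asm w z Dc Z with hDd
  have hM := P.one_le
  have hγ := P.γ_pos (l + 1)
  let W : κ ⊕ Z.support → ℝ := Sum.elim w fun x => Z x
  let X : κ ⊕ Z.support → C → ℝ :=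
    Sum.elim (fun c => Pc (Dc c) fun x => ch (sh (z c) x)) fun x c => ind (ch x = c)
  have hZ : ∀ Φ, Ex Z Φ = ∑ x : Z.support, Z x * Φ x := fun Φ =>
    (sum_coe_sort Z.support fun x => Z x * Φ x).symm
  have hW : ∀ i, 0 ≤ W i := by
    rintro (c | x)
    exacts [hT.hw c, hT.hZ x]
  have hX : ∀ i c, 0 ≤ X i c := by
    rintro (c | x) c'
    exacts [Ex_nonneg (hD c).nonneg fun _ _ => ind_nonneg _, ind_nonneg _]
  have hP : ∀ c, ∑ i, W i * X i c = Pc D ch c := fun c => by
    rw [Pc, hDd, Ex_asm, hZ, Fintype.sum_sum_type, add_comm]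
    rfl
  have key := hell W X hW (by
      rw [← hT.h1, hZ, Fintype.sum_sum_type, add_comm]
      simp [W]) hX (univ.filter (Bad D ch T (P.γ (l + 1) / 2))) (1 / (4 * (P.M + 1)))
    (by positivity) fun c hc => by
      obtain ⟨x, -, y, -, h⟩ := (mem_filter.1 hc).2
      let u : κ ⊕ Z.support → ℝ := Sum.elim (fun c => z c x - z c y) fun a => a.1.1 x - a.1.1 y
      have hd := dist_nonneg (x := x) (y := y)
      have hu : ∀ i, |u i| ≤ (P.M + 1) * P.γ (l + 1) * dist x y := by
        rintro (c | a)
        · exact ((hT.hz c).1.mono (by nlinarith)) x y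
        · exact ((hT.hZs a a.2).1.mono (sub_le_self _ (by have := P.δ_pos; positivity))) x y
      have hu0 : ∑ i, W i * u i = 0 := by
        have h1 := hT.h0 x
        have h2 := hT.h0 y
        rw [hZ] at h1 h2
        simp only [Fintype.sum_sum_type, W, u, Sum.elim_inl, Sum.elim_inr, mul_sub, sum_sub_distrib]
        linarith
      have h1 : (Ex D fun a => ind (ch a = c) * (a.1 x - a.1 y)) = ∑ i, W i * (X i c * u i) +
          ∑ k, w k * Ex (Dc k) fun a => ind (ch (sh (z k) a) = c) * (a.1 x - a.1 y) := by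
        rw [hDd, Ex_asm, hZ, Fintype.sum_sum_type, add_comm (∑ _ : κ, _), add_assoc,
          ← sum_add_distrib]
        refine congrArg₂ _ rfl (sum_congr rfl fun k _ => ?_)
        simp only [W, X, u, Sum.elim_inl, Pc]
        rw [← mul_add, mul_comm (Ex _ _), ← Ex_fmul _ (z k x - z k y), ← Ex_fadd]
        refine congrArg _ (Ex_congr fun a _ => ?_)
        simp only [sh, Pi.add_apply]
        ring
      have h2 : |∑ k, w k * Ex (Dc k) fun a => ind (ch (sh (z k) a) = c) * (a.1 x - a.1 y)| ≤
          P.γ (l + 1) / 4 * dist x y * Pc D ch c := by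
        refine (abs_sum_le_sum_abs _ _).trans (le_trans (b := ∑ k, P.γ (l + 1) / 4 * dist x y *
          (W (.inl k) * X (.inl k) c)) (sum_le_sum fun k _ => ?_) ?_)
        · rw [abs_mul, abs_of_nonneg (hT.hw k), mul_left_comm]
          refine mul_le_mul_of_nonneg_left ?_ (hT.hw k)
          simp only [X, Sum.elim_inl, Pc]
          rw [← Ex_fmul]
          refine abs_Ex_le (hD k).nonneg fun a ha => ?_
          rw [abs_mul, abs_of_nonneg (ind_nonneg _), mul_comm, ← P.γ_succ]
          exact mul_le_mul_of_nonneg_right ((((hD k).supp hm ha).1.mono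
            (sub_le_self _ (by have := P.δ_pos; positivity))) x y) (ind_nonneg _)
        · rw [← mul_sum, ← hP, Fintype.sum_sum_type]
          exact mul_le_mul_of_nonneg_left (le_add_of_nonneg_right (sum_nonneg fun a _ =>
            mul_nonneg (hW _) (hX _ _))) (by positivity)
      have h3 : P.γ (l + 1) / 4 * dist x y * Pc D ch c < |∑ i, W i * (X i c * u i)| := by
        have := (h.trans_eq (congrArg _ h1)).trans_le (abs_add_le _ _)
        linarith
      rcases hd.eq_or_lt with h0 | h0
      · have h4 : ∀ i, u i = 0 := fun i => abs_nonpos_iff.1 (by simpa [← h0] using hu i)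
        simp [← h0, h4] at h3
      have hs : 0 < (P.M + 1) * P.γ (l + 1) * dist x y := by positivity
      refine ⟨fun i => u i / ((P.M + 1) * P.γ (l + 1) * dist x y), fun i => ?_, ?_, ?_⟩
      · rw [abs_div, abs_of_pos hs, div_le_one hs]
        exact hu i
      · simp only [← mul_div_assoc, ← sum_div, hu0, zero_div]
      · simp only [← mul_div_assoc, ← sum_div, hP]
        rw [abs_div, abs_of_pos hs, le_div_iff₀ hs]
        refine le_trans (le_of_eq ?_) h3.le
        field_simp
  simp only [hP] at key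
  refine le_trans (add_le_add ?_ ?_) key
  · rw [Fintype.sum_sum_type]
    exact le_add_of_nonneg_right (sum_nonneg fun a _ => mul_nonneg (hW _)
      (sum_nonneg fun _ _ => Real.sqrt_nonneg _))
  · have h1 : P.p ≤ ∑ c ∈ univ.filter (Bad D ch T (P.γ (l + 1) / 2)), Pc D ch c := by
      refine hB.le.trans_eq ?_
      simp only [Pc]
      rw [← Ex_fsum]
      refine Ex_congr fun a _ => ?_
      simp [ind]
    refine le_trans (le_of_eq ?_) (mul_le_mul_of_nonneg_left (Real.sqrt_le_sqrt h1)
      (by positivity))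
    field_simp
    ring

end Vale.Agent.P235
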