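import Vale.Agent.P235.Dist

/-! The graph distance as a pseudo-metric. Plan: walks exist by connectivity, lengths are
nonnegative (`Walk.edges_subset_edgeSet`), so `ciInf_le` and `le_ciInf` apply; symmetry by
`Walk.reverse`, triangle inequality by `Walk.append`. `Loc`: by induction on a walk `p`,
`ρ x y ≤ (p.edges.map len).sum`, using `gdist a b ≤ len s(a, b)` for an edge. -/

namespace Vale.Agent.P235

section
variable {V : Type} {G : SimpleGraph V} {len : Sym2 V → ℝ}

theorem metr_len_nonneg (hlen : ∀ e ∈ G.edgeSet, 0 < len e) {x y : V} (p : G.Walk x y) :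
    0 ≤ (p.edges.map len).sum := by
  refine List.sum_nonneg fun a ha => ?_
  obtain ⟨e, he, rfl⟩ := List.mem_map.1 ha
  exact (hlen e (p.edges_subset_edgeSet he)).le

theorem metr_le (hlen : ∀ e ∈ G.edgeSet, 0 < len e) {x y : V} (p : G.Walk x y) :
    gdist G len x y ≤ (p.edges.map len).sum :=
  ciInf_le ⟨0, by rintro _ ⟨p, rfl⟩; exact metr_len_nonneg hlen p⟩ p

theorem metr_ge (hG : G.Connected) {x y : V} {c : ℝ}
    (h : ∀ p : G.Walk x y, c ≤ (p.edges.map len).sum) : c ≤ gdist G len x y :=
  haveI : Nonempty (G.Walk x y) := hG.preconnected x y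
  le_ciInf h

theorem metr_comm_le (hG : G.Connected) (hlen : ∀ e ∈ G.edgeSet, 0 < len e) (x y : V) :
    gdist G len x y ≤ gdist G len y x :=
  metr_ge hG fun p => by simpa [List.map_reverse] using metr_le hlen p.reverse

theorem metr_tri (hG : G.Connected) (hlen : ∀ e ∈ G.edgeSet, 0 < len e) (x y z : V) :
    gdist G len x z ≤ gdist G len x y + gdist G len y z := by
  rw [← sub_le_iff_le_add]
  refine metr_ge hG fun p => ?_
  rw [sub_le_comm]
  refine metr_ge hG fun p' => ?_
  have := metr_le hlen (p.append p')
  rw [SimpleGraph.Walk.edges_append, List.map_append, List.sum_append] at this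
  linarith

end

theorem exists_metric {V : Type} [DecidableEq V] (G : SimpleGraph V) (hG : G.Connected)
    (len : Sym2 V → ℝ) (hlen : ∀ e ∈ G.edgeSet, 0 < len e) {k : ℕ} (R : RT V k)
    (hR : ∀ x y, G.Adj x y → x ∈ R.S y ∨ y ∈ R.S x) :
    ∃ inst : PseudoMetricSpace V, (∀ x y, @dist V inst.toDist x y = gdist G len x y) ∧
      @RT.Loc V _ inst k R := by
  let inst : PseudoMetricSpace V :=
    { dist := gdist G len
      dist_self := fun x => le_antisymm (by simpa using metr_le hlen (SimpleGraph.Walk.nil : G.Walk x x))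
        (metr_ge hG (metr_len_nonneg hlen))
      dist_comm := fun x y => le_antisymm (metr_comm_le hG hlen x y) (metr_comm_le hG hlen y x)
      dist_triangle := metr_tri hG hlen }
  refine ⟨inst, fun _ _ => rfl, fun ρ h0 h1 h2 x y => metr_ge hG fun p => ?_⟩
  induction p with
  | nil => simpa using h0 _
  | @cons a b c hab p ih =>
    have h3 : gdist G len a b ≤ len s(a, b) := by
      simpa using metr_le hlen (SimpleGraph.Walk.cons hab SimpleGraph.Walk.nil)
    have h4 : ρ a b ≤ gdist G len a b := h2 a b (hR a b hab)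
    have h5 := h1 a b c
    rw [SimpleGraph.Walk.edges_cons, List.map_cons, List.sum_cons]
    linarith

end Vale.Agent.P235
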