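import Vale.Agent.P235.Sched

/-! Two points of a bag are separated by a signal of a kept ancestor. Put `r = dist x y`.
`no_jump`: induction on `v` (`RT.ind`). Let `c = insert v (E (par v))`.
If some `b' ∈ c` has depth strictly between `b₁` and `b₂` (drop case): `b₂ ≠ o`, `Anc b₂ v`, take
`p, q ∈ S v` from `D_via` for `x`, `y` (`anc_or_mem`), so `dist x p + D b₂ p < r/40`,
`dist y q < r/40`, `t = dist p q / 25 ∈ [0.038 r, 0.042 r]` is a threshold at `v`. If `t ≤ D b' p`,
`young` gives a kept point deeper than `b₁`, hence at least as deep as `b₂`, and `D_mono` gives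
`t ≤ D b₂ p`, absurd. Otherwise `older` gives a kept point not as deep as `b₂`, hence at most as deep
as `b₁`, so `D b₁ p < t` and `D b₁ x < 0.067 r`, absurd. (For `D_mono` use `anc_of_dep_le`, and
`anc_or_mem` with `p ∈ S v ⊆ B v`.) If there is no such `b'`: either `b₂ ≠ v`, then
`b₁, b₂ ∈ E (par v)` and the induction hypothesis applies; or `b₂ = v`, then `par v = b₁`
(`par v ∈ E (par v)` by `self`, as `par v ≠ o`), the points `p, q ∈ S v` nearest to `x, y` are not in
`S b₁`, so both equal `b₁` by `S_sub`, absurd. `pair`: `u ≠ o`; with `M b = max (D b x) (D b y)`,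
suppose no kept `b` has `r/40 ≤ |D b x - D b y|`. The depth one point has `M ≥ r/2`
(`S_of_dep_one`), `M u < r/40`. Let `b₁` be the deepest kept point with `r/10 ≤ M`, `b₂` the next kept
point. If `M b₂ < r/40` then `no_jump` is contradicted. Else `M b₂ ∈ [r/40, r/10)`, say attained at
`x`; with `p, q ∈ S b₂` nearest to `x, y`: `g b₂ p q x ≥ r/40` and `g b₂ p q y = 0`. -/

namespace Vale.Agent.P235

open Finset

variable {V : Type} [DecidableEq V] [PseudoMetricSpace V] {k : ℕ}
  {R : RT V k} {θ : V → Finset ℝ} {mE : ℕ} {E : V → Finset V}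

theorem no_jump (hL : R.Loc) (hS : Sch R θ mE E)
    (hθ : ∀ u, ∀ p ∈ R.S u, ∀ q ∈ R.S u, dist p q / 25 ∈ θ u) {u x y : V} (hx : x ∈ R.B u)
    (hy : y ∈ R.B u) (v : V) : R.Anc v u → ∀ b₁ ∈ E v, ∀ b₂ ∈ E v, R.dep b₁ < R.dep b₂ →
      (∀ b ∈ E v, R.dep b ≤ R.dep b₁ ∨ R.dep b₂ ≤ R.dep b) →
      3 * dist x y / 40 ≤ R.D b₁ x → 3 * dist x y / 40 ≤ R.D b₁ y →
      R.D b₂ x < dist x y / 40 → R.D b₂ y < dist x y / 40 → False := by
  refine R.ind (fun v => R.Anc v u → ∀ b₁ ∈ E v, ∀ b₂ ∈ E v, R.dep b₁ < R.dep b₂ →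
      (∀ b ∈ E v, R.dep b ≤ R.dep b₁ ∨ R.dep b₂ ≤ R.dep b) →
      3 * dist x y / 40 ≤ R.D b₁ x → 3 * dist x y / 40 ≤ R.D b₁ y →
      R.D b₂ x < dist x y / 40 → R.D b₂ y < dist x y / 40 → False) ?_ ?_ v
  · intro _ b₁ hb₁
    rw [hS.root] at hb₁
    exact absurd hb₁ (Finset.notMem_empty _)
  · intro v hv ih hvu b₁ hb₁ b₂ hb₂ hlt hcons h1x h1y h2x h2y
    obtain ⟨hb₁o, hb₁v⟩ := hS.anc hb₁
    obtain ⟨hb₂o, hb₂v⟩ := hS.anc hb₂
    have hr : 0 < dist x y := by
      have := R.D_nonneg b₂ x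
      linarith
    by_cases hdrop : ∃ b' ∈ insert v (E (R.par v)), R.dep b₁ < R.dep b' ∧ R.dep b' < R.dep b₂
    · obtain ⟨b', hb', hl, hu'⟩ := hdrop
      obtain ⟨p, hp, hxp⟩ := R.D_via hL hb₂o hb₂v (R.anc_or_mem hvu hx)
      obtain ⟨q, hq, hyq⟩ := R.D_via hL hb₂o hb₂v (R.anc_or_mem hvu hy)
      have hp0 := R.D_nonneg b₂ p
      have hq0 := R.D_nonneg b₂ q
      have hxp0 : 0 ≤ dist x p := dist_nonneg
      have t1 := dist_triangle4 x p q y
      have t2 := dist_triangle4 p x y q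
      rw [dist_comm q y] at t1
      rw [dist_comm p x] at t2
      have hpB : p ∈ R.B v := R.S_sub_B_self v hp
      by_cases ht : dist p q / 25 ≤ R.D b' p
      · obtain ⟨b₃, hb₃, hd, ht₃⟩ := hS.young v hv p hp _ (hθ v p hp q hq) b' hb' ht
        have hb₃v := (hS.anc hb₃).2
        have hd' : R.dep b₂ ≤ R.dep b₃ := by
          rcases hcons b₃ hb₃ with h | h
          · omega
          · exact h
        have hm := R.D_mono hL hb₂o (R.anc_of_dep_le hb₂v hb₃v hd') (R.anc_or_mem hb₃v hpB)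
        linarith
      · obtain ⟨b₃, hb₃, hd, ht₃⟩ :=
          hS.older v hv p hp _ (hθ v p hp q hq) b' hb' (not_le.1 ht)
        obtain ⟨hb₃o, hb₃v⟩ := hS.anc hb₃
        have hd' : R.dep b₃ ≤ R.dep b₁ := by
          rcases hcons b₃ hb₃ with h | h
          · exact h
          · omega
        have hm := R.D_mono hL hb₃o (R.anc_of_dep_le hb₃v hb₁v hd') (R.anc_or_mem hb₁v hpB)
        have ha := R.D_le_add b₁ x p
        linarith
    · have hno : ∀ b' ∈ insert v (E (R.par v)), R.dep b' ≤ R.dep b₁ ∨ R.dep b₂ ≤ R.dep b' := by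
        intro b' hb'
        by_contra hc
        exact hdrop ⟨b', hb', by omega, by omega⟩
      have hd₂ := R.anc_dep_le hb₂v
      have hb₁p : b₁ ∈ E (R.par v) := by
        rcases Finset.mem_insert.1 (hS.sub v hv hb₁) with h | h
        · rw [h] at hlt
          omega
        · exact h
      rcases Finset.mem_insert.1 (hS.sub v hv hb₂) with h | h
      · have hpo : R.par v ≠ R.o := by
          intro h0
          rw [h0, hS.root] at hb₁p
          exact absurd hb₁p (Finset.notMem_empty _)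
        have hdv := R.dep_par v hv
        have he : b₁ = R.par v := by
          refine R.anc_eq_of_dep (hS.anc hb₁p).2 ?_
          rcases hno (R.par v) (Finset.mem_insert_of_mem (hS.self _ hpo)) with h' | h'
          · exact h'
          · rw [h] at h'
            omega
        obtain ⟨p, hp, hxp⟩ := R.D_near hv x
        obtain ⟨q, hq, hyq⟩ := R.D_near hv y
        rw [h] at h2x h2y
        have hpe : p = R.par v := by
          rcases Finset.mem_insert.1 (R.S_sub v hv hp) with h' | h'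
          · exact h'
          · have := R.D_le h' x
            rw [← he] at this
            linarith
        have hqe : q = R.par v := by
          rcases Finset.mem_insert.1 (R.S_sub v hv hq) with h' | h'
          · exact h'
          · have := R.D_le h' y
            rw [← he] at this
            linarith
        have t1 := dist_triangle_right x y (R.par v)
        rw [hpe] at hxp
        rw [hqe] at hyq
        linarith
      · exact ih (R.anc_trans (R.anc_par hv) hvu) b₁ hb₁p b₂ h hlt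
          (fun b hb => hno b (Finset.mem_insert_of_mem hb)) h1x h1y h2x h2y

theorem g_sep {b x y p q : V} (hp : R.D b x = dist x p) (hq : R.D b y = dist y q)
    (h1 : dist x y / 40 ≤ R.D b x) (h2 : R.D b x < dist x y / 10)
    (h3 : R.D b y < dist x y / 10) : dist x y / 40 ≤ R.g b p q x - R.g b p q y := by
  have t1 := dist_triangle4 x p q y
  have t2 := dist_triangle4 p x y q
  have t3 := dist_triangle_right x y p
  rw [dist_comm q y] at t1
  rw [dist_comm p x] at t2
  have hr : 0 ≤ dist x y := dist_nonneg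
  have e1 : R.g b p q y = 0 := by
    unfold RT.g
    rw [max_eq_left (by linarith)]
    exact min_eq_right (R.D_nonneg b y)
  have e2 : dist x y / 40 ≤ R.g b p q x := by
    unfold RT.g
    exact le_min h1 (le_max_of_le_right (by linarith))
  linarith

theorem pair (hL : R.Loc) (hS : Sch R θ mE E)
    (hθ : ∀ u, ∀ p ∈ R.S u, ∀ q ∈ R.S u, dist p q / 25 ∈ θ u) {u x y : V} (hx : x ∈ R.B u)
    (hy : y ∈ R.B u) (hxy : 0 < dist x y) :
    ∃ b ∈ E u, dist x y / 40 ≤ |R.D b x - R.D b y| ∨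
      ∃ p ∈ R.S b, ∃ q ∈ R.S b, dist x y / 40 ≤ |R.g b p q x - R.g b p q y| := by
  classical
  have hne : x ≠ y := by
    intro h
    rw [h, dist_self] at hxy
    exact lt_irrefl _ hxy
  have hu : u ≠ R.o := by
    intro h
    rw [h, R.B_o, Finset.mem_singleton] at hx hy
    exact hne (hx.trans hy.symm)
  by_contra hcon
  have hD : ∀ b ∈ E u, |R.D b x - R.D b y| < dist x y / 40 := fun b hb => by
    by_contra h
    exact hcon ⟨b, hb, Or.inl (not_lt.1 h)⟩
  have hg : ∀ b ∈ E u, ∀ p ∈ R.S b, ∀ q ∈ R.S b,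
      |R.g b p q x - R.g b p q y| < dist x y / 40 := fun b hb p hp q hq => by
    by_contra h
    exact hcon ⟨b, hb, Or.inr ⟨p, hp, q, hq, not_lt.1 h⟩⟩
  have huE := hS.self u hu
  have hMu : R.D u x < dist x y / 40 ∧ R.D u y < dist x y / 40 := by
    have h1 := abs_lt.1 (hD u huE)
    rcases Finset.mem_insert.1 hx with h | h
    · rcases Finset.mem_insert.1 hy with h' | h'
      · exact absurd (h.trans h'.symm) hne
      · have := R.D_zero h'
        constructor <;> linarith [h1.1, h1.2]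
    · have := R.D_zero h
      constructor <;> linarith [h1.1, h1.2]
  obtain ⟨b₀, hb₀, hd₀⟩ := hS.old hu
  have hM₀ : dist x y / 10 ≤ max (R.D b₀ x) (R.D b₀ y) := by
    obtain ⟨p, hp, hxp⟩ := R.D_near (hS.anc hb₀).1 x
    obtain ⟨q, hq, hyq⟩ := R.D_near (hS.anc hb₀).1 y
    rw [R.S_of_dep_one hd₀, Finset.mem_singleton] at hp hq
    rw [hp] at hxp
    rw [hq] at hyq
    have t1 := dist_triangle_right x y R.o
    have m1 := le_max_left (R.D b₀ x) (R.D b₀ y)
    have m2 := le_max_right (R.D b₀ x) (R.D b₀ y)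
    linarith
  obtain ⟨b₁, hb₁, hmax⟩ := Finset.exists_max_image
    ((E u).filter fun b => dist x y / 10 ≤ max (R.D b x) (R.D b y)) R.dep
    ⟨b₀, Finset.mem_filter.2 ⟨hb₀, hM₀⟩⟩
  obtain ⟨hb₁E, hM₁⟩ := Finset.mem_filter.1 hb₁
  have hlt : R.dep b₁ < R.dep u := by
    by_contra h
    have he := R.anc_eq_of_dep (hS.anc hb₁E).2 (not_lt.1 h)
    rw [he] at hM₁
    have := max_lt hMu.1 hMu.2
    linarith
  obtain ⟨b₂, hb₂, hmin⟩ := Finset.exists_min_image
    ((E u).filter fun b => R.dep b₁ < R.dep b) R.dep ⟨u, Finset.mem_filter.2 ⟨huE, hlt⟩⟩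
  obtain ⟨hb₂E, hlt₂⟩ := Finset.mem_filter.1 hb₂
  have hM₂ : max (R.D b₂ x) (R.D b₂ y) < dist x y / 10 := by
    by_contra h
    have := hmax b₂ (Finset.mem_filter.2 ⟨hb₂E, not_lt.1 h⟩)
    omega
  have hx₂ := (max_lt_iff.1 hM₂).1
  have hy₂ := (max_lt_iff.1 hM₂).2
  have h1 := abs_lt.1 (hD b₁ hb₁E)
  have h1xy : 3 * dist x y / 40 ≤ R.D b₁ x ∧ 3 * dist x y / 40 ≤ R.D b₁ y := by
    rcases le_max_iff.1 hM₁ with h | h <;> constructor <;> linarith [h1.1, h1.2]
  obtain ⟨p, hp, hxp⟩ := R.D_near (hS.anc hb₂E).1 x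
  obtain ⟨q, hq, hyq⟩ := R.D_near (hS.anc hb₂E).1 y
  by_cases hxs : R.D b₂ x < dist x y / 40
  · by_cases hys : R.D b₂ y < dist x y / 40
    · refine no_jump hL hS hθ hx hy u (R.anc_refl u) b₁ hb₁E b₂ hb₂E hlt₂ ?_ h1xy.1 h1xy.2 hxs hys
      intro b hb
      by_cases h : R.dep b₁ < R.dep b
      · exact Or.inr (hmin b (Finset.mem_filter.2 ⟨hb, h⟩))
      · exact Or.inl (not_lt.1 h)
    · have h2 := g_sep (R := R) hyq hxp (by rw [dist_comm y x]; exact not_lt.1 hys)
        (by rw [dist_comm y x]; exact hy₂) (by rw [dist_comm y x]; exact hx₂)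
      rw [dist_comm y x] at h2
      have h3 := (abs_lt.1 (hg b₂ hb₂E q hq p hp)).1
      linarith
  · have h2 := g_sep (R := R) hxp hyq (not_lt.1 hxs) hx₂ hy₂
    have h3 := (abs_lt.1 (hg b₂ hb₂E p hp q hq)).2
    linarith

end Vale.Agent.P235
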