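import Vale.Agent.P235.Dist

/-! The schedule of kept ancestors. Plan: `RT.exists_rec` on `Finset V` with
`Inv u E = (u = o → E = ∅) ∧ card bound` and `Rel u E E'` the remaining fields. In the step, with
`c = insert u E`, keep `u`, a point of `c` of least depth, and for each `(z, t) ∈ S u ×ˢ θ u` a point
of greatest depth of `c.filter (t ≤ D · z)` and a point of least depth of `c.filter (D · z < t)` when
these are nonempty (`Finset.exists_max_image`; use `u` as a default value, take images).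
`Sch.anc`, `Sch.old` by `RT.ind`. -/

namespace Vale.Agent.P235

open Finset

variable {V : Type} [DecidableEq V] [PseudoMetricSpace V] {k : ℕ}

/-- A schedule of kept ancestors for thresholds `θ`. -/
structure Sch (R : RT V k) (θ : V → Finset ℝ) (mE : ℕ) (E : V → Finset V) : Prop where
  root : E R.o = ∅
  card : ∀ u, (E u).card ≤ mE
  sub : ∀ u, u ≠ R.o → E u ⊆ insert u (E (R.par u))
  self : ∀ u, u ≠ R.o → u ∈ E u
  first : ∀ u, u ≠ R.o → ∀ b ∈ insert u (E (R.par u)), ∃ b₀ ∈ E u, R.dep b₀ ≤ R.dep b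
  young : ∀ u, u ≠ R.o → ∀ z ∈ R.S u, ∀ t ∈ θ u, ∀ b ∈ insert u (E (R.par u)), t ≤ R.D b z →
    ∃ b₁ ∈ E u, R.dep b ≤ R.dep b₁ ∧ t ≤ R.D b₁ z
  older : ∀ u, u ≠ R.o → ∀ z ∈ R.S u, ∀ t ∈ θ u, ∀ b ∈ insert u (E (R.par u)), R.D b z < t →
    ∃ b₂ ∈ E u, R.dep b₂ ≤ R.dep b ∧ R.D b₂ z < t

theorem exists_sch (R : RT V k) (θ : V → Finset ℝ) (n : ℕ) (hθ : ∀ u, (θ u).card ≤ n) :
    ∃ E, Sch R θ (2 + 2 * k * n) E := by
  classical
  obtain ⟨E, h1, h2⟩ := R.exists_rec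
    (fun u (E : Finset V) => (u = R.o → E = ∅) ∧ E.card ≤ 2 + 2 * k * n)
    (fun u E E' => E' ⊆ insert u E ∧ u ∈ E' ∧ (∀ b ∈ insert u E, ∃ b₀ ∈ E', R.dep b₀ ≤ R.dep b) ∧
      (∀ z ∈ R.S u, ∀ t ∈ θ u, ∀ b ∈ insert u E, t ≤ R.D b z →
        ∃ b₁ ∈ E', R.dep b ≤ R.dep b₁ ∧ t ≤ R.D b₁ z) ∧
      ∀ z ∈ R.S u, ∀ t ∈ θ u, ∀ b ∈ insert u E, R.D b z < t →
        ∃ b₂ ∈ E', R.dep b₂ ≤ R.dep b ∧ R.D b₂ z < t)
    ⟨∅, fun _ => rfl, by simp⟩ (by
      intro u hu E _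
      obtain ⟨b₀, k1, k2⟩ := exists_min_image (insert u E) R.dep (insert_nonempty _ _)
      have hY : ∀ p : V × ℝ, ∃ y ∈ insert u E, ∀ b ∈ insert u E, p.2 ≤ R.D b p.1 →
          R.dep b ≤ R.dep y ∧ p.2 ≤ R.D y p.1 := by
        intro p
        rcases ((insert u E).filter fun b => p.2 ≤ R.D b p.1).eq_empty_or_nonempty with h | h
        · exact ⟨u, mem_insert_self _ _, fun b hb h' =>
            absurd (h ▸ mem_filter.2 ⟨hb, h'⟩) (notMem_empty b)⟩
        · obtain ⟨y, a1, a2⟩ := exists_max_image _ R.dep h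
          exact ⟨y, (mem_filter.1 a1).1, fun b hb h' =>
            ⟨a2 b (mem_filter.2 ⟨hb, h'⟩), (mem_filter.1 a1).2⟩⟩
      have hO : ∀ p : V × ℝ, ∃ y ∈ insert u E, ∀ b ∈ insert u E, R.D b p.1 < p.2 →
          R.dep y ≤ R.dep b ∧ R.D y p.1 < p.2 := by
        intro p
        rcases ((insert u E).filter fun b => R.D b p.1 < p.2).eq_empty_or_nonempty with h | h
        · exact ⟨u, mem_insert_self _ _, fun b hb h' =>
            absurd (h ▸ mem_filter.2 ⟨hb, h'⟩) (notMem_empty b)⟩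
        · obtain ⟨y, a1, a2⟩ := exists_min_image _ R.dep h
          exact ⟨y, (mem_filter.1 a1).1, fun b hb h' =>
            ⟨a2 b (mem_filter.2 ⟨hb, h'⟩), (mem_filter.1 a1).2⟩⟩
      choose Y y1 y2 using hY
      choose O o1 o2 using hO
      refine ⟨insert u (insert b₀ ((R.S u ×ˢ θ u).image Y ∪ (R.S u ×ˢ θ u).image O)),
        ⟨fun h => absurd h hu, ?_⟩, fun b hb => ?_, mem_insert_self _ _,
        fun b hb => ⟨b₀, by simp, k2 b hb⟩, fun z hz t ht b hb h => ⟨Y (z, t), ?_, y2 _ b hb h⟩,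
        fun z hz t ht b hb h => ⟨O (z, t), ?_, o2 _ b hb h⟩⟩
      · have a1 : (R.S u ×ˢ θ u).card ≤ k * n := by
          rw [card_product]; exact Nat.mul_le_mul (R.card_S u) (hθ u)
        have a2 := (card_image_le (s := R.S u ×ˢ θ u) (f := Y)).trans a1
        have a3 := (card_image_le (s := R.S u ×ˢ θ u) (f := O)).trans a1
        have a4 := card_union_le ((R.S u ×ˢ θ u).image Y) ((R.S u ×ˢ θ u).image O)
        have a5 := card_insert_le b₀ ((R.S u ×ˢ θ u).image Y ∪ (R.S u ×ˢ θ u).image O)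
        refine (card_insert_le _ _).trans ?_
        rw [mul_assoc]
        omega
      · simp only [mem_insert, mem_union, mem_image] at hb
        rcases hb with rfl | rfl | ⟨p, -, rfl⟩ | ⟨p, -, rfl⟩
        exacts [mem_insert_self _ _, k1, y1 p, o1 p]
      · exact mem_insert_of_mem (mem_insert_of_mem (mem_union_left _
          (mem_image_of_mem _ (mem_product.2 ⟨hz, ht⟩))))
      · exact mem_insert_of_mem (mem_insert_of_mem (mem_union_right _
          (mem_image_of_mem _ (mem_product.2 ⟨hz, ht⟩)))))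
  exact ⟨E, (h1 _).1 rfl, fun u => (h1 u).2, fun u hu => (h2 u hu).1, fun u hu => (h2 u hu).2.1,
    fun u hu => (h2 u hu).2.2.1, fun u hu => (h2 u hu).2.2.2.1, fun u hu => (h2 u hu).2.2.2.2⟩

variable {R : RT V k} {θ : V → Finset ℝ} {mE : ℕ} {E : V → Finset V}

theorem Sch.anc (h : Sch R θ mE E) {u b : V} (hb : b ∈ E u) : b ≠ R.o ∧ R.Anc b u := by
  revert hb
  refine R.ind (fun u => b ∈ E u → b ≠ R.o ∧ R.Anc b u) (fun hb => ?_) (fun u hu ih hb => ?_) u
  · rw [h.root] at hb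
    exact absurd hb (notMem_empty b)
  · rcases mem_insert.1 (h.sub u hu hb) with rfl | h1
    · exact ⟨hu, R.anc_refl _⟩
    · exact ⟨(ih h1).1, R.anc_trans (ih h1).2 (R.anc_par hu)⟩

theorem Sch.old (h : Sch R θ mE E) {u : V} (hu : u ≠ R.o) : ∃ b ∈ E u, R.dep b = 1 := by
  revert hu
  refine R.ind (fun u => u ≠ R.o → ∃ b ∈ E u, R.dep b = 1) (fun h0 => absurd rfl h0)
    (fun u hu ih _ => ?_) u
  by_cases hp : R.par u = R.o
  · exact ⟨u, h.self u hu, by rw [R.dep_par u hu, hp, R.dep_o]⟩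
  · obtain ⟨b, h1, h2⟩ := ih hp
    obtain ⟨b₀, h3, h4⟩ := h.first u hu b (mem_insert_of_mem h1)
    have := mt R.dep_eq_zero.1 (h.anc h3).1
    exact ⟨b₀, h3, by omega⟩

end Vale.Agent.P235
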