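import Vale.Agent.P235.Cert
import Vale.Agent.P235.Far
import Vale.Agent.P235.Pair

/-! Construction of the system of laws. Plan: `M = 10 (k+1)`, `ε = 1 / (20 (k+1))`, `δ` from
`exists_law (mE * (k * k * 3)) (1 + mE * k) (2 * M + 1) ε`, `W = δ / (80 M)`.
`ι = V × V × V × Fin 3`, `G (b, p, q, j) = ![δ • res b (g b p q), δ • res b (D b), (W/10) • res b (D b)] j`
(`δ`-Lipschitz by `res_lip`, `Lip.smul`; zero at `o` by `res_out`, `eq_o_of_anc`, `D_o`, `g_o`),
`A u = (E u).biUnion fun b => {b} ×ˢ S b ×ˢ S b ×ˢ univ`, `T u = insert o ((E u).biUnion S)`.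
A new index at `u` has `b = u` (`Sch.sub`), and points of `T u` are not below `u`
(`Sch.anc`, `not_anc_of_mem_S`). `anti` field: trivial if `dist x y = 0`, else `pair`, `res_eq` and
`anti` with `a = δ * dist x y / 40` (for `j = 1, 2` use `p = q = par b`). `cons` from `nu_cons` with
`U = T u` and `Dep.mono` (`u ∈ E u`). -/

namespace Vale.Agent.P235

open Finset

theorem setup (k mE : ℕ) : ∃ (M : ℕ) (W : ℝ), 1 ≤ M ∧ 0 < W ∧ W ≤ 1 ∧
    ∀ (V : Type) [Fintype V] [DecidableEq V] [PseudoMetricSpace V] (R : RT V k)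
      (θ : V → Finset ℝ) (E : V → Finset V), R.Loc → Sch R θ mE E →
      (∀ u, ∀ p ∈ R.S u, ∀ q ∈ R.S u, dist p q / 25 ∈ θ u) → ∃ μ, Sys R E M W μ := by
  have hk : (0 : ℝ) < (k : ℝ) + 1 := by positivity
  have hε : (0 : ℝ) < 1 / (20 * ((k : ℝ) + 1)) := by positivity
  obtain ⟨δ, hδ, hδ1, H⟩ := exists_law (mE * (k * k * 3)) (1 + mE * k) (2 * (10 * (k + 1)) + 1)
    (Nat.succ_pos _) (1 / (20 * ((k : ℝ) + 1))) hε
  obtain ⟨M, hM⟩ : ∃ M : ℕ, M = 10 * (k + 1) := ⟨_, rfl⟩
  have hM1 : 1 ≤ M := by omega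
  have hMr : (M : ℝ) = 10 * ((k : ℝ) + 1) := by rw [hM]; push_cast; ring
  have hMr1 : (1 : ℝ) ≤ M := by exact_mod_cast hM1
  rw [← hM] at H
  obtain ⟨W, hW⟩ : ∃ W : ℝ, W = δ / (80 * M) := ⟨_, rfl⟩
  have hW0 : 0 < W := by rw [hW]; positivity
  have hWδ : W ≤ δ := by
    rw [hW]
    exact div_le_self hδ.le (by linarith)
  refine ⟨M, W, hM1, hW0, hWδ.trans hδ1, ?_⟩
  intro V _ _ _ R θ E hL hS hθ
  let c : Fin 3 → ℝ := ![δ, δ, W / 10]
  let f : V → V → V → Fin 3 → V → ℝ := fun b p q => ![R.g b p q, R.D b, R.D b]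
  have hc : ∀ j, 0 ≤ c j ∧ c j ≤ δ := by
    intro j
    fin_cases j
    · exact ⟨hδ.le, le_rfl⟩
    · exact ⟨hδ.le, le_rfl⟩
    · exact ⟨show 0 ≤ W / 10 by linarith, show W / 10 ≤ δ by linarith⟩
  have hf : ∀ b p q j, Lip 1 (f b p q j) ∧ (∀ z ∈ R.S b, f b p q j z = 0) := by
    intro b p q j
    fin_cases j
    · exact ⟨R.g_lip b p q, fun z hz => R.g_zero hz p q⟩
    · exact ⟨R.D_lip b, fun z hz => R.D_zero hz⟩
    · exact ⟨R.D_lip b, fun z hz => R.D_zero hz⟩
  have hfo : ∀ p q j x, f R.o p q j x = 0 := by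
    intro p q j x
    fin_cases j
    · exact R.g_o p q x
    · exact R.D_o x
    · exact R.D_o x
  let G : V × V × V × Fin 3 → V → ℝ := fun i =>
    c i.2.2.2 • R.res i.1 (f i.1 i.2.1 i.2.2.1 i.2.2.2)
  let A : V → Finset (V × V × V × Fin 3) := fun u =>
    (E u).biUnion fun b => {b} ×ˢ R.S b ×ˢ R.S b ×ˢ (univ : Finset (Fin 3))
  let T : V → Finset V := fun u => insert R.o ((E u).biUnion R.S)
  have hA : ∀ u (i : V × V × V × Fin 3),
      i ∈ A u ↔ i.1 ∈ E u ∧ i.2.1 ∈ R.S i.1 ∧ i.2.2.1 ∈ R.S i.1 := by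
    rintro u ⟨b, p, q, j⟩
    simp only [A, mem_biUnion, mem_product, mem_singleton, mem_univ, and_true]
    constructor
    · rintro ⟨a, ha, rfl, h⟩
      exact ⟨ha, h⟩
    · rintro ⟨ha, h⟩
      exact ⟨b, ha, rfl, h⟩
  have hT : ∀ u b, b ∈ E u → R.S b ⊆ T u := fun u b hb z hz =>
    mem_insert_of_mem (mem_biUnion.2 ⟨b, hb, hz⟩)
  obtain ⟨μ, h1, h2, h3⟩ := H V (V × V × V × Fin 3) k R (vl M) G A T (vl_abs M) (vl_sum M)
    (by
      rintro ⟨b, p, q, j⟩
      refine ⟨((R.res_lip hL zero_le_one (hf b p q j).1 (hf b p q j).2).smul (c j)).mono ?_, ?_⟩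
      · rw [abs_of_nonneg (hc j).1, mul_one]
        exact (hc j).2
      · show c j * R.res b (f b p q j) R.o = 0
        by_cases hb : R.Anc b R.o
        · have hbo := R.eq_o_of_anc hb
          subst hbo
          simp [RT.res, hfo]
        · rw [R.res_out hb, mul_zero])
    (by
      intro u
      refine (card_biUnion_le_card_mul _ _ (k * k * 3) ?_).trans
        (Nat.mul_le_mul_right _ (hS.card u))
      intro b _
      simp only [card_product, card_singleton, card_univ, Fintype.card_fin, one_mul]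
      have := R.card_S b
      calc (R.S b).card * ((R.S b).card * 3) ≤ k * (k * 3) := by gcongr
        _ = k * k * 3 := by ring)
    (by
      intro u
      refine (card_insert_le _ _).trans ?_
      have := (card_biUnion_le_card_mul (E u) R.S k fun b _ => R.card_S b).trans
        (Nat.mul_le_mul_right _ (hS.card u))
      omega)
    (fun u => mem_insert_self _ _)
    (by
      rintro u hu ⟨b, p, q, j⟩ hi hi' v hv
      rw [hA] at hi hi'
      have hb : b = u := by
        rcases mem_insert.1 (hS.sub u hu hi.1) with h | h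
        · exact h
        · exact absurd ⟨h, hi.2⟩ hi'
      subst hb
      have hn : ¬ R.Anc b v := by
        intro h
        rcases mem_insert.1 hv with h' | h'
        · rw [h'] at h
          exact hu (R.eq_o_of_anc h)
        · obtain ⟨b', hb', hv'⟩ := mem_biUnion.1 h'
          exact R.not_anc_of_mem_S hv' (R.anc_trans (hS.anc hb').2 h)
      show c j * R.res b (f b p q j) v = 0
      rw [R.res_out hn, mul_zero])
  have hpar : ∀ u b, b ∈ E u → ∀ j : Fin 3, (b, R.par b, R.par b, j) ∈ A u := fun u b hb j =>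
    (hA u _).2 ⟨hb, R.par_mem b (hS.anc hb).1, R.par_mem b (hS.anc hb).1⟩
  refine ⟨μ, h1, ?_, ?_, ?_⟩
  · intro u x hx y hy
    have hd : 0 ≤ dist x y := dist_nonneg
    rcases hd.eq_or_lt with hd | hd
    · have : (Ex (μ u) fun h => ind (W * dist x y ≤ |h x - h y|)) = Ex (μ u) fun _ => 1 :=
        Ex_congr fun h _ => ind_pos (by rw [← hd, mul_zero]; exact abs_nonneg _)
      rw [this, (h1 u).2]
      have : (0 : ℝ) < 1 / (10 * ((k : ℝ) + 1)) := by positivity
      linarith
    · have key : ∀ b p q j, (b, p, q, j) ∈ A u → c j = δ →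
          dist x y / 40 ≤ |f b p q j x - f b p q j y| →
          1 - 1 / (10 * ((k : ℝ) + 1)) ≤ Ex (μ u) fun h => ind (W * dist x y ≤ |h x - h y|) := by
        intro b p q j hi hj hxy
        have hb := (hS.anc ((hA u _).1 hi).1).2
        have ha : δ * dist x y / 40 ≤ |G (b, p, q, j) x - G (b, p, q, j) y| := by
          show δ * dist x y / 40 ≤ |c j * R.res b (f b p q j) x - c j * R.res b (f b p q j) y|
          rw [R.res_eq hb hx (hf b p q j).2, R.res_eq hb hy (hf b p q j).2, hj, ← mul_sub,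
            abs_mul, abs_of_pos hδ, mul_div_assoc]
          exact mul_le_mul_of_nonneg_left hxy hδ.le
        have h4 := anti hM1 hε.le (h2 u _ hi) ha
        have h5 : δ * dist x y / 40 / (2 * (M : ℝ)) = W * dist x y := by
          rw [hW]
          field_simp
          ring
        rw [h5] at h4
        refine le_trans ?_ h4
        have h6 : 1 / (2 * (M : ℝ) + 1) ≤ 1 / (20 * ((k : ℝ) + 1)) :=
          one_div_le_one_div_of_le (by positivity) (by rw [hMr]; linarith)
        have h7 : 1 / (10 * ((k : ℝ) + 1)) =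
            1 / (20 * ((k : ℝ) + 1)) + 1 / (20 * ((k : ℝ) + 1)) := by
          field_simp
          ring
        linarith
      obtain ⟨b, hb, h | ⟨p, hp, q, hq, h⟩⟩ := pair hL hS hθ hx hy hd
      · exact key b _ _ 1 (hpar u b hb 1) rfl h
      · exact key b p q 0 ((hA u _).2 ⟨hb, hp, hq⟩) rfl h
  · intro u b hb
    have h4 := h2 u _ (hpar u b hb 2)
    have h5 : G (b, R.par b, R.par b, 2) = (W / 10) • R.res b (R.D b) := rfl
    rw [h5] at h4
    refine h4.mono ?_
    exact one_div_le_one_div_of_le (by norm_num) (by linarith [Nat.cast_nonneg (α := ℝ) k])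
  · intro T' hT' u hu b hb Φ hΦ
    refine nu_cons (h1 u).1 (h1 _).1 (h1 u).2 (h1 _).2 (T u) (h3 u hu) hT' Φ (hΦ.mono ?_)
    exact coe_subset.2 (union_subset (hT u b hb) (hT u u (hS.self u hu)))

end Vale.Agent.P235
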